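import Vale.Agent.P065.H154.Frame
import Vale.Agent.P065.H700.Budget2

/-!
# P065: the coarse content of the slope filtration (helper987)

`C := cols F ln p lam f f0 f1` (FRAME). For a filtration of the fine boxes which starts with the
slope cell `S` of the column, and whose relevant cells have label masses at least `exp (-E)`, the
coarse content of each label is at most `2 * 2 ^ PP * PP * nT * E`.
-/

set_option autoImplicit false

open Finset Real

noncomputable section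

namespace Vale.Agent.P065.H987

open Vale.Agent.P065.UB Vale.Agent.P065.Ent Vale.Agent.P065.H154 Vale.Agent.P065.H700

/-- telescoping with step `P` -/
theorem tele (G : ℕ → ℝ) (P n : ℕ) :
    ∑ j ∈ range n, (G (j + P) - G j) = ∑ j ∈ range P, (G (j + n) - G j) := by
  induction n with
  | zero => simp
  | succ n ih =>
    rw [sum_range_succ, ih]
    have h1 : ∑ j ∈ range P, (G (j + 1 + n) - G (j + n)) = G (P + n) - G (0 + n) :=
      sum_range_sub (fun j => G (j + n)) P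
    have h2 : ∑ j ∈ range P, (G (j + (n + 1)) - G j) =
        ∑ j ∈ range P, (G (j + n) - G j) + ∑ j ∈ range P, (G (j + 1 + n) - G (j + n)) := by
      rw [← sum_add_distrib]
      refine sum_congr rfl fun j _ => ?_
      have e : j + (n + 1) = j + 1 + n := by ring
      rw [e]
      ring
    rw [h2, h1, zero_add, add_comm P n]

/-- the pathwise bound -/
theorem path_le (g : ℕ → ℝ) (hg : ∀ j, 0 ≤ g j) (hm : ∀ j j', j ≤ j' → g j ≤ g j') {E : ℝ}
    (hE : 0 ≤ E) (P n : ℕ) :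
    ∑ j ∈ range n, (if g (j + P) ≤ E then g (j + P) - g j else 0) ≤ P * E := by
  set G : ℕ → ℝ := fun j => min (g j) E with hG
  have h1 : ∀ j ∈ range n, (if g (j + P) ≤ E then g (j + P) - g j else 0) ≤ G (j + P) - G j := by
    intro j _
    have h2 := hm j (j + P) (Nat.le_add_right _ _)
    simp only [hG]
    split_ifs with h3
    · rw [min_eq_left h3, min_eq_left (h2.trans h3)]
    · have := min_le_min_right E h2
      linarith
  refine (sum_le_sum h1).trans ?_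
  rw [tele]
  have h2 : ∀ j ∈ range P, G (j + n) - G j ≤ E := by
    intro j _
    have h3 : G (j + n) ≤ E := min_le_right _ _
    have h4 : 0 ≤ G j := le_min (hg j) hE
    linarith
  refine (sum_le_sum h2).trans ?_
  rw [sum_const, card_range, nsmul_eq_mul]

variable {Ω : Type*} [Fintype Ω] {Lab : Type*} {F : Fr Ω} {ln : Ω → Pt} {p : Prm}
  {lam : Ω → Lab} {f : p.Col → (ℕ × Lab) × ℤ × ℤ → ℝ} {f0 : ∀ k r, 0 ≤ f k r}
  {f1 : ∀ k r, f k r ≤ 1} {μ : Ω → ℝ}

/-- the surprise of the slope cell of the scale `k₀ + j` -/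
def gs (μ : Ω → ℝ) (ln : Ω → Pt) (p : Prm) (a : Bool) (j : ℕ) (ω : Ω) : ℝ :=
  - log (Pr μ (fun ω' => Sc p.k₀ a (p.k₀ + j) (ln ω')) (Sc p.k₀ a (p.k₀ + j) (ln ω)))

/-- the block of the label `b` -/
def bd (b : Bool) (c : p.Kap) : ℕ := if b then Prm.b1 c else Prm.b0 c

omit [Fintype Ω] in
theorem bk_of_lb {b : Bool} {c : p.Col} {ω : Ω} (h : lb ln p c ω = some b) :
    bk p.k₀ (Prm.sy c.1) (Prm.sc c.1) p.PP (ln ω) = bd b c.1 := by
  unfold lb at h
  unfold bd
  split_ifs at h with h1 h2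
  · cases b
    · simpa using h1
    · simp at h
  · cases b
    · simp at h
    · simpa using h2

omit [Fintype Ω] in
/-- the label depends on the block only -/
theorem lb_of_bk {c : p.Col} {ω ω' : Ω}
    (h : bk p.k₀ (Prm.sy c.1) (Prm.sc c.1) p.PP (ln ω) =
      bk p.k₀ (Prm.sy c.1) (Prm.sc c.1) p.PP (ln ω')) : lb ln p c ω = lb ln p c ω' := by
  unfold lb
  rw [h]

omit [Fintype Ω] in
/-- label and slope cell are the slope cell `PP` digits below -/
theorem lb_iff {b : Bool} {c : p.Col} {ω ω' : Ω} (h : lb ln p c ω = some b) :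
    (lb ln p c ω' = some b ∧ Prm.S c.1 (ln ω') = Prm.S c.1 (ln ω)) ↔
      Sc p.k₀ (Prm.sy c.1) (Prm.sc c.1 + p.PP) (ln ω') =
        Sc p.k₀ (Prm.sy c.1) (Prm.sc c.1 + p.PP) (ln ω) := by
  have e1 := Sc_add p.k₀ (Prm.sy c.1) (Prm.sc c.1) p.PP (ln ω)
  have e2 := Sc_add p.k₀ (Prm.sy c.1) (Prm.sc c.1) p.PP (ln ω')
  constructor
  · rintro ⟨h1, h2⟩
    unfold Prm.S at h2
    rw [e1, e2, bk_of_lb h, bk_of_lb h1, h2]
  · intro h1
    have h2 : Sc p.k₀ (Prm.sy c.1) (Prm.sc c.1) (ln ω') =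
        Sc p.k₀ (Prm.sy c.1) (Prm.sc c.1) (ln ω) := Sc_nest (by omega) h1
    refine ⟨?_, h2⟩
    rw [e1, e2, h2] at h1
    have h3 : bk p.k₀ (Prm.sy c.1) (Prm.sc c.1) p.PP (ln ω') =
        bk p.k₀ (Prm.sy c.1) (Prm.sc c.1) p.PP (ln ω) := by linarith
    rw [lb_of_bk h3, h]

theorem Pr_lb {b : Bool} {c : p.Col} {ω : Ω} (h : lb ln p c ω = some b) :
    Pr μ (fun ω => (lb ln p c ω, Prm.S c.1 (ln ω))) (some b, Prm.S c.1 (ln ω)) =
      Pr μ (fun ω' => Sc p.k₀ (Prm.sy c.1) (Prm.sc c.1 + p.PP) (ln ω'))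
        (Sc p.k₀ (Prm.sy c.1) (Prm.sc c.1 + p.PP) (ln ω)) := by
  classical
  unfold Pr
  refine sum_congr rfl fun ω' _ => ?_
  have := lb_iff (ω' := ω') h
  by_cases h1 : Sc p.k₀ (Prm.sy c.1) (Prm.sc c.1 + p.PP) (ln ω') =
      Sc p.k₀ (Prm.sy c.1) (Prm.sc c.1 + p.PP) (ln ω)
  · obtain ⟨h2, h3⟩ := this.2 h1
    rw [if_pos h1, if_pos (Prod.ext h2 h3)]
  · rw [if_neg h1, if_neg]
    intro h2
    obtain ⟨h3, h4⟩ := Prod.mk.inj h2
    exact h1 (this.1 ⟨h3, h4⟩)

theorem gs_nonneg (hμ : IsProb μ) (a : Bool) (j : ℕ) (ω : Ω) : 0 ≤ gs μ ln p a j ω := by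
  unfold gs
  have := log_nonpos (Pr_nonneg hμ (fun ω' => Sc p.k₀ a (p.k₀ + j) (ln ω'))
    (Sc p.k₀ a (p.k₀ + j) (ln ω))) (Pr_le_one hμ _ _)
  linarith

theorem gs_mono (hμ : IsProb μ) {ω : Ω} (hω : 0 < μ ω) (a : Bool) {j j' : ℕ} (h : j ≤ j') :
    gs μ ln p a j ω ≤ gs μ ln p a j' ω := by
  unfold gs
  have h1 : Det (fun ω' => Sc p.k₀ a (p.k₀ + j') (ln ω')) (fun ω' => Sc p.k₀ a (p.k₀ + j) (ln ω')) :=
    fun _ _ e => Sc_nest (by omega) e
  have h2 := Pr_mono hμ h1 ω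
  have h3 := Pr_pos hμ (fun ω' => Sc p.k₀ a (p.k₀ + j') (ln ω')) hω
  have := log_le_log h3 h2
  linarith

open Classical in
/-- the cost of one flag in one slope scale -/
def Tj (μ : Ω → ℝ) (ln : Ω → Pt) (p : Prm) (E : ℝ) (a : Bool) (j : ℕ) (ω : Ω) : ℝ :=
  if gs μ ln p a (j + p.PP) ω ≤ E then gs μ ln p a (j + p.PP) ω - gs μ ln p a j ω else 0

theorem Tj_nonneg (hμ : IsProb μ) {ω : Ω} (hω : 0 < μ ω) (E : ℝ) (a : Bool) (j : ℕ) :
    0 ≤ Tj μ ln p E a j ω := by
  unfold Tj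
  split_ifs
  · have := gs_mono (ln := ln) (p := p) hμ hω a (Nat.le_add_right j p.PP)
    linarith
  · exact le_rfl

theorem sum_Tj (hμ : IsProb μ) {ω : Ω} (hω : 0 < μ ω) {E : ℝ} (hE : 0 ≤ E) (a : Bool) (n : ℕ) :
    ∑ j ∈ range n, Tj μ ln p E a j ω ≤ p.PP * E := by
  have := path_le (fun j => gs μ ln p a j ω) (fun j => gs_nonneg hμ a j ω)
    (fun j j' h => gs_mono hμ hω a h) hE p.PP n
  refine le_trans (le_of_eq ?_) this
  refine sum_congr rfl fun j _ => ?_
  unfold Tj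
  split_ifs <;> rfl

open Classical in
/-- the sum over the columns, for one flag -/
theorem sum_col (hμ : IsProb μ) {ω : Ω} (hω : 0 < μ ω) {E : ℝ} (hE : 0 ≤ E) (b : Bool) :
    ∑ c : p.Col, (if bk p.k₀ (Prm.sy c.1) (Prm.sc c.1) p.PP (ln ω) = bd b c.1 then
      Tj μ ln p E (Prm.sy c.1) (Prm.js c.1) ω else 0) ≤ 2 * 2 ^ p.PP * p.PP * p.nT * E := by
  have h1 : ∀ (a : Bool) (j : Fin (p.K + 1)), ∑ y : Fin (2 ^ p.PP) × Fin (2 ^ p.PP),
      (if bk p.k₀ a (p.k₀ + j) p.PP (ln ω) = bd (p := p) b (a, j, y) then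
        Tj μ ln p E a j ω else 0) ≤ 2 ^ p.PP * Tj μ ln p E a j ω := by
    intro a j
    have h0 := Tj_nonneg (ln := ln) (p := p) hμ hω E a j
    rw [Fintype.sum_prod_type]
    cases b
    · -- the first block is prescribed
      have h2 : ∀ x : Fin (2 ^ p.PP), ∑ y : Fin (2 ^ p.PP),
          (if bk p.k₀ a (p.k₀ + j) p.PP (ln ω) = bd (p := p) false (a, j, (x, y)) then
            Tj μ ln p E a j ω else 0) =
          2 ^ p.PP * (if bk p.k₀ a (p.k₀ + j) p.PP (ln ω) = (x : ℕ) then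
            Tj μ ln p E a j ω else 0) := by
        intro x
        have : ∀ y : Fin (2 ^ p.PP), bd (p := p) false (a, j, (x, y)) = (x : ℕ) := fun _ => rfl
        simp only [this]
        rw [sum_const, card_univ, Fintype.card_fin, nsmul_eq_mul]
        push_cast
        rfl
      rw [sum_congr rfl fun x _ => h2 x, ← mul_sum]
      refine mul_le_mul_of_nonneg_left ?_ (by positivity)
      by_cases hex : ∃ x : Fin (2 ^ p.PP), bk p.k₀ a (p.k₀ + j) p.PP (ln ω) = (x : ℕ)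
      · obtain ⟨x, hx⟩ := hex
        rw [sum_eq_single x]
        · rw [if_pos hx]
        · intro y _ hy
          rw [if_neg]
          intro hy'
          rw [hx] at hy'
          exact hy (Fin.ext (by exact_mod_cast hy'.symm))
        · intro h
          exact absurd (mem_univ _) h
      · refine le_trans (le_of_eq ?_) h0
        refine sum_eq_zero fun x _ => ?_
        rw [if_neg fun h => hex ⟨x, h⟩]
    · -- the second block is prescribed
      have h2 : ∀ x : Fin (2 ^ p.PP), ∑ y : Fin (2 ^ p.PP),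
          (if bk p.k₀ a (p.k₀ + j) p.PP (ln ω) = bd (p := p) true (a, j, (x, y)) then
            Tj μ ln p E a j ω else 0) ≤ Tj μ ln p E a j ω := by
        intro x
        have : ∀ y : Fin (2 ^ p.PP), bd (p := p) true (a, j, (x, y)) = (y : ℕ) := fun _ => rfl
        simp only [this]
        by_cases hex : ∃ y : Fin (2 ^ p.PP), bk p.k₀ a (p.k₀ + j) p.PP (ln ω) = (y : ℕ)
        · obtain ⟨y, hy⟩ := hex
          rw [sum_eq_single y]
          · rw [if_pos hy]
          · intro z _ hz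
            rw [if_neg]
            intro hz'
            rw [hy] at hz'
            exact hz (Fin.ext (by exact_mod_cast hz'.symm))
          · intro h
            exact absurd (mem_univ _) h
        · refine le_trans (le_of_eq ?_) h0
          refine sum_eq_zero fun y _ => ?_
          rw [if_neg fun h => hex ⟨y, h⟩]
      refine (sum_le_sum fun x _ => h2 x).trans (le_of_eq ?_)
      rw [sum_const, card_univ, Fintype.card_fin, nsmul_eq_mul]
      push_cast
      rfl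
  rw [Fintype.sum_prod_type]
  have h3 : ∀ c : p.Kap, ∑ i : Fin p.nT,
      (if bk p.k₀ (Prm.sy (c, i).1) (Prm.sc (c, i).1) p.PP (ln ω) = bd b (c, i).1 then
        Tj μ ln p E (Prm.sy (c, i).1) (Prm.js (c, i).1) ω else 0) =
      p.nT * (if bk p.k₀ (Prm.sy c) (Prm.sc c) p.PP (ln ω) = bd b c then
        Tj μ ln p E (Prm.sy c) (Prm.js c) ω else 0) := by
    intro c
    simp only [sum_const, card_univ, Fintype.card_fin, nsmul_eq_mul]
  rw [sum_congr rfl fun c _ => h3 c, ← mul_sum, Fintype.sum_prod_type]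
  have h4 : ∀ a : Bool, ∑ y : Fin (p.K + 1) × Fin (2 ^ p.PP) × Fin (2 ^ p.PP),
      (if bk p.k₀ (Prm.sy (p := p) (a, y)) (Prm.sc (p := p) (a, y)) p.PP (ln ω) =
        bd (p := p) b (a, y) then
        Tj μ ln p E (Prm.sy (p := p) (a, y)) (Prm.js (p := p) (a, y)) ω else 0) ≤
      2 ^ p.PP * (p.PP * E) := by
    intro a
    rw [Fintype.sum_prod_type]
    refine (sum_le_sum fun j _ => h1 a j).trans ?_
    rw [← mul_sum]
    refine mul_le_mul_of_nonneg_left ?_ (by positivity)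
    rw [Fin.sum_univ_eq_sum_range (fun j => Tj μ ln p E a j ω) (p.K + 1)]
    exact sum_Tj hμ hω hE a (p.K + 1)
  have h5 := sum_le_sum fun (a : Bool) (_ : a ∈ univ) => h4 a
  rw [sum_const, card_univ, Fintype.card_bool, nsmul_eq_mul] at h5
  calc _ ≤ (p.nT : ℝ) * (((2 : ℕ) : ℝ) * (2 ^ p.PP * (p.PP * E))) :=
        mul_le_mul_of_nonneg_left h5 (Nat.cast_nonneg _)
    _ = _ := by push_cast; ring

open Classical in
/-- **the coarse content of one label** -/
theorem A_le (hμ : IsProb μ) {E : ℝ} (hE : 0 ≤ E) (G : (cols F ln p lam f f0 f1).Filt)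
    (hR : ∀ c, Det (G.R 0 c) (fun ω => Prm.S c.1 (ln ω)))
    (hR' : ∀ c, Det (fun ω => Prm.S c.1 (ln ω)) (G.R 0 c))
    (hrel : ∀ c ω, G.rel c (G.R 0 c ω) → ∀ b, exp (-E) ≤
      Pr μ (fun ω => (lb ln p c ω, Prm.S c.1 (ln ω))) (some b, Prm.S c.1 (ln ω))) (b : Bool) :
    G.A μ b ≤ 2 * 2 ^ p.PP * p.PP * p.nT * E := by
  have h1 : G.A μ b ≤ ∑ c : p.Col, ∑ ω, μ ω *
      (if bk p.k₀ (Prm.sy c.1) (Prm.sc c.1) p.PP (ln ω) = bd b c.1 then
        Tj μ ln p E (Prm.sy c.1) (Prm.js c.1) ω else 0) := by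
    unfold Cols.Filt.A
    refine sum_le_sum fun c _ => sum_le_sum fun ω _ => ?_
    rcases (hμ.nonneg ω).eq_or_lt with h0 | h0
    · rw [← h0]
      simp
    split_ifs with h2 h3 h4
    · -- the label
      have hl : lb ln p c ω = some b := h2.1
      refine mul_le_mul_of_nonneg_left (le_of_eq ?_) h0.le
      have e1 : cp μ ((cols F ln p lam f f0 f1).E c) (some b) (G.R 0 c) ω =
          cp μ (lb ln p c) (some b) (fun ω => Prm.S c.1 (ln ω)) ω :=
        cp_congr _ _ (hR c) (hR' c) ω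
      have e2 := Pr_lb (μ := μ) hl
      have hp1 := Pr_pos hμ (fun ω' => Sc p.k₀ (Prm.sy c.1) (Prm.sc c.1 + p.PP) (ln ω')) h0
      have hp2 := Pr_pos hμ (fun ω' => Prm.S c.1 (ln ω')) h0
      have e3 : Prm.sc c.1 + (p.PP : ℤ) = p.k₀ + ((Prm.js c.1 + p.PP : ℕ) : ℤ) := by
        unfold Prm.sc Prm.js
        push_cast
        ring
      have e4 := hrel c ω h2.2 b
      rw [e2] at e4
      have e5 : gs μ ln p (Prm.sy c.1) (Prm.js c.1 + p.PP) ω ≤ E := by
        unfold gs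
        rw [← e3]
        have := log_le_log (exp_pos _) e4
        rw [log_exp] at this
        linarith
      rw [e1]
      unfold cp Tj
      rw [if_pos e5, e2, log_div hp1.ne' hp2.ne']
      unfold gs
      rw [← e3]
      have e6 : (fun ω' => Prm.S c.1 (ln ω')) =
          fun ω' => Sc p.k₀ (Prm.sy c.1) (p.k₀ + ((Prm.js c.1 : ℕ) : ℤ)) (ln ω') := rfl
      rw [e6]
      have e7 : Prm.S c.1 (ln ω) =
          Sc p.k₀ (Prm.sy c.1) (p.k₀ + ((Prm.js c.1 : ℕ) : ℤ)) (ln ω) := rfl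
      rw [e7]
      ring
    · exact absurd (bk_of_lb h2.1) h3
    · exact mul_nonneg h0.le (Tj_nonneg hμ h0 E _ _)
    · rw [mul_zero]
  refine h1.trans ?_
  rw [sum_comm]
  have h2 : ∀ ω, ∑ c : p.Col, μ ω *
      (if bk p.k₀ (Prm.sy c.1) (Prm.sc c.1) p.PP (ln ω) = bd b c.1 then
        Tj μ ln p E (Prm.sy c.1) (Prm.js c.1) ω else 0) ≤
      μ ω * (2 * 2 ^ p.PP * p.PP * p.nT * E) := by
    intro ω
    rw [← mul_sum]
    rcases (hμ.nonneg ω).eq_or_lt with h0 | h0
    · rw [← h0, zero_mul, zero_mul]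
    · exact mul_le_mul_of_nonneg_left (sum_col hμ h0 hE b) h0.le
  refine (sum_le_sum fun ω _ => h2 ω).trans (le_of_eq ?_)
  rw [← sum_mul, hμ.sum, one_mul]

/-! ## The corollaries for the budgets of 700 -/

/-- the content of the two labels, for all budgets -/
def XA (p : Prm) (E : ℝ) : ℝ := 2 * 2 ^ p.PP * p.PP * p.nT * E

/-- a filtration which starts with the slope cell and has heavy relevant cells -/
structure SlopeFilt (G : (cols F ln p lam f f0 f1).Filt) (μ : Ω → ℝ) (E : ℝ) : Prop where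
  R : ∀ c, Det (G.R 0 c) (fun ω => Prm.S c.1 (ln ω))
  R' : ∀ c, Det (fun ω => Prm.S c.1 (ln ω)) (G.R 0 c)
  rel : ∀ c ω, G.rel c (G.R 0 c ω) → ∀ b, exp (-E) ≤
    Pr μ (fun ω => (lb ln p c ω, Prm.S c.1 (ln ω))) (some b, Prm.S c.1 (ln ω))
  good : G.Good μ

theorem SlopeFilt.A_le {G : (cols F ln p lam f f0 f1).Filt} {E : ℝ} (h : SlopeFilt G μ E)
    (hμ : IsProb μ) (hE : 0 ≤ E) (b : Bool) : G.A μ b ≤ XA p E :=
  H987.A_le hμ hE G h.R h.R' h.rel b

theorem A'_le_A (hμ : IsProb μ) (G : (cols F ln p lam f f0 f1).Filt) (b : Bool) :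
    G.A' μ b ≤ G.A μ b := by
  classical
  unfold Cols.Filt.A' Cols.Filt.A
  refine sum_le_sum fun c _ => sum_le_sum fun ω _ => ?_
  split_ifs with h
  · refine mul_le_mul_of_nonneg_left ?_ (hμ.nonneg ω)
    have h1 := log_nonpos (cp_nonneg hμ ((cols F ln p lam f f0 f1).E c) (some b) (G.R 0 c) ω)
      (cp_le_one hμ _ _ _ _)
    have h2 := log_le_sub_one_of_pos (show 0 < 1 - log (cp μ ((cols F ln p lam f f0 f1).E c)
      (some b) (G.R 0 c) ω) by linarith)
    linarith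
  · exact le_rfl

/-- **(Q3)** with the coarse content inserted -/
theorem SlopeFilt.budget {G : (cols F ln p lam f f0 f1).Filt} {E : ℝ} (h : SlopeFilt G μ E)
    (hμ : IsProb μ) (hE : 0 ≤ E) (b : Bool) (n : ℕ) :
    ∑ j ∈ range n, ∑ t : p.Col × Ω, (cols F ln p lam f f0 f1).Q μ t *
      DE μ (lb ln p t.1) (some b) (G.R (j + 1) t.1) (G.R j t.1) (G.R j t.1 t.2) ≤
      XA p E / (cols F ln p lam f f0 f1).J μ :=
  (Cols.budget hμ G h.good b n).trans
    (div_le_div_of_nonneg_right (h.A_le hμ hE b) (Cols.J_nonneg hμ))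

/-- **(Q3')** with the coarse content inserted -/
theorem SlopeFilt.budget_rel {G : (cols F ln p lam f f0 f1).Filt} {E : ℝ} (h : SlopeFilt G μ E)
    (hμ : IsProb μ) (hE : 0 ≤ E) (b : Bool) (n : ℕ) :
    ∑ j ∈ range n, ∑ t : p.Col × Ω, (cols F ln p lam f f0 f1).Q μ t *
      (DE μ (lb ln p t.1) (some b) (G.R (j + 1) t.1) (G.R j t.1) (G.R j t.1 t.2) /
        (1 - log (cp μ (lb ln p t.1) (some b) (G.R j t.1) t.2))) ≤
      XA p E / (cols F ln p lam f f0 f1).J μ :=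
  (Cols.budget_rel hμ G h.good b n).trans
    (div_le_div_of_nonneg_right ((A'_le_A hμ G b).trans (h.A_le hμ hE b)) (Cols.J_nonneg hμ))

/-- **(Q4)** with the coarse content inserted -/
theorem SlopeFilt.budget_F {G : (cols F ln p lam f f0 f1).Filt} {E : ℝ} (h : SlopeFilt G μ E)
    (hμ : IsProb μ) (hE : 0 ≤ E) (hJ : 0 < (cols F ln p lam f f0 f1).J μ) (n : ℕ) :
    ∑ j ∈ range n, KLc ((cols F ln p lam f f0 f1).Q μ) (lft p.Col μ)
      (fun t => (t.1, G.R (j + 1) t.1 t.2)) (fun t => (t.1, G.R j t.1 t.2)) ≤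
      6 * XA p E / (cols F ln p lam f f0 f1).J μ := by
  have : Nonempty p.Col := by
    by_contra hne
    rw [not_nonempty_iff] at hne
    have : (cols F ln p lam f f0 f1).J μ = 0 := by
      unfold Cols.J
      exact Fintype.sum_empty _
    exact hJ.ne' this
  refine (Cols.budget_F hμ hJ G h.good n).trans (div_le_div_of_nonneg_right ?_ hJ.le)
  have h1 := h.A_le hμ hE false
  have h2 := h.A_le hμ hE true
  linarith

/-- the label masses of a slope cell are at least `exp (-E)` -/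
def rel0 (μ : Ω → ℝ) (ln : Ω → Pt) (p : Prm) (E : ℝ) (c : p.Col) (x : ℤ) : Prop :=
  ∀ b, exp (-E) ≤ Pr μ (fun ω => (lb ln p c ω, Prm.S c.1 (ln ω))) (some b, x)

/-- the types of the boxes -/
def tyS (ty : ℕ → Type) : ℕ → Type
  | 0 => ℤ
  | (t + 1) => ty t

/-- the boxes: the slope cell, then `N` -/
def RS (ln : Ω → Pt) (p : Prm) {ty : ℕ → Type} (N : ∀ t, p.Col → Ω → ty t) :
    ∀ j, p.Col → Ω → tyS ty j
  | 0 => fun c ω => Prm.S c.1 (ln ω)
  | (t + 1) => N t

/-- the boxes as functions of the fine box -/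
def rS (Lab : Type*) (p : Prm) {ty : ℕ → Type} (n : ∀ t, p.Col → (ℕ × Lab) × ℤ × ℤ → ty t) :
    ∀ j, p.Col → (ℕ × Lab) × ℤ × ℤ → tyS ty j
  | 0 => fun _ a => a.2.1
  | (t + 1) => n t

/-- **the filtration** of the columns which starts with the slope cell -/
def fil (f0 : ∀ k r, 0 ≤ f k r) (f1 : ∀ k r, f k r ≤ 1) (μ : Ω → ℝ) (E : ℝ) {ty : ℕ → Type}
    (N : ∀ t, p.Col → Ω → ty t) (n : ∀ t, p.Col → (ℕ × Lab) × ℤ × ℤ → ty t)
    (heq : ∀ t c ω, N t c ω = n t c (rho F ln p lam c ω)) (hdet : ∀ t c, Det (N (t + 1) c) (N t c))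
    (hdet0 : ∀ c, Det (N 0 c) (fun ω => Prm.S c.1 (ln ω))) :
    (cols F ln p lam f f0 f1).Filt where
  ty := tyS ty
  R := RS ln p N
  r := rS Lab p n
  eq := by
    intro j
    cases j with
    | zero => exact fun _ _ => rfl
    | succ t => exact heq t
  det := by
    intro j
    cases j with
    | zero => exact hdet0
    | succ t => exact hdet t
  rel := rel0 μ ln p E

theorem fil_good {E : ℝ} {ty : ℕ → Type}
    {N : ∀ t, p.Col → Ω → ty t} {n : ∀ t, p.Col → (ℕ × Lab) × ℤ × ℤ → ty t}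
    (heq : ∀ t c ω, N t c ω = n t c (rho F ln p lam c ω)) (hdet : ∀ t c, Det (N (t + 1) c) (N t c))
    (hdet0 : ∀ c, Det (N 0 c) (fun ω => Prm.S c.1 (ln ω)))
    (hsup : ∀ c ω, 0 < (cols F ln p lam f f0 f1).wt μ c (rho F ln p lam c ω) → ∀ b,
      exp (-E) ≤ Pr μ (fun ω => (lb ln p c ω, Prm.S c.1 (ln ω))) (some b, Prm.S c.1 (ln ω))) :
    SlopeFilt (fil f0 f1 μ E N n heq hdet hdet0) μ E where
  R := fun _ => Det.refl _
  R' := fun _ => Det.refl _
  rel := fun _ _ h => h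
  good := fun c ω h => hsup c ω h

end Vale.Agent.P065.H987
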