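import Vale.Agent.P065.H987.RowInfo1

/-!
# P065, ROWS: the informations of the boxes, part 2: the point informations (helper987)

`sum_DP_F`, `sum_KL_F`: the sums over levels, columns and boxes of the divergences `DP` and of the
divergences of the law `Q` of the box.
-/

set_option autoImplicit false

open Finset Real

noncomputable section

namespace Vale.Agent.P065.H987

open Vale.Agent.P065.UB Vale.Agent.P065.Ent Vale.Agent.P065.H154 Vale.Agent.P065.H700
  Vale.Agent.P065.H819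

variable {Ω : Type*} {F : Fr Ω} {ln : Ω → Pt} {p : Prm}

/-- the position variable of the box -/
def YP (F : Fr Ω) (ln : Ω → Pt) (p : Prm) (u : ℝ) (PB dX PY v : ℕ) (c : p.Col) (ω : Ω) :
    (ℤ × ℕ) × ℤ :=
  (Xt F u PB (v + dX) ω,
    dg PY (yy (Tv (xs F u) v) (fF ln p c) (cv (xs F u) (htF F ln p c) (fF ln p c) v)) ω)

lemma yy_h (u : ℝ) (v : ℕ) (c : p.Col) (ω : Ω) :
    yy (Tv (xs F u) v) (fF ln p c) (cv (xs F u) (htF F ln p c) (fF ln p c) v) ω =
      2 ^ v * htF F ln p c ω := by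
  unfold yy cv
  ring

lemma dg_yy (u : ℝ) (v PY : ℕ) (c : p.Col) (ω : Ω) :
    dg PY (yy (Tv (xs F u) v) (fF ln p c) (cv (xs F u) (htF F ln p c) (fF ln p c) v)) ω =
      ⌊(2 : ℝ) ^ ((v : ℤ) + (PY : ℤ)) * Prm.h c (F.P.x ω) (ln ω)⌋ := by
  unfold dg
  rw [yy_h, zpow_add₀ (by norm_num), zpow_natCast, zpow_natCast]
  unfold htF
  congr 1
  ring

lemma fl_yy (u : ℝ) (v lm : ℕ) (c : p.Col) (ω : Ω) :
    ⌊yy (Tv (xs F u) v) (fF ln p c) (cv (xs F u) (htF F ln p c) (fF ln p c) v) ω / 2 ^ lm⌋ =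
      ⌊(2 : ℝ) ^ ((v : ℤ) + (-(lm : ℤ))) * Prm.h c (F.P.x ω) (ln ω)⌋ := by
  rw [yy_h, zpow_add₀ (by norm_num), zpow_natCast, zpow_neg, zpow_natCast]
  unfold htF
  congr 1
  ring

/-- the time variable is determined by later boxes -/
lemma NF_X {u : ℝ} {PB a v gp dX : ℕ} {c : p.Col} {ω ω' : Ω}
    (he : NF F ln p u PB a (v + gp) c ω = NF F ln p u PB a (v + gp) c ω') (hd : dX ≤ gp) :
    Xt F u PB (v + dX) ω = Xt F u PB (v + dX) ω' := by
  unfold NF at he
  simp only [Prod.mk.injEq] at he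
  unfold Xt
  rw [Prod.mk.injEq]
  exact ⟨F.D_det_le u (Nat.add_le_add_left hd v) _ _ he.1, by omega⟩

section sums

variable [Fintype Ω] {Lab : Type*} {lam : Ω → Lab} {f : p.Col → (ℕ × Lab) × ℤ × ℤ → ℝ}
  {f0 : ∀ k r, 0 ≤ f k r} {f1 : ∀ k r, f k r ≤ 1} {μ : Ω → ℝ}

/-- the boxes of ROWS as data of `Bxs` -/
theorem exists_bxs (f0 : ∀ k r, 0 ≤ f k r) (f1 : ∀ k r, f k r ≤ 1) (μ : Ω → ℝ) (E : ℝ) (u : ℝ)
    (PB a : ℕ) : ∃ G : Bxs (cols F ln p lam f f0 f1) ℤ (Option (ℤ × ℕ × ℤ × ℤ)),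
      (G.R = fun v c ω => some (NF F ln p u PB a v c ω)) ∧
      ((∀ c ω, 0 < (cols F ln p lam f f0 f1).wt μ c (rho F ln p lam c ω) → ∀ b : Bool,
        exp (-E) ≤ Pr μ (fun ω => (lb ln p c ω, Prm.S c.1 (ln ω))) (some b, Prm.S c.1 (ln ω))) →
        G.Good μ) ∧ (IsProb μ → 0 ≤ E → ∀ b, G.A μ b ≤ XA p E) := by
  have h1 : ∀ v, ∃ n : p.Col → (ℕ × Lab) × ℤ × ℤ → Option (ℤ × ℕ × ℤ × ℤ), ∀ c ω,
      some (NF F ln p u PB a v c ω) = n c (rho F ln p lam c ω) := fun v =>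
    exists_box_fun (fun c ω => NF F ln p u PB a v c ω) fun c ω ω' h => NF_rho lam u PB a v c h
  choose n hn using h1
  refine ⟨bxs f0 f1 μ E (fun v c ω => some (NF F ln p u PB a v c ω)) n (fun v c ω => hn v c ω)
    ?_ ?_, rfl, fun h => bxs_good h, fun hμ hE b => bxs_A_le hμ hE b⟩
  · intro t c ω ω' h
    exact congrArg some (NF_det u PB a t c ω ω' (Option.some.inj h))
  · intro c ω ω' h
    have h2 := Option.some.inj h
    unfold NF at h2
    simp only [Prod.mk.injEq] at h2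
    exact h2.2.2.1

omit [Fintype Ω] in
/-- the event of a box -/
lemma BF_fun (u : ℝ) (PB a v : ℕ) (c : p.Col) (r : ℤ × ℤ × ℤ) :
    BF F ln p u PB a v c r =
      fun ω => some (NF F ln p u PB a v c ω) = some (xv PB v r) := by
  funext ω
  apply propext
  rw [BF_iff_NF, Option.some.injEq]

lemma MF_eq_MQ (C : Cols Ω p.Col ((ℕ × Lab) × ℤ × ℤ)) (u : ℝ) (PB a v : ℕ) (c : p.Col)
    (r : ℤ × ℤ × ℤ) : MF F ln p (C.Q μ) u PB a v c r =
      MQ C μ (fun c ω => some (NF F ln p u PB a v c ω)) c (some (xv PB v r)) := by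
  unfold MF MQ
  rw [BF_fun, H60.PE_eq_Pr]
  rfl

/-- the mass of a box is at most `1 / J` times the mass of each label -/
theorem MF_le (hμ : IsProb μ) (b : Bool) (u : ℝ) (PB a v : ℕ) (c : p.Col) (r : ℤ × ℤ × ℤ) :
    MF F ln p ((cols F ln p lam f f0 f1).Q μ) u PB a v c r ≤
      1 / (cols F ln p lam f f0 f1).J μ *
        PE μ (fun ω => lb ln p c ω = some b ∧ BF F ln p u PB a v c r ω) := by
  obtain ⟨G, hG, -, -⟩ := exists_bxs (F := F) (ln := ln) (p := p) (lam := lam) f0 f1 μ 0 u PB a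
  have h := P0 hμ (G.eq v) b c (some (xv PB v r))
  rw [hG] at h
  rw [MF_eq_MQ, BF_fun]
  exact h

/-- the labels of a box of positive mass are positive -/
theorem label_pos_F (hμ : IsProb μ) (hJ : 0 < (cols F ln p lam f f0 f1).J μ) (b : Bool) {u : ℝ}
    {PB a v : ℕ} {c : p.Col} {r : ℤ × ℤ × ℤ}
    (h : 0 < MF F ln p ((cols F ln p lam f f0 f1).Q μ) u PB a v c r) :
    0 < PE μ (fun ω => lb ln p c ω = some b ∧ BF F ln p u PB a v c r ω) := by
  have h1 := MF_le (F := F) (ln := ln) (lam := lam) (f0 := f0) (f1 := f1) hμ b u PB a v c r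
  have h2 : (0 : ℝ) < 1 / (cols F ln p lam f f0 f1).J μ := by positivity
  by_contra hcon
  push Not at hcon
  nlinarith

variable {E : ℝ} {u : ℝ} {PB a gp dX PY lm n : ℕ}

/-- **the divergences `DP`** -/
theorem sum_DP_F (hμ : IsProb μ) (hJ : 0 < (cols F ln p lam f f0 f1).J μ) (hE : 0 ≤ E)
    (hsup : ∀ c ω, 0 < (cols F ln p lam f f0 f1).wt μ c (rho F ln p lam c ω) → ∀ b : Bool,
      exp (-E) ≤ Pr μ (fun ω => (lb ln p c ω, Prm.S c.1 (ln ω))) (some b, Prm.S c.1 (ln ω)))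
    (b : Bool) (hgp : 1 ≤ gp) (hdX : dX ≤ gp) (hPY : PY + a ≤ gp) (hPB : PY ≤ PB)
    (B : ℕ → p.Col → Finset (ℤ × ℤ × ℤ))
    (hB : ∀ v < n, ∀ c, ∀ r ∈ B v c,
      0 < MF F ln p ((cols F ln p lam f f0 f1).Q μ) u PB a v c r) :
    ∑ v ∈ range n, ∑ c, ∑ r ∈ B v c, MF F ln p ((cols F ln p lam f f0 f1).Q μ) u PB a v c r *
      DP μ (Xt F u PB (v + dX)) (lb ln p c)
        (dg PY (yy (Tv (xs F u) v) (fF ln p c) (cv (xs F u) (htF F ln p c) (fF ln p c) v)))
        (BF F ln p u PB a v c r) (some b) ≤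
      gp * (XA p E / (cols F ln p lam f f0 f1).J μ) := by
  classical
  obtain ⟨G, hG, hgood, hA⟩ :=
    exists_bxs (F := F) (ln := ln) (p := p) (lam := lam) f0 f1 μ E u PB a
  have h1 := G.P1 hμ hJ (hgood hsup) b hgp n
    (fun v c _ ω => YP F ln p u PB dX PY v c ω) (fun v c => (B v c).image fun r =>
      some (xv PB v r)) (by
    intro v hv c x hx
    obtain ⟨r, hr, rfl⟩ := mem_image.1 hx
    rw [hG]
    refine ⟨?_, ?_⟩
    · rw [← MF_eq_MQ]
      exact hB v hv c r hr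
    · intro ω ω' h h' he
      have g1 : BF F ln p u PB a v c r ω := BF_iff_NF.2 (Option.some.inj h)
      have g2 : BF F ln p u PB a v c r ω' := BF_iff_NF.2 (Option.some.inj h')
      have g3 := Option.some.inj he
      unfold YP
      rw [NF_X g3 hdX, dg_yy, dg_yy, NF_row g1 g2 g3 (by omega) (by omega)])
  have h2 : gp * (G.A μ b / (cols F ln p lam f f0 f1).J μ) ≤
      gp * (XA p E / (cols F ln p lam f f0 f1).J μ) :=
    mul_le_mul_of_nonneg_left (div_le_div_of_nonneg_right (hA hμ hE b) hJ.le) (Nat.cast_nonneg _)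
  refine le_trans (le_of_eq ?_) (h1.trans h2)
  refine sum_congr rfl fun v hv => sum_congr rfl fun c _ => ?_
  rw [sum_image (fun r _ r' _ h => xv_inj (Option.some.inj h))]
  refine sum_congr rfl fun r hr => ?_
  rw [hG, ← MF_eq_MQ]
  have h3 : (fun ω => (cols F ln p lam f f0 f1).E c ω = some b ∧
      some (NF F ln p u PB a v c ω) = some (xv PB v r)) =
      fun ω => lb ln p c ω = some b ∧ BF F ln p u PB a v c r ω := by
    rw [BF_fun]
    rfl
  rw [h3, ← BF_fun, DP_eq_KL hμ _ _ _ _ _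
    (label_pos_F (f0 := f0) (f1 := f1) hμ hJ b (hB v (mem_range.1 hv) c r hr))]
  rfl

/-- **the divergences of the law `Q` of the box** -/
theorem sum_KL_F (hμ : IsProb μ) (hJ : 0 < (cols F ln p lam f f0 f1).J μ) (hE : 0 ≤ E)
    (hsup : ∀ c ω, 0 < (cols F ln p lam f f0 f1).wt μ c (rho F ln p lam c ω) → ∀ b : Bool,
      exp (-E) ≤ Pr μ (fun ω => (lb ln p c ω, Prm.S c.1 (ln ω))) (some b, Prm.S c.1 (ln ω)))
    (hgp : 1 ≤ gp) (hdX : dX ≤ gp) (hla : a ≤ gp)
    (B : ℕ → p.Col → Finset (ℤ × ℤ × ℤ))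
    (hB : ∀ v < n, ∀ c, ∀ r ∈ B v c,
      0 < MF F ln p ((cols F ln p lam f f0 f1).Q μ) u PB a v c r) :
    ∑ v ∈ range n, ∑ c, ∑ r ∈ B v c, MF F ln p ((cols F ln p lam f f0 f1).Q μ) u PB a v c r *
      KL (qF F ln p ((cols F ln p lam f f0 f1).Q μ) u PB a v c r)
        (cE μ (BF F ln p u PB a v c r))
        (YX (Xt F u PB (v + dX)) (Tv (xs F u) v) (fF ln p c)
          (cv (xs F u) (htF F ln p c) (fF ln p c) v) lm) ≤
      gp * (6 * XA p E / (cols F ln p lam f f0 f1).J μ) := by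
  classical
  obtain ⟨G, hG, hgood, hA⟩ :=
    exists_bxs (F := F) (ln := ln) (p := p) (lam := lam) f0 f1 μ E u PB a
  have h1 := G.P2 hμ hJ (hgood hsup) hgp n
    (fun v c _ ω => YX (Xt F u PB (v + dX)) (Tv (xs F u) v) (fF ln p c)
          (cv (xs F u) (htF F ln p c) (fF ln p c) v) lm ω) (fun v c => (B v c).image fun r =>
      some (xv PB v r)) (by
    intro v hv c x hx
    obtain ⟨r, hr, rfl⟩ := mem_image.1 hx
    rw [hG]
    refine ⟨?_, ?_⟩
    · rw [← MF_eq_MQ]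
      exact hB v hv c r hr
    · intro ω ω' h h' he
      have g1 : BF F ln p u PB a v c r ω := BF_iff_NF.2 (Option.some.inj h)
      have g2 : BF F ln p u PB a v c r ω' := BF_iff_NF.2 (Option.some.inj h')
      have g3 := Option.some.inj he
      unfold YX
      rw [NF_X g3 hdX, fl_yy, fl_yy, NF_row g1 g2 g3 (by omega) (by omega)])
  have h2 : gp * (3 * (G.A μ false + G.A μ true) / (cols F ln p lam f f0 f1).J μ) ≤
      gp * (6 * XA p E / (cols F ln p lam f f0 f1).J μ) := by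
    refine mul_le_mul_of_nonneg_left (div_le_div_of_nonneg_right ?_ hJ.le) (Nat.cast_nonneg _)
    have g1 := hA hμ hE false
    have g2 := hA hμ hE true
    linarith
  refine le_trans (le_of_eq ?_) (h1.trans h2)
  refine sum_congr rfl fun v hv => sum_congr rfl fun c _ => ?_
  rw [sum_image (fun r _ r' _ h => xv_inj (Option.some.inj h))]
  refine sum_congr rfl fun r hr => ?_
  rw [hG, ← MF_eq_MQ]
  have h3 : qr (cols F ln p lam f f0 f1) μ (fun c ω => some (NF F ln p u PB a v c ω)) c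
      (some (xv PB v r)) = qF F ln p ((cols F ln p lam f f0 f1).Q μ) u PB a v c r := by
    unfold qr qF
    rw [← cE_eq_cnd, ← BF_fun]
    rfl
  have h4 : (fun ω => some (NF F ln p u PB a v c ω) = some (xv PB v r)) =
      BF F ln p u PB a v c r := (BF_fun u PB a v c r).symm
  beta_reduce
  rw [h3, h4]

end sums

end Vale.Agent.P065.H987
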