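import Vale.Agent.P065.H987.RowInfo2

/-!
# P065, ROWS: the informations of the boxes, summed (helper987)

* `sum_DL_F`: the line informations `DL`, one label;
* `row_info`: the sum over levels, columns and boxes of `MF * SXF`.
-/

set_option autoImplicit false

open Finset Real

noncomputable section

namespace Vale.Agent.P065.H987

open Vale.Agent.P065.UB Vale.Agent.P065.Ent Vale.Agent.P065.H154 Vale.Agent.P065.H700
  Vale.Agent.P065.H819

variable {Ω : Type*} [Fintype Ω] {F : Fr Ω} {ln : Ω → Pt} {p : Prm} {Lab : Type*}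
  {lam : Ω → Lab} {f : p.Col → (ℕ × Lab) × ℤ × ℤ → ℝ} {f0 : ∀ k r, 0 ≤ f k r}
  {f1 : ∀ k r, f k r ≤ 1} {μ : Ω → ℝ} {E : ℝ} {u : ℝ} {PB PC PY a gp dX lm n m : ℕ}

/-- the line information of a box, label `b` -/
def DLF (F : Fr Ω) (ln : Ω → Pt) (p : Prm) (μ : Ω → ℝ) (u : ℝ) (PB PC PY a dX v : ℕ) (b : Bool)
    (c : p.Col) (r : ℤ × ℤ × ℤ) : ℝ :=
  DL μ (Xt F u PB (v + dX)) (lb ln p c) (CF F ln p u (thG p a (gB p u a v c r)) PC v c)
    (fun x => xhh dX r.2.1 x.1) (ehh p.PP (Prm.b0 c.1) (Prm.b1 c.1))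
    (chF p u (thG p a (gB p u a v c r)) PC v c r.1 r.2.1)
    (LF F ln p u (thG p a (gB p u a v c r)) PB (a + 3) v c r.1 r.2.1 (gJ p u a v c r))
    (BF F ln p u PB a v c r) (r.2.2 * 2 ^ a) ((r.2.2 + 1) * 2 ^ a - 1 / 2 ^ PY)
    (pX μ (Xt F u PB (v + dX))
      (LF F ln p u (thG p a (gB p u a v c r)) PB (a + 3) v c r.1 r.2.1 (gJ p u a v c r)))
    (some b)

/-- one column, one level, one grid -/
lemma sum_DL_one (hμ : IsProb μ) (v : ℕ) (b β : Bool) (c : p.Col) (B : Finset (ℤ × ℤ × ℤ))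
    (hB : ∀ r ∈ B, gB p u a v c r = β) :
    ∑ r ∈ B, PE μ (fun ω => lb ln p c ω = some b ∧ BF F ln p u PB a v c r ω) *
      DLF F ln p μ u PB PC PY a dX v b c r ≤
    I μ (Xt F u PB (v + dX))
      (fun ω => (lb ln p c ω, H60.Lh F ln u (thG p a β) v (v + Prm.sc c.1 + PC) ω))
      (fun ω => (H60.Lc F ln p.k₀ (Prm.sy c.1) u (thG p a β) v (Prm.sc c.1) (-((a + 3 : ℕ) : ℤ)) ω,
        min (F.T' ω) (v + PB))) := by
  classical
  have h := H60.sum_DL_le hμ (Xt F u PB (v + dX)) (lb ln p c) (CF F ln p u (thG p a β) PC v c)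
    (fun ω => (H60.Lc F ln p.k₀ (Prm.sy c.1) u (thG p a β) v (Prm.sc c.1) (-((a + 3 : ℕ) : ℤ)) ω,
        min (F.T' ω) (v + PB))) (some b) B
    (fun r => ((r.1, r.2.1, gJ p u a v c r), v + PB))
    (fun r => LF F ln p u (thG p a β) PB (a + 3) v c r.1 r.2.1 (gJ p u a v c r))
    (fun r => BF F ln p u PB a v c r) (fun r _ ω => Iff.rfl)
    (fun r x => xhh dX r.2.1 x.1) (fun _ => ehh p.PP (Prm.b0 c.1) (Prm.b1 c.1))
    (fun r => chF p u (thG p a β) PC v c r.1 r.2.1) (fun r => r.2.2 * 2 ^ a)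
    (fun r => (r.2.2 + 1) * 2 ^ a - 1 / 2 ^ PY)
    (fun r => pX μ (Xt F u PB (v + dX))
      (LF F ln p u (thG p a β) PB (a + 3) v c r.1 r.2.1 (gJ p u a v c r)))
    (fun r _ x => rfl) (by
      intro r hr r' hr' hne hl x y h1 h2
      simp only [Prod.mk.injEq] at hl
      obtain ⟨⟨e1, e2, -⟩, -⟩ := hl
      rw [Set.mem_Icc] at h1 h2
      rw [e1, e2] at h1
      have e3 : r.2.2 ≠ r'.2.2 := fun e3 => hne (Prod.ext e1 (Prod.ext e2 e3))
      set y0 := chF p u (thG p a β) PC v c r'.1 r'.2.1 y +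
        ehh p.PP (Prm.b0 c.1) (Prm.b1 c.1) (some b) * xhh dX r'.2.1 x.1 with hy0
      have ha : (0 : ℝ) < 2 ^ a := by positivity
      have hP : (0 : ℝ) < 1 / 2 ^ PY := by positivity
      rcases lt_or_gt_of_ne e3 with h3 | h3
      · have h4 : (r.2.2 : ℝ) + 1 ≤ r'.2.2 := by exact_mod_cast h3
        have h5 := mul_le_mul_of_nonneg_right h4 ha.le
        linarith [h1.2, h2.1]
      · have h4 : (r'.2.2 : ℝ) + 1 ≤ r.2.2 := by exact_mod_cast h3
        have h5 := mul_le_mul_of_nonneg_right h4 ha.le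
        linarith [h2.2, h1.1])
  refine le_trans (le_of_eq ?_) h
  refine sum_congr rfl fun r hr => ?_
  unfold DLF
  rw [hB r hr]

/-- one label: all levels, all columns -/
theorem sum_DL_F (hμ : IsProb μ) (hJ : 0 < (cols F ln p lam f f0 f1).J μ) (b : Bool)
    (hm1 : p.PP ≤ m) (hm2 : PC + a + 3 ≤ m) (B : ℕ → p.Col → Finset (ℤ × ℤ × ℤ)) :
    ∑ v ∈ range n, ∑ c, ∑ r ∈ B v c, MF F ln p ((cols F ln p lam f f0 f1).Q μ) u PB a v c r *
      DLF F ln p μ u PB PC PY a dX v b c r ≤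
      1 / (cols F ln p lam f f0 f1).J μ * (2 * (2 * 4 ^ p.PP * p.nT * m * (dX * H μ F.P.x))) := by
  classical
  have hJ' : 0 < 1 / (cols F ln p lam f f0 f1).J μ := by positivity
  -- one grid
  have key : ∀ β : Bool, ∑ v ∈ range n, ∑ c, ∑ r ∈ B v c with gB p u a v c r = β,
      PE μ (fun ω => lb ln p c ω = some b ∧ BF F ln p u PB a v c r ω) *
      DLF F ln p μ u PB PC PY a dX v b c r ≤
      2 * 4 ^ p.PP * p.nT * m * (dX * H μ F.P.x) := by
    intro β
    have h1 : ∀ v ∈ range n, ∑ c, ∑ r ∈ B v c with gB p u a v c r = β,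
        PE μ (fun ω => lb ln p c ω = some b ∧ BF F ln p u PB a v c r ω) *
        DLF F ln p μ u PB PC PY a dX v b c r ≤
        ∑ c : p.Col, I μ (Xt F u PB (v + dX))
          (fun ω => (lb ln p c ω, H60.Lh F ln u (thG p a β) v (v + Prm.sc c.1 + PC) ω))
          (fun ω => (H60.Lc F ln p.k₀ (Prm.sy c.1) u (thG p a β) v (Prm.sc c.1)
            (-((a + 3 : ℕ) : ℤ)) ω, min (F.T' ω) (v + PB))) := fun v _ =>
      sum_le_sum fun c _ => sum_DL_one hμ v b β c _ fun r hr => (mem_filter.1 hr).2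
    refine (sum_le_sum h1).trans ?_
    rw [sum_comm]
    have h2 := H60.line_budget (F := F) (ln := ln) (p := p) hμ u (thG p a β)
      (-((a + 3 : ℕ) : ℤ)) (PC : ℤ) m hm1 (by push_cast; omega) (range n)
      (fun v => Xt F u PB (v + dX)) (fun v ω => min (F.T' ω) (v + PB))
    refine h2.trans ?_
    refine mul_le_mul_of_nonneg_left ?_ (by positivity)
    refine H60.sum_levels_le hμ (fun v => Xt F u PB v) F.P.x ?_ ?_ dX n
    · intro v ω ω' h
      unfold Xt at h ⊢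
      simp only [Prod.mk.injEq] at h ⊢
      exact ⟨F.D_det u v _ _ h.1, by omega⟩
    · intro v ω ω' h
      unfold Xt
      rw [F.D_of_x h, F.T'x _ _ h]
  have hDL0 : ∀ v c r, 0 ≤ DLF F ln p μ u PB PC PY a dX v b c r := by
    intro v c r
    refine DL_nonneg hμ (fun x => div_nonneg (PE_nonneg hμ _) (PE_nonneg hμ _)) ?_ _
    intro x hx
    exact div_pos hx (hx.trans_le (PE_mono hμ fun _ h => h.2))
  have h2 : ∑ v ∈ range n, ∑ c, ∑ r ∈ B v c, MF F ln p ((cols F ln p lam f f0 f1).Q μ) u PB a v c r *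
      DLF F ln p μ u PB PC PY a dX v b c r ≤
      1 / (cols F ln p lam f f0 f1).J μ * ∑ v ∈ range n, ∑ c, ∑ r ∈ B v c,
        PE μ (fun ω => lb ln p c ω = some b ∧ BF F ln p u PB a v c r ω) *
        DLF F ln p μ u PB PC PY a dX v b c r := by
    rw [mul_sum]
    refine sum_le_sum fun v _ => ?_
    rw [mul_sum]
    refine sum_le_sum fun c _ => ?_
    rw [mul_sum]
    refine sum_le_sum fun r _ => ?_
    rw [← mul_assoc]
    exact mul_le_mul_of_nonneg_right (MF_le hμ b u PB a v c r) (hDL0 v c r)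
  refine h2.trans (mul_le_mul_of_nonneg_left ?_ hJ'.le)
  have h3 : ∑ v ∈ range n, ∑ c, ∑ r ∈ B v c,
        PE μ (fun ω => lb ln p c ω = some b ∧ BF F ln p u PB a v c r ω) *
        DLF F ln p μ u PB PC PY a dX v b c r =
      ∑ β : Bool, ∑ v ∈ range n, ∑ c, ∑ r ∈ B v c with gB p u a v c r = β,
        PE μ (fun ω => lb ln p c ω = some b ∧ BF F ln p u PB a v c r ω) *
        DLF F ln p μ u PB PC PY a dX v b c r := by
    symm
    rw [sum_comm]
    refine sum_congr rfl fun v _ => ?_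
    rw [sum_comm]
    refine sum_congr rfl fun c _ => ?_
    exact sum_fiberwise (B v c) (fun r => gB p u a v c r) _
  rw [h3, Fintype.sum_bool]
  have k1 := key true
  have k2 := key false
  linarith

/-- the constant of `row_info` -/
def CRI (PP gp m dX : ℕ) (nT E Hx : ℝ) : ℝ :=
  8 * gp * (2 * 2 ^ PP * PP * nT * E) + 8 * 4 ^ PP * nT * m * dX * Hx

/-- **the budget sum of ROWS**: the informations of the boxes, summed over levels, columns and
boxes -/
theorem row_info (hμ : IsProb μ) (hJ : 0 < (cols F ln p lam f f0 f1).J μ) (hE : 0 ≤ E)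
    (hsup : ∀ c ω, 0 < (cols F ln p lam f f0 f1).wt μ c (rho F ln p lam c ω) → ∀ b : Bool,
      exp (-E) ≤ Pr μ (fun ω => (lb ln p c ω, Prm.S c.1 (ln ω))) (some b, Prm.S c.1 (ln ω)))
    (hgp : 1 ≤ gp) (hdX : dX ≤ gp) (hPY : PY + a ≤ gp) (hPB : PY ≤ PB)
    (hm1 : p.PP ≤ m) (hm2 : PC + a + 3 ≤ m)
    (B : ℕ → p.Col → Finset (ℤ × ℤ × ℤ))
    (hB : ∀ v < n, ∀ c, ∀ r ∈ B v c,
      0 < MF F ln p ((cols F ln p lam f f0 f1).Q μ) u PB a v c r) :
    ∑ v ∈ range n, ∑ c, ∑ r ∈ B v c, MF F ln p ((cols F ln p lam f f0 f1).Q μ) u PB a v c r *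
      SXF F ln p μ ((cols F ln p lam f f0 f1).Q μ) u PB PC PY a dX lm v c r ≤
      CRI p.PP gp m dX p.nT E (H μ F.P.x) / (cols F ln p lam f f0 f1).J μ := by
  classical
  set J := (cols F ln p lam f f0 f1).J μ with hJd
  set M := fun v c r => MF F ln p ((cols F ln p lam f f0 f1).Q μ) u PB a v c r with hM
  have e1 : ∀ v c r, M v c r * SXF F ln p μ ((cols F ln p lam f f0 f1).Q μ) u PB PC PY a dX lm v c r =
      M v c r * DLF F ln p μ u PB PC PY a dX v false c r +
      M v c r * DLF F ln p μ u PB PC PY a dX v true c r +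
      M v c r * DP μ (Xt F u PB (v + dX)) (lb ln p c)
        (dg PY (yy (Tv (xs F u) v) (fF ln p c) (cv (xs F u) (htF F ln p c) (fF ln p c) v)))
        (BF F ln p u PB a v c r) (some false) +
      M v c r * DP μ (Xt F u PB (v + dX)) (lb ln p c)
        (dg PY (yy (Tv (xs F u) v) (fF ln p c) (cv (xs F u) (htF F ln p c) (fF ln p c) v)))
        (BF F ln p u PB a v c r) (some true) +
      M v c r * KL (qF F ln p ((cols F ln p lam f f0 f1).Q μ) u PB a v c r)
        (cE μ (BF F ln p u PB a v c r))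
        (YX (Xt F u PB (v + dX)) (Tv (xs F u) v) (fF ln p c)
          (cv (xs F u) (htF F ln p c) (fF ln p c) v) lm) := by
    intro v c r
    have : SXF F ln p μ ((cols F ln p lam f f0 f1).Q μ) u PB PC PY a dX lm v c r =
      DLF F ln p μ u PB PC PY a dX v false c r +
      DLF F ln p μ u PB PC PY a dX v true c r +
      DP μ (Xt F u PB (v + dX)) (lb ln p c)
        (dg PY (yy (Tv (xs F u) v) (fF ln p c) (cv (xs F u) (htF F ln p c) (fF ln p c) v)))
        (BF F ln p u PB a v c r) (some false) +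
      DP μ (Xt F u PB (v + dX)) (lb ln p c)
        (dg PY (yy (Tv (xs F u) v) (fF ln p c) (cv (xs F u) (htF F ln p c) (fF ln p c) v)))
        (BF F ln p u PB a v c r) (some true) +
      KL (qF F ln p ((cols F ln p lam f f0 f1).Q μ) u PB a v c r)
        (cE μ (BF F ln p u PB a v c r))
        (YX (Xt F u PB (v + dX)) (Tv (xs F u) v) (fF ln p c)
          (cv (xs F u) (htF F ln p c) (fF ln p c) v) lm) := rfl
    rw [this]
    ring
  have e2 := sum_DL_F (F := F) (ln := ln) (lam := lam) (f0 := f0) (f1 := f1) (u := u) (PB := PB)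
    (PY := PY) (dX := dX) (n := n) hμ hJ false hm1 hm2 B
  have e3 := sum_DL_F (F := F) (ln := ln) (lam := lam) (f0 := f0) (f1 := f1) (u := u) (PB := PB)
    (PY := PY) (dX := dX) (n := n) hμ hJ true hm1 hm2 B
  have e4 := sum_DP_F hμ hJ hE hsup false hgp hdX hPY hPB B hB
  have e5 := sum_DP_F hμ hJ hE hsup true hgp hdX hPY hPB B hB
  have e6 := sum_KL_F (lm := lm) hμ hJ hE hsup hgp hdX (by omega) B hB
  have e7 : ∀ v c, ∑ r ∈ B v c, M v c r *
      SXF F ln p μ ((cols F ln p lam f f0 f1).Q μ) u PB PC PY a dX lm v c r = _ := fun v c =>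
    sum_congr rfl fun r _ => e1 v c r
  simp only [hM] at e7
  simp only [e7, sum_add_distrib]
  have e8 : CRI p.PP gp m dX p.nT E (H μ F.P.x) / J =
      1 / J * (2 * (2 * 4 ^ p.PP * p.nT * m * (dX * H μ F.P.x))) +
      1 / J * (2 * (2 * 4 ^ p.PP * p.nT * m * (dX * H μ F.P.x))) +
      gp * (XA p E / J) + gp * (XA p E / J) + gp * (6 * XA p E / J) := by
    unfold CRI XA
    ring
  rw [e8]
  linarith

end Vale.Agent.P065.H987
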