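import Vale.Agent.P065.H987.RowErr
import Vale.Agent.P065.H819.RowQH

/-!
# P065, ROWS on `Sys` (helper987)

`rows_sys`: the number of covered digits is paid by the entropy of the rows, up to `δ g`.
-/

set_option autoImplicit false

open Finset Real

noncomputable section

namespace Vale.Agent.P065.H987

open Vale.Agent.P065.UB Vale.Agent.P065.Ent Vale.Agent.P065.H154 Vale.Agent.P065.H700
  Vale.Agent.P065.H819 Vale.Agent.P065.H806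

section sys

variable {B₀ K₁ PP Γ σ Λ kN : ℕ} {c₂ ρ ε₂ e : ℝ} {n g : ℕ}
  (S : Sys B₀ K₁ PP Γ σ Λ kN c₂ ρ ε₂ e n g)

/-- the entropy of all the rows -/
lemma rows_all_le (hB : 1 ≤ B₀) (hg : 1 ≤ g) (u : ℝ) (γ : ℕ) :
    ∑ t ∈ range (S.F.P.T + σ), Hc S.Q (Rt S.F S.ln S.p u γ (t + 1))
      (fun q => (S.F.D u (t + 1) q.2, Rt S.F S.ln S.p u γ t q)) ≤ (2 * e + 2 * log B₀) * g := by
  have hQ := S.probQ hg
  have h1 := sum_rows_le hQ (Rt S.F S.ln S.p u γ) (Rt_det u γ) (fun t q => S.F.D u t q.2)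
    (Rt_D u γ) (fun q => q.1) (Rt_col u γ 0) (S.F.P.T + σ)
  have h2 := H279.mend_S S hg u γ
  have h3 : Hc S.Q (fun q : S.p.Col × S.Ω => S.F.D u (S.F.P.T + σ) q.2) (fun q => q.1) ≤
      log (#(univ.image (S.F.P.W S.F.n))) := Hc_D_le hQ u _ _
  have h4 := H279.log_leaves_le S hB
  linarith

end sys

/-- a small power of two -/
lemma exists_L (x : ℝ) (hx : 0 < x) : ∃ L₀ : ℕ, ∀ l ≥ L₀, (128 : ℝ) / 2 ^ l ≤ x := by
  obtain ⟨L, hL⟩ := pow_unbounded_of_one_lt (128 / x) (show (1 : ℝ) < 2 by norm_num)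
  refine ⟨L, fun l hl => ?_⟩
  have h1 : (2 : ℝ) ^ L ≤ 2 ^ l := pow_le_pow_right₀ (by norm_num) hl
  rw [div_le_iff₀ (by positivity)]
  rw [div_lt_iff₀ hx] at hL
  nlinarith

open Classical in
/-- **ROWS on `Sys`** -/
theorem rows_sys (B₀ : ℕ) (e δ : ℝ) (hB : 1 ≤ B₀) (he : 0 ≤ e) (hδ : 0 < δ) :
    ∃ L₀ : ℕ, ∀ lm0 ≥ L₀, ∀ (lm1 a gn : ℕ) (ps : ℝ), lm1 + 4 ≤ a → 0 < ps → ps ≤ 1 →
    ∀ (PB γ dd : ℕ), a + 18 + 2 * gn + 10 ≤ PB → lm1 + (a + 18 + 2 * gn + 10) ≤ dd + γ →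
    ∀ (K₁ PP Γ σ Λ kN : ℕ) (c₂ ρ ε₂ : ℝ), a + 18 + 2 * gn + 10 ≤ PP →
    ∃ g₁ : ℕ, ∀ n g : ℕ, g₁ ≤ g → ∀ S : Sys B₀ K₁ PP Γ σ Λ kN c₂ ρ ε₂ e n g, ∀ u : ℝ,
      log 2 * ∑ q, S.Q q * #{t ∈ range (S.F.P.T + σ) |
        covF S.F S.ln S.p S.Q u PB γ dd a gn lm0 lm1 ps t q} - δ * g ≤
      ∑ t ∈ range (S.F.P.T + σ), Hc S.Q (Rt S.F S.ln S.p u γ (t + 1))
        (fun q => (S.F.D u (t + 1) q.2, Rt S.F S.ln S.p u γ t q)) := by
  have hlB : 0 ≤ log (B₀ : ℝ) := log_nonneg (by exact_mod_cast hB)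
  set cst : ℝ := 2 * e + 2 * log B₀ with hcst
  have hcst0 : 0 ≤ cst := by positivity
  obtain ⟨L₁, hL₁⟩ := exists_L (min (1 / 2) (δ / (4 * (cst + δ)))) (by positivity)
  refine ⟨max L₁ 6, fun lm0 hlm0 lm1 a gn ps ha hps hps1 PB γ dd hPB hdd K₁ PP Γ σ Λ kN c₂ ρ ε₂
    hPP => ?_⟩
  obtain ⟨κ, e', hκ, hκ1, he', herr⟩ := rows_err B₀ e (δ / 4) ps lm0 lm1 a gn hB he
    (by positivity) hps
  obtain ⟨g₁, hg₁⟩ := herr (dd + γ) (a + 18 + 2 * gn + 10) (a + 18 + 2 * gn + 10) PB K₁ PP Γ σ Λ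
    kN c₂ ρ ε₂ hPB
  refine ⟨max g₁ 1, fun n g hg S u => ?_⟩
  have hg1 : 1 ≤ g := (le_max_right _ _).trans hg
  have hR : RH S.p PB γ dd a gn lm0 lm1 9 (a + 18 + 2 * gn + 10) (a + 18 + 2 * gn + 10) :=
    { h0 := (le_max_right _ _).trans hlm0
      h1 := ha
      hPP := by rw [S.PP_eq]; omega
      hPC := by omega
      hPY := by omega
      hPB := hPB
      hdd := by omega }
  have h1 := rows_le hR (QH_of_Sys S hg1) u hps hps1 hκ hκ1 he' (S.F.P.T + σ)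
  have h2 := hg₁ n g ((le_max_left _ _).trans hg) S u (S.F.P.T + σ + lm1 + 1)
    (fun _ v c => GBs S.F S.ln S.p S.Q u PB a lm1 ps v c) (by
      intro lm _ v _ c r hr
      have hG := (mem_GBs.1 hr).2
      refine ⟨hG.pos, fun b => (hG.thick b).trans ?_⟩
      rw [PE_def, PE_def]
      refine sum_le_sum fun ω _ => ?_
      have h0 : 0 ≤ QC S.Q c ω := (S.probQ hg1).nonneg _
      split_ifs with k1 k2 k2
      · exact le_rfl
      · exact absurd ⟨k1.1, k1.2.1⟩ k2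
      · exact h0
      · exact le_rfl)
  set A := ∑ q, S.Q q * (#{t ∈ range (S.F.P.T + σ) |
        covF S.F S.ln S.p S.Q u PB γ dd a gn lm0 lm1 ps t q} : ℝ) with hA
  set Sm := ∑ t ∈ range (S.F.P.T + σ), Hc S.Q (Rt S.F S.ln S.p u γ (t + 1))
        (fun q => (S.F.D u (t + 1) q.2, Rt S.F S.ln S.p u γ t q)) with hSm
  have h3 : log 2 * errT S.F S.ln S.p S.μ S.Q u PB (a + 18 + 2 * gn + 10) (a + 18 + 2 * gn + 10)
      γ dd a gn 9 lm0 lm1 κ e' ps (S.F.P.T + σ) ≤ δ / 4 * g := h2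
  have hg0 : (0 : ℝ) ≤ g := Nat.cast_nonneg _
  have hx := hL₁ lm0 ((le_max_left _ _).trans hlm0)
  have hx1 : (128 : ℝ) / 2 ^ lm0 ≤ 1 / 2 := hx.trans (min_le_left _ _)
  have hx2 : (128 : ℝ) / 2 ^ lm0 * (cst + δ) ≤ δ / 4 := by
    have h5 := hx.trans (min_le_right _ _)
    have h6 := mul_le_mul_of_nonneg_right h5 (show 0 ≤ cst + δ by positivity)
    have h7 : δ / (4 * (cst + δ)) * (cst + δ) = δ / 4 := by
      have : cst + δ ≠ 0 := by positivity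
      field_simp
    rwa [h7] at h6
  have hx0 : (0 : ℝ) ≤ 128 / 2 ^ lm0 := by positivity
  have h4 := rows_close (cov := A) (S := Sm) (X := δ / 4 * g) (Ht := cst * g)
    (κ := 128 / 2 ^ lm0) hx0 hx1 (by positivity) (by positivity) (by nlinarith)
    (rows_all_le S hB hg1 u γ)
  refine le_trans ?_ h4
  have h5 : 2 * (128 / 2 ^ lm0) * (cst * g + δ / 4 * g) ≤ δ / 2 * g := by
    have h6 : 2 * (128 / 2 ^ lm0) * (cst * g + δ / 4 * g) =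
        2 * (128 / 2 ^ lm0 * (cst + δ / 4)) * g := by ring
    have h7 : 128 / 2 ^ lm0 * (cst + δ / 4) ≤ 128 / 2 ^ lm0 * (cst + δ) :=
      mul_le_mul_of_nonneg_left (by linarith) hx0
    rw [h6]
    refine mul_le_mul_of_nonneg_right ?_ hg0
    linarith
  have h8 : 0 ≤ δ * g := by positivity
  linarith

end Vale.Agent.P065.H987
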