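import Vale.Agent.P065.H987.Strip

/-!
# P065: momentum and the geometric strip lemma (helper987)

`bd_slab`: few `k`-edges with slope in `I` have exactly one end in a slab of abscissas.
`strip_rows`: the `k`-edges inside a slab of width `d` during a time window of length `τ`, cut into
rows of height `h ≥ d τ`, are edges of levels of sets `Q i` (`i` the row) with
`∑ #(Q i) ≤ 6 #Tch`.
-/

set_option autoImplicit false

namespace Vale.Agent.P065.H987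

open Finset Vale.Agent.P065.UB Vale.Agent.P065.UB.RankAux

/-- there are no boundary edges of the whole set -/
theorem EdBd_self (P : Finset Pt) (k : ℕ) (I : Set ℝ) : EdBd P k P I = ∅ := by
  classical
  rw [Finset.eq_empty_iff_forall_notMem]
  rintro ⟨p, q⟩ he
  unfold EdBd at he
  rw [Finset.mem_filter] at he
  have c := mem_Ed.1 he.1
  rcases he.2.1 with h | h
  · exact h.2 c.2.1
  · exact h.1 c.1

open Classical in
/-- the touched points with abscissa in `S` -/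
noncomputable def Slab (P : Finset Pt) (k : ℕ) (I S : Set ℝ) : Finset Pt :=
  {v ∈ Tch P k P I | v.1 ∈ S}

theorem mem_Slab {P : Finset Pt} {k : ℕ} {I S : Set ℝ} {v : Pt} :
    v ∈ Slab P k I S ↔ v ∈ Tch P k P I ∧ v.1 ∈ S := by
  classical
  unfold Slab
  rw [Finset.mem_filter]

theorem Slab_subset (P : Finset Pt) (k : ℕ) (I S : Set ℝ) : Slab P k I S ⊆ P := fun _ hv =>
  Tch_subset P k P I (mem_Slab.1 hv).1

theorem ends_Tch {P : Finset Pt} {k : ℕ} {I : Set ℝ} {p q : Pt} (he : (p, q) ∈ Ed P k)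
    (hI : sl p q ∈ I) : p ∈ Tch P k P I ∧ q ∈ Tch P k P I := by
  have c := mem_Ed.1 he
  have h : (p, q) ∈ EdIn P k P I := mem_EdIn.2 ⟨he, c.1, c.2.1, hI⟩
  exact ⟨mem_Tch.2 ⟨c.1, _, h, Or.inl rfl⟩, mem_Tch.2 ⟨c.2.1, _, h, Or.inr rfl⟩⟩

/-- **momentum**: few edges have exactly one end in a slab -/
theorem bd_slab {P : Finset Pt} (hP : Good P) {k : ℕ} {I : Set ℝ} (hI : I.OrdConnected)
    {S : Set ℝ} (hS : S.OrdConnected) :
    #(EdBd P k (Slab P k I S) I) ≤ 2 * #(Tch P k P I) := by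
  classical
  obtain ⟨U, hU⟩ : ∃ U : Set Pt, ∀ z, z ∈ U ↔ ∃ s ∈ S, z.1 ≤ s := ⟨{z | ∃ s ∈ S, z.1 ≤ s}, fun _ => Iff.rfl⟩
  obtain ⟨L, hL⟩ : ∃ L : Set Pt, ∀ z, z ∈ L ↔ ∀ s ∈ S, z.1 < s := ⟨{z | ∀ s ∈ S, z.1 < s}, fun _ => Iff.rfl⟩
  have hUh : IsHalf U := ⟨1, 0, fun z z' h hz' => by
    rw [hU] at hz' ⊢
    obtain ⟨s, hs, h'⟩ := hz'
    exact ⟨s, hs, by linarith⟩⟩
  have hLh : IsHalf L := ⟨1, 0, fun z z' h hz' => by
    rw [hL] at hz' ⊢
    intro s hs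
    have := hz' s hs
    linarith⟩
  have h1 := halfplane hP (k := k) (Q := P) hI hUh
  have h2 := halfplane hP (k := k) (Q := P) hI hLh
  rw [EdBd_self, Finset.card_empty, Nat.add_zero] at h1 h2
  have hsub : EdBd P k (Slab P k I S) I ⊆
      {e ∈ EdIn P k P I | (e.1 ∈ U ∧ e.2 ∉ U) ∨ (e.1 ∉ U ∧ e.2 ∈ U)} ∪
      {e ∈ EdIn P k P I | (e.1 ∈ L ∧ e.2 ∉ L) ∨ (e.1 ∉ L ∧ e.2 ∈ L)} := by
    rintro ⟨p, q⟩ he
    unfold EdBd at he
    rw [Finset.mem_filter] at he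
    obtain ⟨he, hpq, hs⟩ := he
    have c := mem_Ed.1 he
    have hin : (p, q) ∈ EdIn P k P I := mem_EdIn.2 ⟨he, c.1, c.2.1, hs⟩
    obtain ⟨hpT, hqT⟩ := ends_Tch he hs
    have hx := c.2.2.1
    simp only [mem_Slab] at hpq
    rw [Finset.mem_union, Finset.mem_filter, Finset.mem_filter]
    rcases hpq with ⟨hp, hq⟩ | ⟨hp, hq⟩
    · left
      refine ⟨hin, Or.inl ⟨(hU _).2 ⟨_, hp.2, le_rfl⟩, fun h => hq ⟨hqT, ?_⟩⟩⟩
      obtain ⟨s, hs', h'⟩ := (hU _).1 h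
      exact hS.out hp.2 hs' ⟨hx.le, h'⟩
    · right
      refine ⟨hin, Or.inl ⟨(hL _).2 fun s hs' => ?_, fun h => lt_irrefl _ ((hL _).1 h _ hq.2)⟩⟩
      by_contra h
      exact hp ⟨hpT, hS.out hs' hq.2 ⟨not_lt.1 h, hx.le⟩⟩
  refine (Finset.card_le_card hsub).trans ((Finset.card_union_le _ _).trans ?_)
  omega

/-- normalised height: rows of height `h`, origin `y₀` at the time `m₀`, reference slope `s` -/
noncomputable def zz (m₀ s y₀ h : ℝ) (m : ℝ) (v : Pt) : ℝ := (ht m v + s * (m - m₀) - y₀) / h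

/-- the row of an edge -/
noncomputable def row (m₀ s y₀ h : ℝ) (e : Pt × Pt) : ℤ := ⌊zz m₀ s y₀ h (sl e.1 e.2) e.1⌋

open Classical in
/-- the points of `J` which can meet the row `i` -/
noncomputable def Trow (J : Finset Pt) (m₀ s y₀ h : ℝ) (i : ℤ) : Finset Pt :=
  {v ∈ J | (i : ℝ) ≤ zz m₀ s y₀ h m₀ v ∧ zz m₀ s y₀ h m₀ v < i + 2}

open Classical in
theorem mem_Trow {J : Finset Pt} {m₀ s y₀ h : ℝ} {i : ℤ} {v : Pt} : v ∈ Trow J m₀ s y₀ h i ↔
    v ∈ J ∧ (i : ℝ) ≤ zz m₀ s y₀ h m₀ v ∧ zz m₀ s y₀ h m₀ v < i + 2 := by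
  unfold Trow
  rw [Finset.mem_filter]

open Classical in
/-- the number of points of `J` below the row `i` -/
noncomputable def Nrow (J : Finset Pt) (m₀ s y₀ h : ℝ) (i : ℤ) : ℕ :=
  #{v ∈ J | zz m₀ s y₀ h m₀ v < i}

theorem Nrow_mono {J : Finset Pt} {m₀ s y₀ h : ℝ} {i j : ℤ} (hij : i ≤ j) :
    Nrow J m₀ s y₀ h i ≤ Nrow J m₀ s y₀ h j := by
  classical
  unfold Nrow
  apply Finset.card_le_card
  intro v hv
  rw [Finset.mem_filter] at hv ⊢
  have : (i : ℝ) ≤ j := by exact_mod_cast hij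
  exact ⟨hv.1, lt_of_lt_of_le hv.2 this⟩

theorem Nrow_add (J : Finset Pt) (m₀ s y₀ h : ℝ) (i : ℤ) :
    Nrow J m₀ s y₀ h i + #(Trow J m₀ s y₀ h i) = Nrow J m₀ s y₀ h (i + 2) := by
  classical
  unfold Nrow Trow
  rw [← Finset.card_union_of_disjoint]
  · congr 1
    ext v
    simp only [Finset.mem_union, Finset.mem_filter]
    push_cast
    constructor
    · rintro (h1 | h1)
      · exact ⟨h1.1, by linarith [h1.2]⟩
      · exact ⟨h1.1, h1.2.2⟩
    · intro h1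
      rcases lt_or_ge (zz m₀ s y₀ h m₀ v) i with h2 | h2
      · exact Or.inl ⟨h1.1, h2⟩
      · exact Or.inr ⟨h1.1, h2, h1.2⟩
  · rw [Finset.disjoint_left]
    intro v hv hv'
    rw [Finset.mem_filter] at hv hv'
    linarith [hv.2, hv'.2.1]

/-- each point meets at most two rows -/
theorem sum_Trow (J : Finset Pt) (m₀ s y₀ h : ℝ) (A : Finset ℤ) :
    ∑ i ∈ A, #(Trow J m₀ s y₀ h i) ≤ 2 * #J := by
  classical
  have h2 := Finset.sum_card_bipartiteAbove_eq_sum_card_bipartiteBelow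
    (s := A) (t := J) (fun (i : ℤ) v => (i : ℝ) ≤ zz m₀ s y₀ h m₀ v ∧ zz m₀ s y₀ h m₀ v < i + 2)
  unfold Finset.bipartiteAbove Finset.bipartiteBelow at h2
  unfold Trow
  rw [h2]
  calc _ ≤ ∑ _v ∈ J, 2 := ?_
    _ = 2 * #J := by rw [Finset.sum_const, smul_eq_mul, mul_comm]
  apply Finset.sum_le_sum
  intro v _
  have : ({a ∈ A | (a : ℝ) ≤ zz m₀ s y₀ h m₀ v ∧ zz m₀ s y₀ h m₀ v < a + 2} : Finset ℤ) ⊆
      {⌊zz m₀ s y₀ h m₀ v⌋, ⌊zz m₀ s y₀ h m₀ v⌋ - 1} := by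
    intro a ha
    rw [Finset.mem_filter] at ha
    have h3 : a ≤ ⌊zz m₀ s y₀ h m₀ v⌋ := Int.le_floor.2 ha.2.1
    have h4 : ⌊zz m₀ s y₀ h m₀ v⌋ < a + 2 := by
      rw [Int.floor_lt]; push_cast; exact ha.2.2
    rw [Finset.mem_insert, Finset.mem_singleton]
    omega
  exact (Finset.card_le_card this).trans Finset.card_le_two

/-- during the window the normalised height drops by at most `1` -/
theorem zz_bounds {m₀ τ s d y₀ h : ℝ} (hh : 0 < h) (hdh : d * τ ≤ h) {m : ℝ} (hm : m₀ ≤ m)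
    (hm' : m ≤ m₀ + τ) {v : Pt} (hv : s ≤ v.1) (hv' : v.1 ≤ s + d) :
    zz m₀ s y₀ h m v ≤ zz m₀ s y₀ h m₀ v ∧ zz m₀ s y₀ h m₀ v ≤ zz m₀ s y₀ h m v + 1 := by
  have e : zz m₀ s y₀ h m₀ v - zz m₀ s y₀ h m v = (v.1 - s) * (m - m₀) / h := by
    unfold zz ht
    field_simp
    ring
  have h1 : 0 ≤ (v.1 - s) * (m - m₀) := mul_nonneg (by linarith) (by linarith)
  have h2 : (v.1 - s) * (m - m₀) ≤ h := by
    refine le_trans ?_ hdh
    apply mul_le_mul (by linarith) (by linarith) (by linarith) (by linarith)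
  have h3 : 0 ≤ (v.1 - s) * (m - m₀) / h := div_nonneg h1 hh.le
  have h4 : (v.1 - s) * (m - m₀) / h ≤ 1 := by rw [div_le_one hh]; exact h2
  constructor <;> linarith

open Classical in
/-- **the strip lemma** for rows -/
theorem strip_rows {P : Finset Pt} (hP : Good P) {k : ℕ} {I : Set ℝ} (hI : I.OrdConnected)
    {m₀ τ s d y₀ h : ℝ} (hh : 0 < h) (hdh : d * τ ≤ h) (hIτ : I ⊆ Set.Icc m₀ (m₀ + τ)) (X₀ : ℝ) :
    ∃ (Q : ℤ → Finset Pt) (κ : ℤ → ℕ), (∀ i, Good (Q i)) ∧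
      (∀ i, Trow (Slab P k I (Set.Icc s (s + d))) m₀ s y₀ h i ⊆ Q i) ∧
      (∀ i, ∀ w ∈ Q i, w ∉ Trow (Slab P k I (Set.Icc s (s + d))) m₀ s y₀ h i → X₀ < |w.1|) ∧
      (∀ e ∈ EdIn P k (Slab P k I (Set.Icc s (s + d))) I,
        e ∈ Ed (Q (row m₀ s y₀ h e)) (κ (row m₀ s y₀ h e))) ∧
      ∑ i ∈ (EdIn P k (Slab P k I (Set.Icc s (s + d))) I).image (row m₀ s y₀ h), #(Q i) ≤
        6 * #(Tch P k P I) := by
  obtain ⟨J, hJ⟩ : ∃ J, J = Slab P k I (Set.Icc s (s + d)) := ⟨_, rfl⟩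
  rw [← hJ]
  have hJP : J ⊆ P := by rw [hJ]; exact Slab_subset _ _ _ _
  have hJs : ∀ v ∈ J, s ≤ v.1 ∧ v.1 ≤ s + d := fun v hv => by
    rw [hJ, mem_Slab] at hv; exact hv.2
  have memE : ∀ e ∈ EdIn P k J I, e.1 ∈ J ∧ e.2 ∈ J ∧ m₀ ≤ sl e.1 e.2 ∧ sl e.1 e.2 ≤ m₀ + τ ∧
      ht (sl e.1 e.2) e.1 = ht (sl e.1 e.2) e.2 := by
    rintro ⟨p, q⟩ he
    have c := mem_EdIn.1 he
    have h1 := hIτ c.2.2.2
    exact ⟨c.2.1, c.2.2.1, h1.1, h1.2, (ht_eq_iff (mem_Ed.1 c.1).2.2.1 _).2 rfl⟩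
  have hzmono : ∀ m : ℝ, ∀ u v : Pt, ht m u < ht m v → zz m₀ s y₀ h m u < zz m₀ s y₀ h m v := by
    intro m u v huv
    unfold zz
    exact div_lt_div_of_pos_right (by linarith) hh
  have hzmono' : ∀ m : ℝ, ∀ u v : Pt, zz m₀ s y₀ h m u < zz m₀ s y₀ h m v → ht m u < ht m v := by
    intro m u v huv
    unfold zz at huv
    rw [div_lt_div_iff_of_pos_right hh] at huv
    linarith
  have hrow : ∀ e : Pt × Pt, (row m₀ s y₀ h e : ℝ) ≤ zz m₀ s y₀ h (sl e.1 e.2) e.1 ∧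
      zz m₀ s y₀ h (sl e.1 e.2) e.1 < row m₀ s y₀ h e + 1 := fun e =>
    ⟨Int.floor_le _, Int.lt_floor_add_one _⟩
  obtain ⟨Q, κ, q1, q2, q3, q4, q5⟩ := strip hP hJP hI (E := EdIn P k J I) (Finset.Subset.refl _)
    (row m₀ s y₀ h) (Trow J m₀ s y₀ h) (Nrow J m₀ s y₀ h)
    (fun i => (Finset.filter_subset _ _).trans hJP)
    (by
      intro e he
      obtain ⟨h1, h2, h3, h4, h5⟩ := memE e he
      obtain ⟨r1, r2⟩ := hrow e
      have b1 := zz_bounds (y₀ := y₀) hh hdh h3 h4 (hJs _ h1).1 (hJs _ h1).2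
      have b2 := zz_bounds (y₀ := y₀) hh hdh h3 h4 (hJs _ h2).1 (hJs _ h2).2
      have e2 : zz m₀ s y₀ h (sl e.1 e.2) e.2 = zz m₀ s y₀ h (sl e.1 e.2) e.1 := by
        unfold zz; rw [h5]
      rw [e2] at b2
      rw [mem_Trow, mem_Trow]
      exact ⟨⟨h1, by linarith [b1.1, b1.2], by linarith [b1.1, b1.2]⟩,
        ⟨h2, by linarith [b2.1, b2.2], by linarith [b2.1, b2.2]⟩⟩)
    (by
      intro e he
      obtain ⟨h1, h2, h3, h4, h5⟩ := memE e he
      obtain ⟨r1, r2⟩ := hrow e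
      unfold cT Nrow Trow
      rw [← Finset.card_union_of_disjoint]
      · congr 1
        ext u
        simp only [Finset.mem_union, Finset.mem_filter]
        constructor
        · rintro ⟨hu, hlt⟩
          rcases lt_or_ge (zz m₀ s y₀ h m₀ u) (row m₀ s y₀ h e) with h6 | h6
          · exact Or.inl ⟨hu, h6⟩
          · right
            have b := zz_bounds (y₀ := y₀) hh hdh h3 h4 (hJs _ hu).1 (hJs _ hu).2
            have := hzmono _ _ _ hlt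
            exact ⟨⟨hu, h6, by linarith [b.2]⟩, hlt⟩
        · rintro (⟨hu, h6⟩ | ⟨⟨hu, _, _⟩, hlt⟩)
          · refine ⟨hu, hzmono' _ _ _ ?_⟩
            have b := zz_bounds (y₀ := y₀) hh hdh h3 h4 (hJs _ hu).1 (hJs _ hu).2
            linarith [b.1]
          · exact ⟨hu, hlt⟩
      · rw [Finset.disjoint_left]
        intro u hu hu'
        rw [Finset.mem_filter] at hu hu'
        rw [Finset.mem_filter] at hu'
        linarith [hu.2, hu'.1.2.1])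
    (m := 2)
    (by
      intro a
      rcases Finset.eq_empty_or_nonempty ({i ∈ (EdIn P k J I).image (row m₀ s y₀ h) |
        Nrow J m₀ s y₀ h i ≤ a ∧ a < Nrow J m₀ s y₀ h i + #(Trow J m₀ s y₀ h i)} : Finset ℤ)
        with h0 | h0
      · rw [h0]; simp
      · obtain ⟨i, hi, hmin⟩ := Finset.exists_min_image _ (fun x : ℤ => x) h0
        refine (Finset.card_le_card (t := {i, i + 1}) ?_).trans Finset.card_le_two
        intro j hj
        have hij : i ≤ j := hmin j hj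
        rw [Finset.mem_filter] at hi hj
        rw [Finset.mem_insert, Finset.mem_singleton]
        by_contra hne
        push Not at hne
        have h2 : i + 2 ≤ j := by omega
        have h3 := Nrow_mono (J := J) (m₀ := m₀) (s := s) (y₀ := y₀) (h := h) h2
        have h4 := Nrow_add J m₀ s y₀ h i
        omega)
    X₀
  refine ⟨Q, κ, q1, q2, q3, q4, q5.trans ?_⟩
  have s1 := sum_Trow J m₀ s y₀ h ((EdIn P k J I).image (row m₀ s y₀ h))
  have s2 : #J ≤ #(Tch P k P I) := by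
    rw [hJ]; exact Finset.card_le_card fun v hv => (mem_Slab.1 hv).1
  have s3 : #(EdBd P k J I) ≤ 2 * #(Tch P k P I) := by
    rw [hJ]; exact bd_slab hP hI Set.ordConnected_Icc
  omega

end Vale.Agent.P065.H987
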