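import Vale.Agent.P065.H987.Touch
import Vale.Agent.P065.H987.Rows

/-!
# P065: the intrinsic size of a set of touch events (helper987)

`nn E` = the least number of points of a Good set `Q` such that all the pairs `(m, v) ∈ E` are touch
events of one level of `Q`. `nn_mono`, `pts_le`, `nn_root` (time windows), `nn_strip` (slabs and rows,
the rows being labels of the points): `∑ over the rows of nn (E_row) ≤ 15 nn E`.
-/

set_option autoImplicit false

namespace Vale.Agent.P065.H987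

open Finset Vale.Agent.P065.UB Vale.Agent.P065.UB.RankAux

/-- `(Q, κ)` realises the touch events `E` -/
def Real (E : Finset (ℝ × Pt)) (Q : Finset Pt) (κ : ℕ) : Prop :=
  Good Q ∧ ∀ e ∈ E, Touch Q κ e.1 e.2

/-- `E` is a set of touch events of one level -/
def IsReal (E : Finset (ℝ × Pt)) : Prop := ∃ Q κ, Real E Q κ

/-- the intrinsic size -/
noncomputable def nn (E : Finset (ℝ × Pt)) : ℕ := sInf {n | ∃ Q κ, Real E Q κ ∧ #Q = n}

theorem nn_spec {E : Finset (ℝ × Pt)} (h : IsReal E) : ∃ Q κ, Real E Q κ ∧ #Q = nn E := by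
  obtain ⟨Q, κ, hQ⟩ := h
  exact Nat.sInf_mem (s := {n | ∃ Q κ, Real E Q κ ∧ #Q = n}) ⟨#Q, Q, κ, hQ, rfl⟩

theorem nn_le {E : Finset (ℝ × Pt)} {Q : Finset Pt} {κ : ℕ} (h : Real E Q κ) : nn E ≤ #Q :=
  Nat.sInf_le ⟨Q, κ, h, rfl⟩

theorem Real.mono {E E' : Finset (ℝ × Pt)} (h : E ⊆ E') {Q : Finset Pt} {κ : ℕ}
    (hQ : Real E' Q κ) : Real E Q κ := ⟨hQ.1, fun e he => hQ.2 e (h he)⟩

theorem IsReal.mono {E E' : Finset (ℝ × Pt)} (h : E ⊆ E') (hE : IsReal E') : IsReal E := by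
  obtain ⟨Q, κ, hQ⟩ := hE
  exact ⟨Q, κ, hQ.mono h⟩

theorem nn_mono {E E' : Finset (ℝ × Pt)} (h : E ⊆ E') (hE : IsReal E') : nn E ≤ nn E' := by
  obtain ⟨Q, κ, hQ, hc⟩ := nn_spec hE
  rw [← hc]
  exact nn_le (hQ.mono h)

open Classical in
/-- the touched points are at most `nn E` -/
theorem pts_le {E : Finset (ℝ × Pt)} (hE : IsReal E) : #(E.image Prod.snd) ≤ nn E := by
  obtain ⟨Q, κ, hQ, hc⟩ := nn_spec hE
  rw [← hc]
  apply Finset.card_le_card
  intro v hv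
  obtain ⟨e, he, rfl⟩ := Finset.mem_image.1 hv
  exact (hQ.2 e he).1

theorem nn_pos {E : Finset (ℝ × Pt)} (hE : IsReal E) (hne : E.Nonempty) : 0 < nn E := by
  classical
  refine lt_of_lt_of_le ?_ (pts_le hE)
  rw [Finset.card_pos]
  exact hne.image _

open Classical in
/-- the points touched by the level `k` of `P` during `I` -/
noncomputable def TS (P : Finset Pt) (k : ℕ) (I : Set ℝ) : Finset Pt :=
  {v ∈ P | ∃ m ∈ I, Touch P k m v}

open Classical in
theorem mem_TS {P : Finset Pt} {k : ℕ} {I : Set ℝ} {v : Pt} :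
    v ∈ TS P k I ↔ v ∈ P ∧ ∃ m ∈ I, Touch P k m v := by
  unfold TS; rw [Finset.mem_filter]

/-- both ends of a `k`-edge are touched -/
theorem touch_ends {P : Finset Pt} {k : ℕ} {e : Pt × Pt} (he : e ∈ Ed P k) :
    Touch P k (sl e.1 e.2) e.1 ∧ Touch P k (sl e.1 e.2) e.2 := by
  classical
  obtain ⟨p, q⟩ := e
  have c := mem_Ed.1 he
  have h : ht (sl p q) p = ht (sl p q) q := (ht_eq_iff c.2.2.1 _).2 rfl
  have h1 : rk P (sl p q) p = k := by unfold rk; exact c.2.2.2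
  refine ⟨⟨c.1, h1⟩, ⟨c.2.1, ?_⟩⟩
  rw [← h1]
  exact (rk_congr h).symm

theorem Tch_sub_TS (P : Finset Pt) (k : ℕ) (I : Set ℝ) : Tch P k P I ⊆ TS P k I := by
  classical
  intro v hv
  obtain ⟨h1, ⟨p, q⟩, h2, h3⟩ := mem_Tch.1 hv
  have c := mem_EdIn.1 h2
  have t := touch_ends c.1
  rw [mem_TS]
  refine ⟨h1, sl p q, c.2.2.2, ?_⟩
  rcases h3 with h3 | h3
  · rw [← h3]; exact t.1
  · rw [← h3]; exact t.2

open Classical in
/-- touched points with abscissa in `S` -/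
noncomputable def SlabT (P : Finset Pt) (k : ℕ) (I S : Set ℝ) : Finset Pt :=
  {v ∈ TS P k I | v.1 ∈ S}

open Classical in
theorem mem_SlabT {P : Finset Pt} {k : ℕ} {I S : Set ℝ} {v : Pt} :
    v ∈ SlabT P k I S ↔ v ∈ TS P k I ∧ v.1 ∈ S := by
  unfold SlabT; rw [Finset.mem_filter]

theorem SlabT_sub (P : Finset Pt) (k : ℕ) (I S : Set ℝ) : SlabT P k I S ⊆ P := fun _ hv =>
  (mem_TS.1 (mem_SlabT.1 hv).1).1

/-- **momentum** for touched points -/
theorem bd_slabT {P : Finset Pt} (hP : Good P) {k : ℕ} {I : Set ℝ} (hI : I.OrdConnected)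
    {S : Set ℝ} (hS : S.OrdConnected) :
    #(EdBd P k (SlabT P k I S) I) ≤ 2 * #(TS P k I) := by
  classical
  have h1 : EdBd P k (SlabT P k I S) I ⊆ EdBd P k (Slab P k I S) I := by
    rintro ⟨p, q⟩ he
    unfold EdBd at he ⊢
    rw [Finset.mem_filter] at he ⊢
    obtain ⟨he, hpq, hs⟩ := he
    obtain ⟨hpT, hqT⟩ := ends_Tch he hs
    have hp' := Tch_sub_TS P k I hpT
    have hq' := Tch_sub_TS P k I hqT
    refine ⟨he, ?_, hs⟩
    simp only [mem_SlabT, mem_Slab] at hpq ⊢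
    rcases hpq with ⟨h1, h2⟩ | ⟨h1, h2⟩
    · exact Or.inl ⟨⟨hpT, h1.2⟩, fun h => h2 ⟨hq', h.2⟩⟩
    · exact Or.inr ⟨fun h => h1 ⟨hp', h.2⟩, ⟨hqT, h2.2⟩⟩
  have h2 := Finset.card_le_card h1
  have h3 := bd_slab hP (k := k) hI hS
  have h4 := Finset.card_le_card (Tch_sub_TS P k I)
  omega

/-- **time windows**: the size is at most the number of touched points -/
theorem nn_root {P : Finset Pt} (hP : Good P) {k : ℕ} {I : Set ℝ} (hI : I.OrdConnected)
    {E : Finset (ℝ × Pt)} (hE : ∀ e ∈ E, e.1 ∈ I ∧ Touch P k e.1 e.2) : nn E ≤ #(TS P k I) := by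
  classical
  have hJ : TS P k I ⊆ P := fun v hv => (mem_TS.1 hv).1
  obtain ⟨Q, κ, q1, q2, q3, q4, q5⟩ := strip_touch hP hJ hI (E := E)
    (fun e he => ⟨(hE e he).2, mem_TS.2 ⟨(hE e he).2.1, e.1, (hE e he).1, (hE e he).2⟩, (hE e he).1⟩)
    (fun _ => ()) (fun _ => TS P k I) (fun _ => 0) (fun _ => hJ)
    (fun e he => mem_TS.2 ⟨(hE e he).2.1, e.1, (hE e he).1, (hE e he).2⟩)
    (fun e _ => by simp) (μ := 1) (fun a => Finset.card_le_one.2 (fun _ _ _ _ => rfl)) 0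
  have hb : EdBd P k (TS P k I) I = ∅ := by
    rw [Finset.eq_empty_iff_forall_notMem]
    rintro ⟨p, q⟩ he
    unfold EdBd at he
    rw [Finset.mem_filter] at he
    obtain ⟨he, hpq, hs⟩ := he
    obtain ⟨hpT, hqT⟩ := ends_Tch he hs
    have hp' := Tch_sub_TS P k I hpT
    have hq' := Tch_sub_TS P k I hqT
    rcases hpq with h | h
    · exact h.2 hq'
    · exact h.1 hp'
  rcases E.eq_empty_or_nonempty with h0 | h0
  · refine (nn_le (Q := ∅) (κ := 0) ⟨⟨by simp, by simp⟩, by simp [h0]⟩).trans (by simp)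
  · have h1 : nn E ≤ #(Q ()) := nn_le ⟨q1 (), fun e he => q4 e he⟩
    have h2 : E.image (fun _ => ()) = {()} := Finset.image_const h0 ()
    rw [h2, hb] at q5
    simp only [Finset.sum_singleton, Finset.card_empty, Nat.mul_zero, Nat.add_zero] at q5
    exact h1.trans q5

/-- the label of a point: its row at the time `m₀` -/
noncomputable def lab (m₀ s y₀ h : ℝ) (v : Pt) : ℤ := ⌊zz m₀ s y₀ h m₀ v⌋

open Classical in
/-- three rows around the row `i` -/
noncomputable def T3 (J : Finset Pt) (m₀ s y₀ h : ℝ) (i : ℤ) : Finset Pt :=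
  {v ∈ J | (i : ℝ) - 1 ≤ zz m₀ s y₀ h m₀ v ∧ zz m₀ s y₀ h m₀ v < i + 2}

theorem T3_add (J : Finset Pt) (m₀ s y₀ h : ℝ) (i : ℤ) :
    Nrow J m₀ s y₀ h (i - 1) + #(T3 J m₀ s y₀ h i) = Nrow J m₀ s y₀ h (i + 2) := by
  classical
  unfold Nrow T3
  rw [← Finset.card_union_of_disjoint]
  · congr 1
    ext v
    simp only [Finset.mem_union, Finset.mem_filter]
    push_cast
    constructor
    · rintro (h1 | h1)
      · exact ⟨h1.1, by linarith [h1.2]⟩
      · exact ⟨h1.1, h1.2.2⟩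
    · intro h1
      rcases lt_or_ge (zz m₀ s y₀ h m₀ v) (i - 1) with h2 | h2
      · exact Or.inl ⟨h1.1, h2⟩
      · exact Or.inr ⟨h1.1, h2, h1.2⟩
  · rw [Finset.disjoint_left]
    intro v hv hv'
    rw [Finset.mem_filter] at hv hv'
    have := hv.2
    push_cast at this
    linarith [hv'.2.1]

theorem sum_T3 (J : Finset Pt) (m₀ s y₀ h : ℝ) (A : Finset ℤ) :
    ∑ i ∈ A, #(T3 J m₀ s y₀ h i) ≤ 3 * #J := by
  classical
  have h2 := Finset.sum_card_bipartiteAbove_eq_sum_card_bipartiteBelow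
    (s := A) (t := J) (fun (i : ℤ) v => (i : ℝ) - 1 ≤ zz m₀ s y₀ h m₀ v ∧
      zz m₀ s y₀ h m₀ v < i + 2)
  unfold Finset.bipartiteAbove Finset.bipartiteBelow at h2
  unfold T3
  rw [h2]
  calc _ ≤ ∑ _v ∈ J, 3 := ?_
    _ = 3 * #J := by rw [Finset.sum_const, smul_eq_mul, mul_comm]
  apply Finset.sum_le_sum
  intro v _
  have : ({a ∈ A | (a : ℝ) - 1 ≤ zz m₀ s y₀ h m₀ v ∧ zz m₀ s y₀ h m₀ v < a + 2} : Finset ℤ) ⊆
      {⌊zz m₀ s y₀ h m₀ v⌋, ⌊zz m₀ s y₀ h m₀ v⌋ - 1, ⌊zz m₀ s y₀ h m₀ v⌋ + 1} := by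
    intro a ha
    rw [Finset.mem_filter] at ha
    have h3 : a - 1 ≤ ⌊zz m₀ s y₀ h m₀ v⌋ := Int.le_floor.2 (by push_cast; exact ha.2.1)
    have h4 : ⌊zz m₀ s y₀ h m₀ v⌋ < a + 2 := by
      rw [Int.floor_lt]; push_cast; exact ha.2.2
    rw [Finset.mem_insert, Finset.mem_insert, Finset.mem_singleton]
    omega
  exact (Finset.card_le_card this).trans Finset.card_le_three

open Classical in
/-- **the strip lemma** for touch events and rows, in terms of the intrinsic size -/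
theorem nn_strip {E : Finset (ℝ × Pt)} {m₀ τ s d y₀ h : ℝ} (hh : 0 < h)
    (hdh : d * τ ≤ h) (ht' : ∀ e ∈ E, m₀ ≤ e.1 ∧ e.1 ≤ m₀ + τ)
    (hs' : ∀ e ∈ E, s ≤ e.2.1 ∧ e.2.1 ≤ s + d) {E₀ : Finset (ℝ × Pt)} (hE₀ : IsReal E₀)
    (hsub : E ⊆ E₀) :
    ∑ i ∈ E.image (fun e => lab m₀ s y₀ h e.2), nn {e ∈ E | lab m₀ s y₀ h e.2 = i} ≤
      15 * nn E₀ := by
  obtain ⟨P, k, ⟨hP, hPE⟩, hcard⟩ := nn_spec hE₀
  set I : Set ℝ := Set.Icc m₀ (m₀ + τ) with hIdef
  have hI : I.OrdConnected := Set.ordConnected_Icc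
  obtain ⟨J, hJ⟩ : ∃ J, J = SlabT P k I (Set.Icc s (s + d)) := ⟨_, rfl⟩
  have hJP : J ⊆ P := by rw [hJ]; exact SlabT_sub _ _ _ _
  have hJs : ∀ v ∈ J, s ≤ v.1 ∧ v.1 ≤ s + d := fun v hv => by
    rw [hJ, mem_SlabT] at hv; exact hv.2
  have memE : ∀ e ∈ E, Touch P k e.1 e.2 ∧ e.2 ∈ J ∧ e.1 ∈ I := by
    intro e he
    have h1 := hPE e (hsub he)
    have h2 : e.1 ∈ I := ht' e he
    refine ⟨h1, ?_, h2⟩
    rw [hJ, mem_SlabT, mem_TS]
    exact ⟨⟨h1.1, e.1, h2, h1⟩, hs' e he⟩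
  have hzmono : ∀ m : ℝ, ∀ u v : Pt, ht m u < ht m v → zz m₀ s y₀ h m u < zz m₀ s y₀ h m v := by
    intro m u v huv
    unfold zz
    exact div_lt_div_of_pos_right (by linarith) hh
  have hzmono' : ∀ m : ℝ, ∀ u v : Pt, zz m₀ s y₀ h m u < zz m₀ s y₀ h m v → ht m u < ht m v := by
    intro m u v huv
    unfold zz at huv
    rw [div_lt_div_iff_of_pos_right hh] at huv
    linarith
  have hlab : ∀ v : Pt, (lab m₀ s y₀ h v : ℝ) ≤ zz m₀ s y₀ h m₀ v ∧
      zz m₀ s y₀ h m₀ v < lab m₀ s y₀ h v + 1 := fun v =>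
    ⟨Int.floor_le _, Int.lt_floor_add_one _⟩
  obtain ⟨Q, κ, q1, q2, q3, q4, q5⟩ := strip_touch hP hJP hI (E := E) memE
    (fun e => lab m₀ s y₀ h e.2) (T3 J m₀ s y₀ h) (fun i => Nrow J m₀ s y₀ h (i - 1))
    (fun i => (Finset.filter_subset _ _).trans hJP)
    (by
      intro e he
      obtain ⟨h1, h2⟩ := hlab e.2
      unfold T3
      rw [Finset.mem_filter]
      exact ⟨(memE e he).2.1, by linarith, by linarith⟩)
    (by
      intro e he
      obtain ⟨h1, h2⟩ := hlab e.2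
      obtain ⟨h3, h4⟩ := ht' e he
      have bv := zz_bounds (y₀ := y₀) hh hdh h3 h4 (hJs _ (memE e he).2.1).1
        (hJs _ (memE e he).2.1).2
      unfold rk Nrow T3
      rw [← Finset.card_union_of_disjoint]
      · congr 1
        ext u
        simp only [Finset.mem_union, Finset.mem_filter]
        push_cast
        constructor
        · rintro ⟨hu, hlt⟩
          rcases lt_or_ge (zz m₀ s y₀ h m₀ u) (lab m₀ s y₀ h e.2 - 1) with h6 | h6
          · exact Or.inl ⟨hu, h6⟩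
          · right
            have b := zz_bounds (y₀ := y₀) hh hdh h3 h4 (hJs _ hu).1 (hJs _ hu).2
            have := hzmono _ _ _ hlt
            exact ⟨⟨hu, h6, by linarith [b.2, bv.1]⟩, hlt⟩
        · rintro (⟨hu, h6⟩ | ⟨⟨hu, _, _⟩, hlt⟩)
          · refine ⟨hu, hzmono' _ _ _ ?_⟩
            have b := zz_bounds (y₀ := y₀) hh hdh h3 h4 (hJs _ hu).1 (hJs _ hu).2
            linarith [b.1, bv.2]
          · exact ⟨hu, hlt⟩
      · rw [Finset.disjoint_left]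
        intro u hu hu'
        rw [Finset.mem_filter] at hu hu'
        rw [Finset.mem_filter] at hu'
        have := hu.2
        push_cast at this
        linarith [hu'.1.2.1])
    (μ := 3)
    (by
      intro a
      rcases Finset.eq_empty_or_nonempty ({i ∈ E.image (fun e => lab m₀ s y₀ h e.2) |
        Nrow J m₀ s y₀ h (i - 1) ≤ a ∧
          a < Nrow J m₀ s y₀ h (i - 1) + #(T3 J m₀ s y₀ h i)} : Finset ℤ)
        with h0 | h0
      · rw [h0]; simp
      · obtain ⟨i, hi, hmin⟩ := Finset.exists_min_image _ (fun x : ℤ => x) h0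
        refine (Finset.card_le_card (t := {i, i + 1, i + 2}) ?_).trans Finset.card_le_three
        intro j hj
        have hij : i ≤ j := hmin j hj
        rw [Finset.mem_filter] at hi hj
        rw [Finset.mem_insert, Finset.mem_insert, Finset.mem_singleton]
        by_contra hne
        push Not at hne
        have h2 : i + 2 ≤ j - 1 := by omega
        have h3 := Nrow_mono (J := J) (m₀ := m₀) (s := s) (y₀ := y₀) (h := h) h2
        have h4 := T3_add J m₀ s y₀ h i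
        omega)
    0
  have s0 : ∑ i ∈ E.image (fun e => lab m₀ s y₀ h e.2), nn {e ∈ E | lab m₀ s y₀ h e.2 = i} ≤
      ∑ i ∈ E.image (fun e => lab m₀ s y₀ h e.2), #(Q i) := by
    apply Finset.sum_le_sum
    intro i _
    refine nn_le (κ := κ i) ⟨q1 i, fun e he => ?_⟩
    obtain ⟨h1, h2⟩ := Finset.mem_filter.1 he
    have := q4 e h1
    rw [h2] at this
    exact this
  have s1 := sum_T3 J m₀ s y₀ h (E.image (fun e => lab m₀ s y₀ h e.2))
  have s3 : #(EdBd P k J I) ≤ 2 * #(TS P k I) := by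
    rw [hJ]; exact bd_slabT hP hI Set.ordConnected_Icc
  have s2 : #J ≤ #(TS P k I) := by
    rw [hJ]; exact Finset.card_le_card fun v hv => (mem_SlabT.1 hv).1
  have s4 : #(TS P k I) ≤ #P := Finset.card_le_card fun v hv => (mem_TS.1 hv).1
  rw [← hcard]
  refine s0.trans (q5.trans ?_)
  omega

end Vale.Agent.P065.H987
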