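import Vale.Agent.P065.H987.NGOct
import Vale.Agent.P065.H860.NGDef

/-!
# P065, LEMMA NG, step (4): summation over the centres (helper987)

The flags `ω` carry a leaf `leaf ω` and a line `ln ω`; `lw ν leaf ln v` is the weight of the leaves
on the line `v`. The probability that a flag makes an `ε`-giant exit along its line is at most
`(n + 1) (ε + s B + δ) + P (not good)` with `22 ε ≤ s ^ 2`.
-/

set_option autoImplicit false

namespace Vale.Agent.P065.H987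

open Finset Vale.Agent.P065.Ent Vale.Agent.P065.H725 Vale.Agent.P065.H860

variable {Ω Λ Ln : Type*} [Fintype Ω] [Fintype Λ]

/-- the weight of the leaf `w` on the line `v` -/
noncomputable def lw (ν : Ω → ℝ) (leaf : Ω → Λ) (ln : Ω → Ln) (v : Ln) (w : Λ) : ℝ :=
  ms ν (fun ω => leaf ω = w ∧ ln ω = v)

theorem sum_fib [DecidableEq Ln] (ν : Ω → ℝ) (leaf : Ω → Λ) (ln : Ω → Ln) (f : Ln → Λ → ℝ) :
    ∑ ω, ν ω * f (ln ω) (leaf ω) = ∑ v ∈ univ.image ln, ∑ w, lw ν leaf ln v w * f v w := by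
  classical
  have h1 : ∀ v ∈ univ.image ln, ∑ w, lw ν leaf ln v w * f v w =
      ∑ ω, ∑ w, (if leaf ω = w ∧ ln ω = v then ν ω else 0) * f v w := by
    intro v _
    rw [sum_comm]
    refine sum_congr rfl fun w _ => ?_
    unfold lw
    rw [ms_eq, sum_mul]
  rw [sum_congr rfl h1, sum_comm]
  refine sum_congr rfl fun ω _ => ?_
  rw [sum_eq_single_of_mem (ln ω) (mem_image_of_mem _ (mem_univ ω))]
  · rw [sum_eq_single_of_mem (leaf ω) (mem_univ _)]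
    · rw [if_pos ⟨rfl, rfl⟩]
    · intro w _ hw
      rw [if_neg (fun h => hw h.1.symm), zero_mul]
  · intro v _ hv
    apply sum_eq_zero
    intro w _
    rw [if_neg (fun h => hv h.2.symm), zero_mul]

theorem ms_fib [DecidableEq Ln] (ν : Ω → ℝ) (leaf : Ω → Λ) (ln : Ω → Ln) (Q : Ln → Λ → Prop)
    [∀ v, DecidablePred (Q v)] :
    ms ν (fun ω => Q (ln ω) (leaf ω)) =
      ∑ v ∈ univ.image ln, ∑ w with Q v w, lw ν leaf ln v w := by
  classical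
  have h := sum_fib ν leaf ln (fun v w => if Q v w then 1 else 0)
  have h1 : ms ν (fun ω => Q (ln ω) (leaf ω)) =
      ∑ ω, ν ω * (if Q (ln ω) (leaf ω) then (1 : ℝ) else 0) := by
    rw [ms_eq]
    refine sum_congr rfl fun ω _ => ?_
    split_ifs <;> simp
  rw [h1, h]
  refine sum_congr rfl fun v _ => ?_
  rw [sum_filter]
  refine sum_congr rfl fun w _ => ?_
  split_ifs <;> simp

omit [Fintype Λ] in
theorem lw_nonneg {ν : Ω → ℝ} (hν : IsProb ν) (leaf : Ω → Λ) (ln : Ω → Ln) (v : Ln) (w : Λ) :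
    0 ≤ lw ν leaf ln v w := ms_nonneg hν _

/-- the union bound for sums -/
theorem sum_bU {ι β : Type*} [DecidableEq β] (s : Finset ι) (t : ι → Finset β) (f : β → ℝ)
    (hf : ∀ b, 0 ≤ f b) : ∑ b ∈ s.biUnion t, f b ≤ ∑ i ∈ s, ∑ b ∈ t i, f b := by
  classical
  induction s using Finset.induction_on with
  | empty => simp
  | insert a s ha ih =>
    rw [biUnion_insert, sum_insert ha]
    have h1 := sum_union_inter (s₁ := t a) (s₂ := s.biUnion t) (f := f)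
    have h2 : 0 ≤ ∑ b ∈ t a ∩ s.biUnion t, f b := sum_nonneg fun b _ => hf b
    linarith

omit [Fintype Λ] in
theorem ms_exists_le {ι : Type*} [Fintype ι] {ν : Ω → ℝ} (hν : IsProb ν) (Q : ι → Ω → Prop) :
    ms ν (fun ω => ∃ i, Q i ω) ≤ ∑ i, ms ν (Q i) := by
  classical
  unfold ms
  rw [sum_comm]
  refine sum_le_sum fun ω _ => ?_
  have h0 := hν.nonneg ω
  have hn : ∀ i ∈ (univ : Finset ι), 0 ≤ (if Q i ω then ν ω else 0) := by
    intro i _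
    split_ifs
    · exact h0
    · exact le_rfl
  by_cases h : ∃ i, Q i ω
  · rw [if_pos h]
    obtain ⟨i, hi⟩ := h
    have := single_le_sum hn (mem_univ i)
    rwa [if_pos hi] at this
  · rw [if_neg h]
    exact sum_nonneg hn

/-- the total weight on a line of the leaves with centre `z` -/
noncomputable def pc (L : Leaves Λ) (ν : Ω → ℝ) (leaf : Ω → Λ) (z : Λ) : ℝ :=
  ms ν (fun ω => z ∈ L.cen (leaf ω))

theorem pc_eq [DecidableEq Ln] (L : Leaves Λ) (ν : Ω → ℝ) (leaf : Ω → Λ) (ln : Ω → Ln) (z : Λ) :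
    pc L ν leaf z = ∑ v ∈ univ.image ln, ∑ w ∈ L.lsC z, lw ν leaf ln v w := by
  classical
  unfold pc
  rw [ms_fib ν leaf ln (fun _ w => z ∈ L.cen w)]
  refine sum_congr rfl fun v _ => ?_
  refine sum_congr ?_ fun _ _ => rfl
  ext w
  rw [mem_filter, L.mem_lsC]
  simp

/-- the centres have total mass at most `n + 1` -/
theorem sum_pc (L : Leaves Λ) {n : ℕ} (hn : Fintype.card Λ ≤ 2 ^ n) {ν : Ω → ℝ} (hν : IsProb ν)
    (leaf : Ω → Λ) : ∑ z, pc L ν leaf z ≤ n + 1 := by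
  classical
  set ln : Ω → Unit := fun _ => ()
  have h1 : ∀ z, pc L ν leaf z = ∑ v ∈ univ.image ln, ∑ w ∈ L.lsC z, lw ν leaf ln v w :=
    fun z => pc_eq L ν leaf ln z
  simp_rw [h1]
  rw [sum_comm]
  have h2 : ∀ v ∈ univ.image ln, ∑ z, ∑ w ∈ L.lsC z, lw ν leaf ln v w ≤
      (n + 1) * ∑ w, lw ν leaf ln v w :=
    fun v _ => L.sum_lsC hn _ (lw_nonneg hν leaf ln v)
  refine (sum_le_sum h2).trans ?_
  rw [← mul_sum]
  have h3 := ms_fib ν leaf ln (fun _ _ => True)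
  have h4 : ∑ v ∈ univ.image ln, ∑ w, lw ν leaf ln v w = ms ν (fun _ => True) := by
    rw [h3]
    refine sum_congr rfl fun v _ => ?_
    rw [filter_true_of_mem (fun _ _ => trivial)]
  rw [h4]
  have h5 := ms_le_one hν (fun _ => True)
  have h6 : (0 : ℝ) ≤ n + 1 := by positivity
  nlinarith

/-- the heavy giants -/
theorem ng_heavy (L : Leaves Λ) {n : ℕ} (hn : Fintype.card Λ ≤ 2 ^ n) {ν : Ω → ℝ} (hν : IsProb ν)
    (leaf : Ω → Λ) (ln : Ω → Ln) {ε : ℝ} (hε : 0 ≤ ε) :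
    ms ν (fun ω => ∃ z, L.HG (lw ν leaf ln (ln ω)) ε z (leaf ω)) ≤ (n + 1) * ε := by
  classical
  refine (ms_exists_le hν _).trans ?_
  have h1 : ∀ z, ms ν (fun ω => L.HG (lw ν leaf ln (ln ω)) ε z (leaf ω)) ≤
      ε * pc L ν leaf z := by
    intro z
    rw [ms_fib ν leaf ln (fun v w => L.HG (lw ν leaf ln v) ε z w), pc_eq L ν leaf ln z, mul_sum]
    apply sum_le_sum
    intro v _
    exact L.heavy_le (lw_nonneg hν leaf ln v) hε z
  refine (sum_le_sum fun z _ => h1 z).trans ?_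
  rw [← mul_sum]
  nlinarith [sum_pc L hn hν leaf]

theorem min_sq {s x y : ℝ} (hs : 0 ≤ s) (hx : 0 ≤ x) (hy : 0 ≤ y) :
    min 1 (s ^ 2 * (x * y)) ≤ s * (x + y) / 2 := by
  rcases le_or_gt 1 (s * (x + y) / 2) with h | h
  · exact (min_le_left _ _).trans h
  · refine (min_le_right _ _).trans ?_
    have h0 : 0 ≤ s * (x + y) / 2 := by positivity
    have h1 : x * y ≤ ((x + y) / 2) ^ 2 := by nlinarith [sq_nonneg (x - y)]
    have h2 : s ^ 2 * (x * y) ≤ (s * (x + y) / 2) ^ 2 := by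
      have : (s * (x + y) / 2) ^ 2 = s ^ 2 * ((x + y) / 2) ^ 2 := by ring
      rw [this]
      exact mul_le_mul_of_nonneg_left h1 (sq_nonneg s)
    nlinarith

/-- the light giants with a conflict, one line -/
theorem ng_line (L : Leaves Λ) {m : Λ → ℝ} (hm : ∀ w, 0 ≤ m w) {ε s : ℝ} (hε : 0 ≤ ε) (hs : 0 ≤ s)
    (hes : 22 * ε ≤ s ^ 2) (z : Λ) (Q : Λ → Prop) (F : Finset ℝ) (hF : ∀ ρ ∈ F, 0 < ρ)
    (hQ : ∀ w, L.LG m ε z w → Q w → ∃ ρ ∈ F, L.inO z w ρ) {x y : ℝ} (hx : 0 ≤ x) (hy : 0 ≤ y)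
    (hc : (#F : ℝ) ≤ x * y) [DecidablePred (fun w => L.LG m ε z w ∧ Q w)] :
    ∑ w with L.LG m ε z w ∧ Q w, m w ≤ s * (x + y) / 2 * ∑ w ∈ L.lsC z, m w := by
  classical
  set M := ∑ w ∈ L.lsC z, m w with hM
  have hM0 : 0 ≤ M := sum_nonneg fun i _ => hm i
  have h1 : ∑ w with L.LG m ε z w ∧ Q w, m w ≤ M := by
    apply sum_le_sum_of_subset_of_nonneg _ (fun i _ _ => hm i)
    intro w hw
    rw [mem_filter] at hw
    exact L.LG_mem hw.2.1
  have h2 : ∑ w with L.LG m ε z w ∧ Q w, m w ≤ s ^ 2 * (x * y) * M := by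
    have hsub : (univ.filter fun w => L.LG m ε z w ∧ Q w) ⊆
        F.biUnion (fun ρ => univ.filter (fun w => L.LG m ε z w ∧ L.inO z w ρ)) := by
      intro w hw
      rw [mem_filter] at hw
      obtain ⟨ρ, hρ, hi⟩ := hQ w hw.2.1 hw.2.2
      rw [mem_biUnion]
      exact ⟨ρ, hρ, mem_filter.2 ⟨mem_univ _, hw.2.1, hi⟩⟩
    refine (sum_le_sum_of_subset_of_nonneg hsub (fun i _ _ => hm i)).trans ?_
    have h3 : ∑ w ∈ F.biUnion (fun ρ => univ.filter (fun w => L.LG m ε z w ∧ L.inO z w ρ)), m w ≤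
        ∑ ρ ∈ F, ∑ w with L.LG m ε z w ∧ L.inO z w ρ, m w := sum_bU _ _ _ hm
    refine h3.trans ?_
    have h4 : ∀ ρ ∈ F, ∑ w with L.LG m ε z w ∧ L.inO z w ρ, m w ≤ 22 * (ε * M) :=
      fun ρ hρ => L.oct hm hε z (hF ρ hρ)
    refine (sum_le_sum h4).trans ?_
    rw [sum_const, nsmul_eq_mul]
    have h5 : 22 * (ε * M) ≤ s ^ 2 * M := by nlinarith
    have h6 : (0 : ℝ) ≤ #F := by positivity
    calc (#F : ℝ) * (22 * (ε * M)) ≤ #F * (s ^ 2 * M) := mul_le_mul_of_nonneg_left h5 h6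
      _ ≤ x * y * (s ^ 2 * M) := mul_le_mul_of_nonneg_right hc (by positivity)
      _ = _ := by ring
  have h3 : ∑ w with L.LG m ε z w ∧ Q w, m w ≤ min 1 (s ^ 2 * (x * y)) * M := by
    rcases min_cases (1 : ℝ) (s ^ 2 * (x * y)) with h | h
    · rw [h.1, one_mul]
      exact h1
    · rw [h.1]
      exact h2
  exact h3.trans (mul_le_mul_of_nonneg_right (min_sq hs hx hy) hM0)

/-- the light giants with a conflict -/
theorem ng_light (L : Leaves Λ) {ν : Ω → ℝ} (hν : IsProb ν)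
    (leaf : Ω → Λ) (ln : Ω → Ln) {ε s : ℝ} (hε : 0 ≤ ε) (hs : 0 ≤ s) (hes : 22 * ε ≤ s ^ 2) (z : Λ)
    (Q : Ln → Λ → Prop) (F : Ln → Finset ℝ) (hF : ∀ v, ∀ ρ ∈ F v, 0 < ρ)
    (hQ : ∀ v w, z ≠ w → Q v w → ∃ ρ ∈ F v, L.inO z w ρ) (x y : Ln → ℝ) (hx : ∀ v, 0 ≤ x v)
    (hy : ∀ v, 0 ≤ y v) (hc : ∀ v, (#(F v) : ℝ) ≤ x v * y v) {B : ℝ}
    (hX : 0 < pc L ν leaf z →
      ∑ ω, cnd ν (fun ω => z ∈ L.cen (leaf ω)) True ω * x (ln ω) ≤ B)
    (hY : 0 < pc L ν leaf z →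
      ∑ ω, cnd ν (fun ω => z ∈ L.cen (leaf ω)) True ω * y (ln ω) ≤ B) :
    ms ν (fun ω => L.LG (lw ν leaf ln (ln ω)) ε z (leaf ω) ∧ Q (ln ω) (leaf ω)) ≤
      s * B * pc L ν leaf z := by
  classical
  rw [ms_fib ν leaf ln (fun v w => L.LG (lw ν leaf ln v) ε z w ∧ Q v w)]
  have h1 : ∀ v ∈ univ.image ln, ∑ w with L.LG (lw ν leaf ln v) ε z w ∧ Q v w,
      lw ν leaf ln v w ≤ s * (x v + y v) / 2 * ∑ w ∈ L.lsC z, lw ν leaf ln v w := by
    intro v _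
    refine ng_line L (lw_nonneg hν leaf ln v) hε hs hes z (Q v) (F v) (hF v) ?_ (hx v) (hy v)
      (hc v)
    intro w hw hq
    refine hQ v w ?_ hq
    rintro rfl
    obtain ⟨_, _, h3, _⟩ := L.lvl_spec hw
    exact h3 rfl
  refine (sum_le_sum h1).trans ?_
  have h2 : ∑ v ∈ univ.image ln, s * (x v + y v) / 2 * ∑ w ∈ L.lsC z, lw ν leaf ln v w =
      ∑ ω, ν ω * (if z ∈ L.cen (leaf ω) then s * (x (ln ω) + y (ln ω)) / 2 else 0) := by
    rw [sum_fib ν leaf ln (fun v w => if z ∈ L.cen w then s * (x v + y v) / 2 else 0)]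
    refine sum_congr rfl fun v _ => ?_
    rw [mul_sum]
    have h3 : L.lsC z = univ.filter (fun w => z ∈ L.cen w) := by
      ext w
      rw [L.mem_lsC]
      simp
    rw [h3, sum_filter]
    refine sum_congr rfl fun w _ => ?_
    split_ifs <;> ring
  rw [h2]
  have hpr : Pr ν (fun ω => z ∈ L.cen (leaf ω)) True = pc L ν leaf z := by
    unfold pc
    rw [ms_eq_PE]
  have hp0 : 0 ≤ pc L ν leaf z := ms_nonneg hν _
  rcases hp0.eq_or_lt with h0 | h0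
  · have h4 : ∀ ω ∈ (univ : Finset Ω),
        ν ω * (if z ∈ L.cen (leaf ω) then s * (x (ln ω) + y (ln ω)) / 2 else 0) = 0 := by
      intro ω _
      by_cases hz : z ∈ L.cen (leaf ω)
      · have h5 := le_Pr hν (fun ω => z ∈ L.cen (leaf ω)) ω
        have h6 : (z ∈ L.cen (leaf ω)) = True := eq_true hz
        rw [h6, hpr, ← h0] at h5
        rw [le_antisymm h5 (hν.nonneg ω), zero_mul]
      · rw [if_neg hz, mul_zero]
    rw [sum_eq_zero h4, ← h0, mul_zero]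
  · have h3 := sum_cnd ν (fun ω => z ∈ L.cen (leaf ω)) True
      (fun ω => s * (x (ln ω) + y (ln ω)) / 2) (by rw [hpr]; exact h0.ne')
    rw [hpr] at h3
    have h4 : ∑ ω, ν ω * (if z ∈ L.cen (leaf ω) then s * (x (ln ω) + y (ln ω)) / 2 else 0) =
        pc L ν leaf z * ∑ ω, cnd ν (fun ω => z ∈ L.cen (leaf ω)) True ω *
          (s * (x (ln ω) + y (ln ω)) / 2) := by
      rw [h3]
      refine sum_congr rfl fun ω _ => ?_
      by_cases hz : z ∈ L.cen (leaf ω)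
      · rw [if_pos hz, if_pos (eq_true hz)]
      · rw [if_neg hz, if_neg (by simp [hz]), mul_zero]
    rw [h4]
    have h5 : ∑ ω, cnd ν (fun ω => z ∈ L.cen (leaf ω)) True ω *
        (s * (x (ln ω) + y (ln ω)) / 2) =
        s / 2 * (∑ ω, cnd ν (fun ω => z ∈ L.cen (leaf ω)) True ω * x (ln ω) +
          ∑ ω, cnd ν (fun ω => z ∈ L.cen (leaf ω)) True ω * y (ln ω)) := by
      rw [← sum_add_distrib, mul_sum]
      refine sum_congr rfl fun ω _ => ?_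
      ring
    rw [h5]
    have h6 := hX h0
    have h7 := hY h0
    have h8 : s / 2 * (∑ ω, cnd ν (fun ω => z ∈ L.cen (leaf ω)) True ω * x (ln ω) +
          ∑ ω, cnd ν (fun ω => z ∈ L.cen (leaf ω)) True ω * y (ln ω)) ≤ s * B := by
      nlinarith
    calc _ ≤ pc L ν leaf z * (s * B) := mul_le_mul_of_nonneg_left h8 hp0
      _ = _ := by ring

/-- averaging over the classes of `V` -/
theorem ms_class_le {τ : Type*} {ν : Ω → ℝ} (hν : IsProb ν) (V : Ω → τ) (Q : Ω → Prop) {b : ℝ}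
    (hb : 0 ≤ b)
    (h : ∀ ω₀, 0 < ν ω₀ → Q ω₀ → ms (cnd ν V (V ω₀)) Q ≤ b) : ms ν Q ≤ b := by
  classical
  have h1 : ms ν Q = ∑ ω, ν ω * (if Q ω then (1 : ℝ) else 0) := by
    rw [ms_eq]
    refine sum_congr rfl fun ω _ => ?_
    split_ifs <;> simp
  have h2 := sum_cnd_fiber hν V (fun _ ω => if Q ω then (1 : ℝ) else 0)
  rw [h1, h2]
  have h3 : ∀ y ∈ univ.image V,
      Pr ν V y * ∑ ω, cnd ν V y ω * (if Q ω then (1 : ℝ) else 0) ≤ Pr ν V y * b := by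
    intro y _
    apply mul_le_mul_of_nonneg_left _ (Pr_nonneg hν V y)
    have h4 : ∑ ω, cnd ν V y ω * (if Q ω then (1 : ℝ) else 0) = ms (cnd ν V y) Q := by
      rw [ms_eq]
      refine sum_congr rfl fun ω _ => ?_
      split_ifs <;> simp
    rw [h4]
    by_cases hex : ∃ ω₀, 0 < ν ω₀ ∧ Q ω₀ ∧ V ω₀ = y
    · obtain ⟨ω₀, h5, h6, rfl⟩ := hex
      exact h ω₀ h5 h6
    · refine le_trans (le_of_eq ?_) hb
      unfold ms
      apply sum_eq_zero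
      intro ω _
      by_cases hq : Q ω
      · rw [if_pos hq]
        unfold cnd
        by_cases hv : V ω = y
        · rw [if_pos hv]
          have : ν ω = 0 := by
            by_contra hne
            exact hex ⟨ω, lt_of_le_of_ne (hν.nonneg ω) (Ne.symm hne), hq, hv⟩
          rw [this, zero_div]
        · rw [if_neg hv]
      · rw [if_neg hq]
  refine (sum_le_sum h3).trans ?_
  rw [← sum_mul]
  have h5 : ∑ y ∈ univ.image V, Pr ν V y = 1 := by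
    have h6 := sum_cnd_fiber hν V (fun _ _ => (1 : ℝ))
    simp only [mul_one] at h6
    rw [hν.sum] at h6
    rw [h6]
    refine sum_congr rfl fun y hy => ?_
    rcases (Pr_nonneg hν V y).eq_or_lt with h0 | h0
    · rw [← h0, zero_mul]
    · rw [(cnd_isProb hν h0).sum, mul_one]
  rw [h5, one_mul]

omit [Fintype Λ] in
theorem ms_exists_mem_le {ι : Type*} {ν : Ω → ℝ} (hν : IsProb ν) (F : Finset ι)
    (Q : ι → Ω → Prop) : ms ν (fun ω => ∃ i ∈ F, Q i ω) ≤ ∑ i ∈ F, ms ν (Q i) := by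
  classical
  unfold ms
  rw [sum_comm]
  refine sum_le_sum fun ω _ => ?_
  have h0 := hν.nonneg ω
  have hn : ∀ i ∈ F, 0 ≤ (if Q i ω then ν ω else 0) := by
    intro i _
    split_ifs
    · exact h0
    · exact le_rfl
  by_cases h : ∃ i ∈ F, Q i ω
  · rw [if_pos h]
    obtain ⟨i, hi, hq⟩ := h
    have := single_le_sum hn hi
    rwa [if_pos hq] at this
  · rw [if_neg h]
    exact sum_nonneg hn

open Classical in
/-- the number of bad columns over all systems -/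
noncomputable def nE {α ζ : Type*} [Fintype α] (μ : Ω → ℝ) (ln : Ω → Ln) (S Z : α → ℤ → Ln → ζ)
    (q : ℝ) (E : ℕ) (o κ₁ : ℤ) (K : Finset ℤ) (v : Ln) : ℝ :=
  ∑ a, (#{k ∈ K | Bad μ ln (S a) (Z a) q E o κ₁ k v} : ℝ)

omit [Fintype Λ] in
theorem nE_nonneg {α ζ : Type*} [Fintype α] (μ : Ω → ℝ) (ln : Ω → Ln) (S Z : α → ℤ → Ln → ζ)
    (q : ℝ) (E : ℕ) (o κ₁ : ℤ) (K : Finset ℤ) (v : Ln) : 0 ≤ nE μ ln S Z q E o κ₁ K v :=
  sum_nonneg fun _ _ => Nat.cast_nonneg _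

/-- **LEMMA NG, parts (0), (1), (4)**, for the good flags: giant exits are rare, given the conflict
bound `hb` for the good classes and the expectation bounds `hX`, `hY` for the bad columns -/
theorem ng_total_good {α ζ τ : Type*} [Fintype α] (L : Leaves Λ) {n : ℕ}
    (hn : Fintype.card Λ ≤ 2 ^ n) {ν : Ω → ℝ} (hν : IsProb ν) (leaf : Ω → Λ) (ln : Ω → Ln)
    {ε s : ℝ} (hε : 0 ≤ ε) (hs : 0 ≤ s) (hes : 22 * ε ≤ s ^ 2)
    (S Z : Λ → α → ℤ → Ln → ζ) (q : ℝ) (E : ℕ) (omin omax k₀ k₁ κ₀ κ₁ : ℤ) (olo ohi : Λ → Λ → ℤ)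
    (hband : ∀ z w, z ≠ w → ∀ o : ℤ, olo z w ≤ o → o ≤ ohi z w → L.inO z w ((2 : ℝ) ^ (-o)))
    {B : ℝ} (hB : 0 ≤ B)
    (hX : ∀ z, 0 < pc L ν leaf z →
      ∑ ω, cnd ν (fun ω => z ∈ L.cen (leaf ω)) True ω *
        nE (cnd ν (fun ω => z ∈ L.cen (leaf ω)) True) ln (S z) (Z z) q E omin κ₁ (Icc k₀ k₁)
          (ln ω) ≤ B)
    (hY : ∀ z, 0 < pc L ν leaf z →
      ∑ ω, cnd ν (fun ω => z ∈ L.cen (leaf ω)) True ω *
        nE (cnd ν (fun ω => z ∈ L.cen (leaf ω)) True) ln (Z z) (S z) q E (-omax) k₁ (Icc κ₀ κ₁)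
          (ln ω) ≤ B)
    (V : Ω → τ) (hV : ∀ ω ω', V ω = V ω' → leaf ω = leaf ω') (good : Ω → Prop) {δ : ℝ}
    (hδ : 0 ≤ δ)
    (hb : ∀ ω₀, 0 < ν ω₀ → good ω₀ → ∀ z ∈ L.cen (leaf ω₀), z ≠ leaf ω₀ →
      ms (cnd ν V (V ω₀)) (fun ω => ¬ Cnf (cnd ν (fun ω => z ∈ L.cen (leaf ω)) True) ln (S z) (Z z)
        q E omin omax k₀ k₁ κ₀ κ₁ (olo z (leaf ω₀)) (ohi z (leaf ω₀)) (ln ω)) ≤ δ) :
    ms ν (fun ω => good ω ∧ ∃ t < L.T, L.gi (lw ν leaf ln (ln ω)) ε t (leaf ω)) ≤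
      (n + 1) * (ε + s * B + δ) := by
  classical
  set μ : Λ → Ω → ℝ := fun z => cnd ν (fun ω => z ∈ L.cen (leaf ω)) True with hμ
  set C : Λ → Ln → Λ → Prop := fun z v w => Cnf (μ z) ln (S z) (Z z) q E omin omax k₀ k₁ κ₀ κ₁
    (olo z w) (ohi z w) v with hC
  -- the conflicts
  have hlight : ms ν (fun ω => ∃ z, L.LG (lw ν leaf ln (ln ω)) ε z (leaf ω) ∧
      C z (ln ω) (leaf ω)) ≤ (n + 1) * (s * B) := by
    refine (ms_exists_le hν _).trans ?_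
    have h1 : ∀ z, ms ν (fun ω => L.LG (lw ν leaf ln (ln ω)) ε z (leaf ω) ∧
        C z (ln ω) (leaf ω)) ≤ s * B * pc L ν leaf z := by
      intro z
      refine ng_light L hν leaf ln hε hs hes z (C z)
        (fun v => univ.biUnion (fun a : α =>
          ({k ∈ Icc k₀ k₁ | Bad (μ z) ln (S z a) (Z z a) q E omin κ₁ k v} ×ˢ
            {κ ∈ Icc κ₀ κ₁ | Bad (μ z) ln (Z z a) (S z a) q E (-omax) k₁ κ v}).image
            (fun p => (2 : ℝ) ^ (-(p.2 - p.1)))))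
        ?_ ?_ (nE (μ z) ln (S z) (Z z) q E omin κ₁ (Icc k₀ k₁))
        (nE (μ z) ln (Z z) (S z) q E (-omax) k₁ (Icc κ₀ κ₁)) (nE_nonneg _ _ _ _ _ _ _ _ _)
        (nE_nonneg _ _ _ _ _ _ _ _ _) ?_ (hX z) (hY z)
      · intro v ρ hρ
        rw [mem_biUnion] at hρ
        obtain ⟨a, _, hρ⟩ := hρ
        rw [mem_image] at hρ
        obtain ⟨p, _, rfl⟩ := hρ
        positivity
      · intro v w hzw hc
        obtain ⟨a, k, hk, κ, hκ, h1, h2, h3, h4⟩ := hc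
        refine ⟨(2 : ℝ) ^ (-(κ - k)), ?_, hband z w hzw _ h3 h4⟩
        rw [mem_biUnion]
        refine ⟨a, mem_univ _, mem_image.2 ⟨(k, κ), ?_, rfl⟩⟩
        rw [mem_product, mem_filter, mem_filter]
        exact ⟨⟨hk, h1⟩, ⟨hκ, h2⟩⟩
      · intro v
        have h2 : (#(univ.biUnion (fun a : α =>
          ({k ∈ Icc k₀ k₁ | Bad (μ z) ln (S z a) (Z z a) q E omin κ₁ k v} ×ˢ
            {κ ∈ Icc κ₀ κ₁ | Bad (μ z) ln (Z z a) (S z a) q E (-omax) k₁ κ v}).image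
            (fun p => (2 : ℝ) ^ (-(p.2 - p.1))))) : ℝ) ≤
            ∑ a : α, (#{k ∈ Icc k₀ k₁ | Bad (μ z) ln (S z a) (Z z a) q E omin κ₁ k v} : ℝ) *
              (#{κ ∈ Icc κ₀ κ₁ | Bad (μ z) ln (Z z a) (S z a) q E (-omax) k₁ κ v} : ℝ) := by
          have h3 : #(univ.biUnion (fun a : α =>
            ({k ∈ Icc k₀ k₁ | Bad (μ z) ln (S z a) (Z z a) q E omin κ₁ k v} ×ˢ
              {κ ∈ Icc κ₀ κ₁ | Bad (μ z) ln (Z z a) (S z a) q E (-omax) k₁ κ v}).image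
              (fun p => (2 : ℝ) ^ (-(p.2 - p.1))))) ≤
              ∑ a : α, #{k ∈ Icc k₀ k₁ | Bad (μ z) ln (S z a) (Z z a) q E omin κ₁ k v} *
                #{κ ∈ Icc κ₀ κ₁ | Bad (μ z) ln (Z z a) (S z a) q E (-omax) k₁ κ v} := by
            refine card_biUnion_le.trans (sum_le_sum fun a _ => ?_)
            refine card_image_le.trans ?_
            rw [card_product]
          exact_mod_cast h3
        refine h2.trans ?_
        unfold nE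
        rw [sum_mul]
        refine sum_le_sum fun a _ => ?_
        apply mul_le_mul_of_nonneg_left _ (Nat.cast_nonneg _)
        exact single_le_sum (f := fun a : α =>
          (#{κ ∈ Icc κ₀ κ₁ | Bad (μ z) ln (Z z a) (S z a) q E (-omax) k₁ κ v} : ℝ))
          (fun _ _ => Nat.cast_nonneg _) (mem_univ a)
    refine (sum_le_sum fun z _ => h1 z).trans ?_
    rw [← mul_sum]
    have h2 := sum_pc L hn hν leaf
    have h3 : 0 ≤ s * B := by positivity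
    nlinarith
  -- no conflict
  have hno : ms ν (fun ω => good ω ∧ ∃ z ∈ L.cen (leaf ω), z ≠ leaf ω ∧
      ¬ C z (ln ω) (leaf ω)) ≤ (n + 1) * δ := by
    apply ms_class_le hν V _ (by positivity)
    intro ω₀ hp ⟨hg, _⟩
    have hP : IsProb (cnd ν V (V ω₀)) := cnd_isProb hν (Pr_pos hν V hp)
    have h1 : ms (cnd ν V (V ω₀)) (fun ω => good ω ∧ ∃ z ∈ L.cen (leaf ω), z ≠ leaf ω ∧
        ¬ C z (ln ω) (leaf ω)) ≤ ms (cnd ν V (V ω₀)) (fun ω =>
          ∃ z ∈ (L.cen (leaf ω₀)).filter (fun z => z ≠ leaf ω₀), ¬ C z (ln ω) (leaf ω₀)) := by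
      apply ms_mono hP
      intro ω hω ⟨_, z, hz, hne, hc⟩
      have hl := hV ω ω₀ (cnd_pos hω)
      rw [hl] at hz hne hc
      exact ⟨z, mem_filter.2 ⟨hz, hne⟩, hc⟩
    refine h1.trans ((ms_exists_mem_le hP _ _).trans ?_)
    have h2 : ∀ z ∈ (L.cen (leaf ω₀)).filter (fun z => z ≠ leaf ω₀),
        ms (cnd ν V (V ω₀)) (fun ω => ¬ C z (ln ω) (leaf ω₀)) ≤ δ := by
      intro z hz
      rw [mem_filter] at hz
      exact hb ω₀ hp hg z hz.1 hz.2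
    refine (sum_le_sum h2).trans ?_
    rw [sum_const, nsmul_eq_mul]
    apply mul_le_mul_of_nonneg_right _ hδ
    have h3 := (card_filter_le (L.cen (leaf ω₀)) (fun z => z ≠ leaf ω₀)).trans
      (L.card_cen_le hn (leaf ω₀))
    exact_mod_cast h3
  have hheavy := ng_heavy L hn hν leaf ln hε
  have hall : ms ν (fun ω => good ω ∧ ∃ t < L.T, L.gi (lw ν leaf ln (ln ω)) ε t (leaf ω)) ≤
      ms ν (fun ω => (∃ z, L.HG (lw ν leaf ln (ln ω)) ε z (leaf ω)) ∨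
        ((∃ z, L.LG (lw ν leaf ln (ln ω)) ε z (leaf ω) ∧ C z (ln ω) (leaf ω)) ∨
        (good ω ∧ ∃ z ∈ L.cen (leaf ω), z ≠ leaf ω ∧ ¬ C z (ln ω) (leaf ω)))) := by
    apply ms_mono hν
    intro ω _ ⟨hg, t, ht, hgi⟩
    rcases L.gi_cases ht hgi with h | h
    · exact Or.inl ⟨_, h⟩
    · by_cases hc : C (L.zc t (leaf ω)) (ln ω) (leaf ω)
      · exact Or.inr (Or.inl ⟨_, h, hc⟩)
      · refine Or.inr (Or.inr ⟨hg, _, L.mem_lsC.1 (L.LG_mem h), ?_, hc⟩)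
        intro heq
        obtain ⟨_, _, h3, _⟩ := L.lvl_spec h
        exact h3 (by rw [heq])
  have e1 := ms_or_le hν (fun ω => ∃ z, L.HG (lw ν leaf ln (ln ω)) ε z (leaf ω))
    (fun ω => (∃ z, L.LG (lw ν leaf ln (ln ω)) ε z (leaf ω) ∧ C z (ln ω) (leaf ω)) ∨
        (good ω ∧ ∃ z ∈ L.cen (leaf ω), z ≠ leaf ω ∧ ¬ C z (ln ω) (leaf ω)))
  have e2 := ms_or_le hν
    (fun ω => ∃ z, L.LG (lw ν leaf ln (ln ω)) ε z (leaf ω) ∧ C z (ln ω) (leaf ω))
    (fun ω => good ω ∧ ∃ z ∈ L.cen (leaf ω), z ≠ leaf ω ∧ ¬ C z (ln ω) (leaf ω))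
  linarith

/-- **LEMMA NG, parts (0), (1), (4)**: giant exits are rare, given the conflict bound `hb` for the
good classes and the expectation bounds `hX`, `hY` for the bad columns -/
theorem ng_total {α ζ τ : Type*} [Fintype α] (L : Leaves Λ) {n : ℕ}
    (hn : Fintype.card Λ ≤ 2 ^ n) {ν : Ω → ℝ} (hν : IsProb ν) (leaf : Ω → Λ) (ln : Ω → Ln)
    {ε s : ℝ} (hε : 0 ≤ ε) (hs : 0 ≤ s) (hes : 22 * ε ≤ s ^ 2)
    (S Z : Λ → α → ℤ → Ln → ζ) (q : ℝ) (E : ℕ) (omin omax k₀ k₁ κ₀ κ₁ : ℤ) (olo ohi : Λ → Λ → ℤ)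
    (hband : ∀ z w, z ≠ w → ∀ o : ℤ, olo z w ≤ o → o ≤ ohi z w → L.inO z w ((2 : ℝ) ^ (-o)))
    {B : ℝ} (hB : 0 ≤ B)
    (hX : ∀ z, 0 < pc L ν leaf z →
      ∑ ω, cnd ν (fun ω => z ∈ L.cen (leaf ω)) True ω *
        nE (cnd ν (fun ω => z ∈ L.cen (leaf ω)) True) ln (S z) (Z z) q E omin κ₁ (Icc k₀ k₁)
          (ln ω) ≤ B)
    (hY : ∀ z, 0 < pc L ν leaf z →
      ∑ ω, cnd ν (fun ω => z ∈ L.cen (leaf ω)) True ω *
        nE (cnd ν (fun ω => z ∈ L.cen (leaf ω)) True) ln (Z z) (S z) q E (-omax) k₁ (Icc κ₀ κ₁)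
          (ln ω) ≤ B)
    (V : Ω → τ) (hV : ∀ ω ω', V ω = V ω' → leaf ω = leaf ω') (good : Ω → Prop) {δ : ℝ}
    (hδ : 0 ≤ δ)
    (hb : ∀ ω₀, 0 < ν ω₀ → good ω₀ → ∀ z ∈ L.cen (leaf ω₀), z ≠ leaf ω₀ →
      ms (cnd ν V (V ω₀)) (fun ω => ¬ Cnf (cnd ν (fun ω => z ∈ L.cen (leaf ω)) True) ln (S z) (Z z)
        q E omin omax k₀ k₁ κ₀ κ₁ (olo z (leaf ω₀)) (ohi z (leaf ω₀)) (ln ω)) ≤ δ) :
    ms ν (fun ω => ∃ t < L.T, L.gi (lw ν leaf ln (ln ω)) ε t (leaf ω)) ≤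
      (n + 1) * (ε + s * B + δ) + ms ν (fun ω => ¬ good ω) := by
  have h := ng_total_good L hn hν leaf ln hε hs hes S Z q E omin omax k₀ k₁ κ₀ κ₁ olo ohi hband hB
    hX hY V hV good hδ hb
  have h1 := ms_split ν (fun ω => ∃ t < L.T, L.gi (lw ν leaf ln (ln ω)) ε t (leaf ω)) good
  have h2 : ms ν (fun ω => (∃ t < L.T, L.gi (lw ν leaf ln (ln ω)) ε t (leaf ω)) ∧ good ω) ≤
      ms ν (fun ω => good ω ∧ ∃ t < L.T, L.gi (lw ν leaf ln (ln ω)) ε t (leaf ω)) :=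
    ms_mono hν fun _ _ h => ⟨h.2, h.1⟩
  have h3 : ms ν (fun ω => (∃ t < L.T, L.gi (lw ν leaf ln (ln ω)) ε t (leaf ω)) ∧ ¬ good ω) ≤
      ms ν (fun ω => ¬ good ω) := ms_mono hν fun _ _ h => h.2
  linarith

/-- the weight of a cell on a line -/
theorem cell_lw (L : Leaves Λ) (ν : Ω → ℝ) (leaf : Ω → Λ) (ln : Ω → Ln) (v : Ln) (t : ℕ) (w : Λ) :
    ∑ a ∈ L.cell t w, lw ν leaf ln v a =
      Pr ν (fun ω => (L.D t (leaf ω), ln ω)) (L.D t w, v) := by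
  classical
  have h1 : ∀ a ∈ L.cell t w, lw ν leaf ln v a =
      ∑ ω, if leaf ω = a ∧ ln ω = v then ν ω else 0 := fun a _ => by
    unfold lw
    rw [ms_eq]
  rw [sum_congr rfl h1, sum_comm]
  unfold Pr
  refine sum_congr rfl fun ω _ => ?_
  by_cases hv : ln ω = v
  · by_cases hw : L.D t (leaf ω) = L.D t w
    · rw [sum_eq_single_of_mem (leaf ω) (L.mem_cell.2 hw)]
      · rw [if_pos ⟨rfl, hv⟩, if_pos (Prod.ext hw hv)]
      · intro a _ ha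
        rw [if_neg (fun h => ha h.1.symm)]
    · rw [if_neg (fun h => hw (Prod.mk.inj h).1)]
      apply sum_eq_zero
      intro a ha
      rw [if_neg]
      rintro ⟨rfl, _⟩
      exact hw (L.mem_cell.1 ha)
  · rw [if_neg (fun h => hv (Prod.mk.inj h).2)]
    apply sum_eq_zero
    intro a _
    rw [if_neg (fun h => hv h.2)]

/-- giant exits in terms of the time steps along the line -/
theorem gi_lw_iff (L : Leaves Λ) (ν : Ω → ℝ) (leaf : Ω → Λ) (ln : Ω → Ln) (ε : ℝ) (t : ℕ) (ω : Ω) :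
    L.gi (lw ν leaf ln (ln ω)) ε t (leaf ω) ↔
      Pr ν (fun ω => (L.D (t + 1) (leaf ω), ln ω)) (L.D (t + 1) (leaf ω), ln ω) ≤
        ε * Pr ν (fun ω => (L.D t (leaf ω), ln ω)) (L.D t (leaf ω), ln ω) := by
  unfold Leaves.gi
  rw [cell_lw, cell_lw]

end Vale.Agent.P065.H987
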