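import Vale.Agent.P065.UB.WLov

/-!
# P065: far points and the simulation lemma (helper987)

`far_point`: a point far away in the direction `± (1, τ)` lies above (below) all points of a finite
set before the time `τ` and below (above) them afterwards.
`sim`: for a finite set `T` and a list of times with ranks there are far points such that the rank
plus the number of far points below is constant.
-/

set_option autoImplicit false

namespace Vale.Agent.P065.H987

open Finset Filter Vale.Agent.P065.UB Vale.Agent.P065.UB.RankAux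

theorem ht_eq_sl {a b : Pt} (h : a.1 ≠ b.1) {m : ℝ} (hm : ht m a = ht m b) : m = sl a b := by
  unfold ht at hm
  unfold sl
  have h' : b.1 - a.1 ≠ 0 := fun h0 => h (by linarith)
  rw [eq_div_iff h']
  linarith

open Classical in
/-- one far point -/
theorem far_point {A : Finset Pt} (hA : Good A) (S : Finset ℝ) {τ₀ τ₁ : ℝ} (hτ : τ₀ < τ₁)
    {σ : ℝ} (hσ : σ = 1 ∨ σ = -1) (X₀ : ℝ) :
    ∃ w : Pt, w ∉ A ∧ X₀ < |w.1| ∧ Good (insert w A) ∧
      ∀ t ∈ S, ∀ u ∈ A, (t ≤ τ₀ → 0 < σ * (ht t w - ht t u)) ∧
        (τ₁ ≤ t → σ * (ht t w - ht t u) < 0) := by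
  have hσσ : σ * σ = 1 := by rcases hσ with h | h <;> rw [h] <;> norm_num
  -- the direction
  obtain ⟨τ, ⟨h0, h1⟩, hgen⟩ : ∃ τ ∈ Set.Ioo τ₀ τ₁, τ ∉ ((A ×ˢ A).image fun e => sl e.1 e.2) := by
    have hinf : (Set.Ioo τ₀ τ₁).Infinite := Set.Ioo_infinite hτ
    obtain ⟨x, hx, hx'⟩ := hinf.exists_notMem_finset ((A ×ˢ A).image fun e => sl e.1 e.2)
    exact ⟨x, hx, hx'⟩
  have hgen' : ∀ a ∈ A, ∀ b ∈ A, τ ≠ sl a b := fun a ha b hb h =>
    hgen (Finset.mem_image.2 ⟨(a, b), Finset.mem_product.2 ⟨ha, hb⟩, h.symm⟩)
  -- the conditions on the distance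
  have ev1 : ∀ᶠ X : ℝ in atTop, ∀ u ∈ A, |u.1| < X := by
    rw [Filter.eventually_all_finset]
    intro u _
    exact eventually_gt_atTop _
  have ev0 : ∀ᶠ X : ℝ in atTop, |X₀| < X ∧ 0 < X :=
    (eventually_gt_atTop _).and (eventually_gt_atTop _)
  have ev2 : ∀ᶠ X : ℝ in atTop, ∀ t ∈ S, ∀ u ∈ A,
      (t ≤ τ₀ → 0 < (τ - t) * X - σ * ht t u) ∧ (τ₁ ≤ t → (τ - t) * X - σ * ht t u < 0) := by
    rw [Filter.eventually_all_finset]
    intro t _
    rw [Filter.eventually_all_finset]
    intro u _
    apply Filter.Eventually.and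
    · by_cases h : t ≤ τ₀
      · have hpos : 0 < τ - t := by linarith
        have : Tendsto (fun X : ℝ => (τ - t) * X) atTop atTop :=
          Tendsto.const_mul_atTop hpos tendsto_id
        filter_upwards [this.eventually_gt_atTop (σ * ht t u)] with X hX _
        linarith
      · exact Filter.Eventually.of_forall fun X h' => absurd h' h
    · by_cases h : τ₁ ≤ t
      · have hpos : 0 < t - τ := by linarith
        have : Tendsto (fun X : ℝ => (t - τ) * X) atTop atTop :=
          Tendsto.const_mul_atTop hpos tendsto_id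
        filter_upwards [this.eventually_gt_atTop (-(σ * ht t u))] with X hX _
        nlinarith
      · exact Filter.Eventually.of_forall fun X h' => absurd h' h
  have ev3 : ∀ᶠ X : ℝ in atTop, ∀ a ∈ A, ∀ b ∈ A, (τ - sl a b) * X ≠ σ * ht (sl a b) a := by
    rw [Filter.eventually_all_finset]
    intro a ha
    rw [Filter.eventually_all_finset]
    intro b hb
    have h' : τ - sl a b ≠ 0 := fun h => hgen' a ha b hb (by linarith)
    filter_upwards [eventually_ne_atTop (σ * ht (sl a b) a / (τ - sl a b))] with X hX h
    apply hX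
    rw [eq_div_iff h', mul_comm]
    exact h
  obtain ⟨X, hX1, ⟨hX0, hXpos⟩, hX2, hX3⟩ := (ev1.and (ev0.and (ev2.and ev3))).exists
  have hab : |σ * X| = X := by
    rw [abs_mul, abs_of_pos hXpos]
    rcases hσ with h | h <;> rw [h] <;> norm_num
  have hw1 : ∀ u ∈ A, u.1 ≠ σ * X := by
    intro u hu h
    have := hX1 u hu
    rw [h, hab] at this
    exact lt_irrefl _ this
  have hht : ∀ t : ℝ, ht t (σ * X, σ * (τ * X)) = σ * ((τ - t) * X) := by
    intro t; unfold ht; ring
  have hwA : ((σ * X, σ * (τ * X)) : Pt) ∉ A := fun h => hw1 _ h rfl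
  refine ⟨(σ * X, σ * (τ * X)), hwA, ?_, ⟨?_, ?_⟩, ?_⟩
  · show X₀ < |σ * X|
    rw [hab]
    exact lt_of_le_of_lt (le_abs_self _) hX0
  · intro p hp q hq h
    rcases Finset.mem_insert.1 hp with rfl | hp
    · rcases Finset.mem_insert.1 hq with rfl | hq
      · rfl
      · exact absurd h.symm (hw1 q hq)
    · rcases Finset.mem_insert.1 hq with rfl | hq
      · exact absurd h (hw1 p hp)
      · exact hA.xinj p hp q hq h
  · -- general position
    have key : ∀ m : ℝ, ∀ a ∈ A, ∀ b ∈ A, a ≠ b → ht m a = ht m b →
        ht m a ≠ ht m (σ * X, σ * (τ * X)) := by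
      intro m a ha b hb hne h h'
      have hx : a.1 ≠ b.1 := fun hh => hne (hA.xinj a ha b hb hh)
      have hm := ht_eq_sl hx h
      rw [hht] at h'
      apply hX3 a ha b hb
      rw [← hm]
      have : σ * ht m a = σ * σ * ((τ - m) * X) := by rw [h']; ring
      rw [hσσ, one_mul] at this
      exact this.symm
    intro m a ha b hb c hc hab' hac hbc h h'
    rcases Finset.mem_insert.1 ha with h1 | ha
    · rcases Finset.mem_insert.1 hb with h2 | hb
      · exact hab' (h1.trans h2.symm)
      · rcases Finset.mem_insert.1 hc with h3 | hc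
        · exact hac (h1.trans h3.symm)
        · rw [h1] at h h'
          exact key m b hb c hc hbc (h.symm.trans h') h.symm
    · rcases Finset.mem_insert.1 hb with h2 | hb
      · rcases Finset.mem_insert.1 hc with h3 | hc
        · exact hbc (h2.trans h3.symm)
        · rw [h2] at h
          exact key m a ha c hc hac h' h
      · rcases Finset.mem_insert.1 hc with h3 | hc
        · rw [h3] at h'
          exact key m a ha b hb hab' h h'
        · exact hA.gen m a ha b hb c hc hab' hac hbc h h'
  · intro t ht' u hu
    rw [hht]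
    have e : σ * (σ * ((τ - t) * X) - ht t u) = (τ - t) * X - σ * ht t u := by
      rw [mul_sub, ← mul_assoc, hσσ, one_mul]
    rw [e]
    exact hX2 t ht' u hu

open Classical in
/-- several far points -/
theorem far_points {A : Finset Pt} (hA : Good A) (S : Finset ℝ) {τ₀ τ₁ : ℝ} (hτ : τ₀ < τ₁)
    {σ : ℝ} (hσ : σ = 1 ∨ σ = -1) (X₀ : ℝ) (d : ℕ) :
    ∃ D : Finset Pt, Disjoint A D ∧ #D = d ∧ (∀ w ∈ D, X₀ < |w.1|) ∧ Good (A ∪ D) ∧
      ∀ w ∈ D, ∀ t ∈ S, ∀ u ∈ A, (t ≤ τ₀ → 0 < σ * (ht t w - ht t u)) ∧
        (τ₁ ≤ t → σ * (ht t w - ht t u) < 0) := by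
  induction d with
  | zero =>
    exact ⟨∅, Finset.disjoint_empty_right _, rfl, by simp, by simpa using hA, by simp⟩
  | succ d ih =>
    obtain ⟨D, h1, h2, h3, h4, h5⟩ := ih
    obtain ⟨w, w1, w2, w3, w4⟩ := far_point h4 S hτ hσ X₀
    rw [Finset.mem_union, not_or] at w1
    refine ⟨insert w D, ?_, ?_, ?_, ?_, ?_⟩
    · rw [Finset.disjoint_insert_right]
      exact ⟨w1.1, h1⟩
    · rw [Finset.card_insert_of_notMem w1.2, h2]
    · intro v hv
      rcases Finset.mem_insert.1 hv with rfl | hv
      · exact w2
      · exact h3 v hv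
    · rw [Finset.union_insert]
      exact w3
    · intro v hv t ht u hu
      rcases Finset.mem_insert.1 hv with rfl | hv
      · exact w4 t ht u (Finset.mem_union_left _ hu)
      · exact h5 v hv t ht u hu

/-- the variation of `r` along a list -/
def vari {α : Type*} (r : α → ℕ) : List α → ℕ
  | [] => 0
  | [_] => 0
  | a :: b :: l => ((r a - r b) + (r b - r a)) + vari r (b :: l)

open Classical in
/-- **the simulation lemma** -/
theorem sim {α : Type*} {T : Finset Pt} (hT : Good T) (τ : α → ℝ) (r : α → ℕ) (X₀ : ℝ)
    (l : List α) (hl : l.Pairwise fun a b => τ a < τ b) :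
    ∃ (W : Finset Pt) (κ : ℕ), Disjoint T W ∧ #W ≤ vari r l ∧ (∀ w ∈ W, X₀ < |w.1|) ∧
      Good (T ∪ W) ∧ ∀ a ∈ l, ∀ u ∈ T, #{w ∈ W | ht (τ a) w < ht (τ a) u} + r a = κ := by
  set S : Finset ℝ := (l.map τ).toFinset with hS
  have hmem : ∀ a ∈ l, τ a ∈ S := fun a ha => by
    rw [hS, List.mem_toFinset]; exact List.mem_map_of_mem ha
  -- the induction
  have main : ∀ l' : List α, l'.Pairwise (fun a b => τ a < τ b) → (∀ a ∈ l', τ a ∈ S) →
      ∀ a₀ ∈ l'.head?, 
      ∃ (W : Finset Pt) (κ : ℕ), Disjoint T W ∧ #W ≤ vari r l' ∧ (∀ w ∈ W, X₀ < |w.1|) ∧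
      Good (T ∪ W) ∧ (∀ a ∈ l', ∀ u ∈ T, #{w ∈ W | ht (τ a) w < ht (τ a) u} + r a = κ) ∧
      (∀ t ∈ S, t ≤ τ a₀ → ∀ u ∈ T, #{w ∈ W | ht t w < ht t u} + r a₀ = κ) := by
    intro l'
    induction l' with
    | nil => intro _ _ a₀ h; simp at h
    | cons a l1 ih =>
      intro hp hs a₀ ha₀
      simp only [List.head?_cons, Option.mem_some_iff] at ha₀
      subst ha₀
      cases l1 with
      | nil =>
        refine ⟨∅, r a, Finset.disjoint_empty_right _, by simp, by simp, by simpa using hT, ?_, ?_⟩
        · intro b hb u _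
          simp only [List.mem_singleton] at hb
          subst hb
          simp
        · intro t _ _ u _
          simp
      | cons b l2 =>
        have hp2 := (List.pairwise_cons.1 hp).2
        have hab : τ a < τ b := (List.pairwise_cons.1 hp).1 b (List.mem_cons_self ..)
        obtain ⟨W, κ, w1, w2, w3, w4, w5, w6⟩ := ih hp2 (fun x hx => hs x (List.mem_cons_of_mem _ hx))
          b (by simp)
        have hge : ∀ x ∈ b :: l2, τ b ≤ τ x := by
          intro x hx
          rcases List.mem_cons.1 hx with rfl | hx
          · exact le_rfl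
          · exact ((List.pairwise_cons.1 hp2).1 x hx).le
        rcases le_or_gt (r a) (r b) with hr | hr
        · -- below at `a`, above at `b`
          obtain ⟨D, d1, d2, d3, d4, d5⟩ := far_points w4 S hab (σ := -1) (Or.inr rfl) X₀ (r b - r a)
          have dW : Disjoint W D := Finset.disjoint_of_subset_left Finset.subset_union_right d1
          have dT : Disjoint T D := Finset.disjoint_of_subset_left Finset.subset_union_left d1
          have hcount : ∀ t u, #{w ∈ W ∪ D | ht t w < ht t u} =
              #{w ∈ W | ht t w < ht t u} + #{w ∈ D | ht t w < ht t u} := by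
            intro t u
            rw [Finset.filter_union, Finset.card_union_of_disjoint
              (Finset.disjoint_filter_filter dW)]
          have hlow : ∀ t ∈ S, t ≤ τ a → ∀ u ∈ T, #{w ∈ D | ht t w < ht t u} = r b - r a := by
            intro t ht' hta u hu
            rw [← d2]
            congr 1
            apply Finset.filter_true_of_mem
            intro w hw
            have := (d5 w hw t ht' u (Finset.mem_union_left _ hu)).1 hta
            linarith
          have hhigh : ∀ t ∈ S, τ b ≤ t → ∀ u ∈ T, #{w ∈ D | ht t w < ht t u} = 0 := by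
            intro t ht' htb u hu
            rw [Finset.card_eq_zero, Finset.filter_eq_empty_iff]
            intro w hw
            have := (d5 w hw t ht' u (Finset.mem_union_left _ hu)).2 htb
            exact not_lt.2 (by linarith)
          have h6 : ∀ t ∈ S, t ≤ τ a → ∀ u ∈ T,
              #{w ∈ W ∪ D | ht t w < ht t u} + r a = κ := by
            intro t ht' hta u hu
            rw [hcount, hlow t ht' hta u hu]
            have := w6 t ht' (hta.trans hab.le) u hu
            omega
          refine ⟨W ∪ D, κ, ?_, ?_, ?_, ?_, ?_, h6⟩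
          · rw [Finset.disjoint_union_right]; exact ⟨w1, dT⟩
          · rw [Finset.card_union_of_disjoint dW, d2]
            unfold vari
            omega
          · intro w hw
            rcases Finset.mem_union.1 hw with hw | hw
            · exact w3 w hw
            · exact d3 w hw
          · rw [← Finset.union_assoc]; exact d4
          · intro x hx u hu
            rcases List.mem_cons.1 hx with rfl | hx
            · exact h6 _ (hs _ (List.mem_cons_self ..)) le_rfl u hu
            · rw [hcount, hhigh _ (hs x (List.mem_cons_of_mem _ hx)) (hge x hx) u hu, Nat.add_zero]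
              exact w5 x hx u hu
        · -- above at `a`, below at `b`
          obtain ⟨D, d1, d2, d3, d4, d5⟩ := far_points w4 S hab (σ := 1) (Or.inl rfl) X₀ (r a - r b)
          have dW : Disjoint W D := Finset.disjoint_of_subset_left Finset.subset_union_right d1
          have dT : Disjoint T D := Finset.disjoint_of_subset_left Finset.subset_union_left d1
          have hcount : ∀ t u, #{w ∈ W ∪ D | ht t w < ht t u} =
              #{w ∈ W | ht t w < ht t u} + #{w ∈ D | ht t w < ht t u} := by
            intro t u
            rw [Finset.filter_union, Finset.card_union_of_disjoint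
              (Finset.disjoint_filter_filter dW)]
          have hlow : ∀ t ∈ S, t ≤ τ a → ∀ u ∈ T, #{w ∈ D | ht t w < ht t u} = 0 := by
            intro t ht' hta u hu
            rw [Finset.card_eq_zero, Finset.filter_eq_empty_iff]
            intro w hw
            have := (d5 w hw t ht' u (Finset.mem_union_left _ hu)).1 hta
            exact not_lt.2 (by linarith)
          have hhigh : ∀ t ∈ S, τ b ≤ t → ∀ u ∈ T, #{w ∈ D | ht t w < ht t u} = r a - r b := by
            intro t ht' htb u hu
            rw [← d2]
            congr 1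
            apply Finset.filter_true_of_mem
            intro w hw
            have := (d5 w hw t ht' u (Finset.mem_union_left _ hu)).2 htb
            linarith
          have h6 : ∀ t ∈ S, t ≤ τ a → ∀ u ∈ T,
              #{w ∈ W ∪ D | ht t w < ht t u} + r a = κ + (r a - r b) := by
            intro t ht' hta u hu
            rw [hcount, hlow t ht' hta u hu]
            have := w6 t ht' (hta.trans hab.le) u hu
            omega
          refine ⟨W ∪ D, κ + (r a - r b), ?_, ?_, ?_, ?_, ?_, h6⟩
          · rw [Finset.disjoint_union_right]; exact ⟨w1, dT⟩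
          · rw [Finset.card_union_of_disjoint dW, d2]
            unfold vari
            omega
          · intro w hw
            rcases Finset.mem_union.1 hw with hw | hw
            · exact w3 w hw
            · exact d3 w hw
          · rw [← Finset.union_assoc]; exact d4
          · intro x hx u hu
            rcases List.mem_cons.1 hx with rfl | hx
            · exact h6 _ (hs _ (List.mem_cons_self ..)) le_rfl u hu
            · rw [hcount, hhigh _ (hs x (List.mem_cons_of_mem _ hx)) (hge x hx) u hu]
              have := w5 x hx u hu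
              omega
  cases l with
  | nil =>
    exact ⟨∅, 0, Finset.disjoint_empty_right _, by simp, by simp, by simpa using hT, by simp⟩
  | cons a l1 =>
    obtain ⟨W, κ, w1, w2, w3, w4, w5, _⟩ := main (a :: l1) hl hmem a (by simp)
    exact ⟨W, κ, w1, w2, w3, w4, w5⟩

end Vale.Agent.P065.H987
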