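import Vale.Agent.P065.UB.WLov

/-!
# P065: momentum and thresholds (helper987)

`L(m)` = the `k + 1` lowest points at time `m`. `step_eq`: between consecutive `k`-edges the number
of points of `J` in `L(m)` does not change. `threshold`: if the number of points of `J` below two
`k`-edges inside `J` is `≤ a` and `> a`, then between them there is a `k`-edge with exactly one end
in `J` and exactly `a + 1` points of `J` strictly below.
-/

set_option autoImplicit false

namespace Vale.Agent.P065.H987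

open Finset Vale.Agent.P065.UB Vale.Agent.P065.UB.RankAux

open Classical in
theorem card_ins {P J : Finset Pt} (hJ : J ⊆ P) {p q r : Pt}
    (hrB : ¬ ht (sl p q) r < ht (sl p q) p) :
    #(insert r ({v ∈ P | ht (sl p q) v < ht (sl p q) p} : Finset Pt) ∩ J) =
      cT J (p, q) + (if r ∈ J then 1 else 0) := by
  split_ifs with hr
  · exact insert_inter_cT hJ hr hrB
  · rw [Finset.insert_inter_of_notMem hr, Nat.add_zero]
    unfold cT
    congr 1
    ext v
    simp only [Finset.mem_inter, Finset.mem_filter]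
    constructor
    · rintro ⟨⟨_, h⟩, h'⟩; exact ⟨h', h⟩
    · rintro ⟨h, h'⟩; exact ⟨⟨hJ h, h'⟩, h⟩

open Classical in
/-- the number of points of `J` among the lowest points just after the edge -/
noncomputable def aft (J : Finset Pt) (e : Pt × Pt) : ℕ := cT J e + (if e.2 ∈ J then 1 else 0)

open Classical in
/-- the number of points of `J` among the lowest points just before the edge -/
noncomputable def bef (J : Finset Pt) (e : Pt × Pt) : ℕ := cT J e + (if e.1 ∈ J then 1 else 0)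

/-- nothing happens between consecutive `k`-edges -/
theorem step_eq {P : Finset Pt} (hP : Good P) {k : ℕ} {J : Finset Pt} (hJ : J ⊆ P)
    {e e' : Pt × Pt} (he : e ∈ Ed P k) (he' : e' ∈ Ed P k) (hlt : sl e.1 e.2 < sl e'.1 e'.2)
    (hno : ∀ g ∈ Ed P k, sl e.1 e.2 < sl g.1 g.2 → sl e'.1 e'.2 ≤ sl g.1 g.2) :
    aft J e = bef J e' := by
  classical
  obtain ⟨p, q⟩ := e
  obtain ⟨p', q'⟩ := e'
  obtain ⟨l1, l2, l3, l4⟩ := low_of_edge hP he
  obtain ⟨l1', l2', l3', l4'⟩ := low_of_edge hP he'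
  have key := cursor hP J l2' l4' _ (sl p q) _ (Nat.lt_succ_self _) hlt l1 l3
  have hM : Mix P k J (sl p q) (sl p' q') = ∅ := by
    rw [Finset.eq_empty_iff_forall_notMem]
    intro g hg
    unfold Mix at hg
    rw [Finset.mem_filter] at hg
    exact absurd hg.2.2.2 (not_lt.2 (hno g hg.1 hg.2.2.1))
  have hx := (mem_Ed.1 he).2.2.1
  rw [hM, Finset.card_empty, card_ins hJ (by rw [(ht_eq_iff hx (sl p q)).2 rfl]; exact lt_irrefl _),
    card_ins hJ (lt_irrefl _)] at key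
  unfold aft bef
  simp only
  omega

/-- **thresholds** -/
theorem threshold {P : Finset Pt} (hP : Good P) {k : ℕ} {J : Finset Pt} (hJ : J ⊆ P)
    {e e' : Pt × Pt} (he : e ∈ Ed P k) (he' : e' ∈ Ed P k) (hlt : sl e.1 e.2 < sl e'.1 e'.2)
    (h2 : e.2 ∈ J) (h1 : e'.1 ∈ J) {a : ℕ}
    (ha : (cT J e ≤ a ∧ a < cT J e') ∨ (cT J e' ≤ a ∧ a < cT J e)) :
    ∃ f ∈ Ed P k, ((f.1 ∈ J ∧ f.2 ∉ J) ∨ (f.1 ∉ J ∧ f.2 ∈ J)) ∧
      sl e.1 e.2 < sl f.1 f.2 ∧ sl f.1 f.2 < sl e'.1 e'.2 ∧ cT J f = a + 1 := by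
  classical
  -- `s = true` : upwards
  have main : ∀ (R : ℕ → Prop), R (aft J e) → ¬ R (bef J e') →
      ∃ f ∈ Ed P k, sl e.1 e.2 < sl f.1 f.2 ∧ sl f.1 f.2 < sl e'.1 e'.2 ∧
        R (bef J f) ∧ ¬ R (aft J f) := by
    intro R hR hR'
    set G : Finset (Pt × Pt) := {g ∈ Ed P k | sl e.1 e.2 ≤ sl g.1 g.2 ∧ sl g.1 g.2 < sl e'.1 e'.2 ∧
      R (aft J g)} with hG
    have heG : e ∈ G := Finset.mem_filter.2 ⟨he, le_rfl, hlt, hR⟩
    obtain ⟨g, hgG, hmax⟩ := G.exists_max_image (fun g => sl g.1 g.2) ⟨e, heG⟩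
    have cg := Finset.mem_filter.1 hgG
    set N : Finset (Pt × Pt) := {f ∈ Ed P k | sl g.1 g.2 < sl f.1 f.2} with hN
    have he'N : e' ∈ N := Finset.mem_filter.2 ⟨he', cg.2.2.1⟩
    obtain ⟨f, hfN, hmin⟩ := N.exists_min_image (fun g => sl g.1 g.2) ⟨e', he'N⟩
    have cf := Finset.mem_filter.1 hfN
    have hs := step_eq hP hJ cg.1 cf.1 cf.2 (fun g' hg' hl => hmin g' (Finset.mem_filter.2 ⟨hg', hl⟩))
    have hRf : R (bef J f) := by rw [← hs]; exact cg.2.2.2
    have hle : sl f.1 f.2 ≤ sl e'.1 e'.2 := hmin e' he'N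
    have hlt' : sl f.1 f.2 < sl e'.1 e'.2 := by
      refine lt_of_le_of_ne hle fun h => ?_
      obtain ⟨h3, h4⟩ := Ed_unique hP cf.1 he' h
      exact hR' (by rw [← (Prod.ext h3 h4 : f = e')]; exact hRf)
    refine ⟨f, cf.1, lt_of_le_of_lt cg.2.1 cf.2, hlt', hRf, fun hRa => ?_⟩
    have : f ∈ G := Finset.mem_filter.2 ⟨cf.1, (lt_of_le_of_lt cg.2.1 cf.2).le, hlt', hRa⟩
    exact absurd (hmax f this) (not_le.2 cf.2)
  have e1 : aft J e = cT J e + 1 := by unfold aft; rw [if_pos h2]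
  have e2 : bef J e' = cT J e' + 1 := by unfold bef; rw [if_pos h1]
  rcases ha with ⟨h3, h4⟩ | ⟨h3, h4⟩
  · obtain ⟨f, hf, f1, f2, f3, f4⟩ := main (fun x => x ≤ a + 1) (by rw [e1]; omega)
      (by rw [e2]; omega)
    refine ⟨f, hf, ?_, f1, f2, ?_⟩ <;>
    · unfold bef aft at *
      by_cases i1 : f.1 ∈ J <;> by_cases i2 : f.2 ∈ J <;> simp only [i1, i2, if_true, if_false] at f3 f4 ⊢ <;>
        first
          | omega
          | tauto
  · obtain ⟨f, hf, f1, f2, f3, f4⟩ := main (fun x => a + 2 ≤ x) (by rw [e1]; omega)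
      (by rw [e2]; omega)
    refine ⟨f, hf, ?_, f1, f2, ?_⟩ <;>
    · unfold bef aft at *
      by_cases i1 : f.1 ∈ J <;> by_cases i2 : f.2 ∈ J <;> simp only [i1, i2, if_true, if_false] at f3 f4 ⊢ <;>
        first
          | omega
          | tauto

end Vale.Agent.P065.H987
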