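import Vale.Agent.P065.H987.NGTree

/-!
# P065, LEMMA NG, part (a): masses, heavy giants and octaves (helper987)

Following helper860's note #7193, steps (0) and (1), for a nonnegative weight on the leaves.
-/

set_option autoImplicit false

namespace Vale.Agent.P065.H987

open Finset

/-- the octave lemma, one side, abstract form -/
theorem oct_abs {Λ : Type*} [DecidableEq Λ] (m : Λ → ℝ) (hm : ∀ w, 0 ≤ m w) (W : Finset Λ) (tt : Λ → ℕ)
    (al s : ℕ → ℝ) (dd p q : Λ → ℝ) {ρ X : ℝ} (hρ : 0 < ρ) (hX : 0 ≤ X)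
    (h1 : ∀ w ∈ W, p w < dd w ∧ dd w < q w)
    (h2 : ∀ w ∈ W, ∀ w' ∈ W, dd w < dd w' → q w ≤ p w')
    (h2' : ∀ w ∈ W, ∀ w' ∈ W, dd w = dd w' → w = w')
    (h3 : ∀ w ∈ W, 0 ≤ al (tt w) ∧ al (tt w) ≤ s (tt w) ∧ al (tt w) ≤ dd w ∧
      dd w ≤ al (tt w) + s (tt w))
    (h4 : ∀ w ∈ W, ∀ w' ∈ W, tt w < tt w' → al (tt w') + s (tt w') ≤ al (tt w))
    (h5 : ∀ w ∈ W, p w ≤ 2 * ρ ∧ ρ / 2 ≤ q w)
    (h6 : ∀ t, ∑ w ∈ W with tt w = t, m w ≤ X) : ∑ w ∈ W, m w ≤ 11 * X := by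
  have hone : ∀ w ∈ W, m w ≤ X := by
    intro w hw
    refine le_trans ?_ (h6 (tt w))
    exact single_le_sum (f := m) (fun i _ => hm i) (mem_filter.2 ⟨hw, rfl⟩)
  have hsub : ∀ B : Finset Λ, B ⊆ W → (∀ w ∈ B, ∀ w' ∈ B, ¬ dd w < dd w') →
      ∑ w ∈ B, m w ≤ X := by
    intro B hB hd
    rcases B.eq_empty_or_nonempty with rfl | ⟨b, hb⟩
    · simpa using hX
    · have : B = {b} := by
        apply eq_singleton_iff_unique_mem.2 ⟨hb, ?_⟩
        intro c hc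
        apply h2' c (hB hc) b (hB hb)
        exact le_antisymm (not_lt.1 (hd b hb c hc)) (not_lt.1 (hd c hc b hb))
      rw [this, sum_singleton]
      exact hone b (hB hb)
  set A := W.filter (fun w => ρ / 2 ≤ dd w ∧ dd w ≤ 2 * ρ) with hA
  set B := W.filter (fun w => 2 * ρ < dd w) with hB
  set C := W.filter (fun w => dd w < ρ / 2) with hC
  have hBX : ∑ w ∈ B, m w ≤ X := by
    apply hsub B (filter_subset _ _)
    intro w hw w' hw' hlt
    rw [hB, mem_filter] at hw hw'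
    have e1 := h2 w hw.1 w' hw'.1 hlt
    have e2 := (h1 w hw.1).2
    have e3 := (h5 w' hw'.1).1
    linarith [hw.2]
  have hCX : ∑ w ∈ C, m w ≤ X := by
    apply hsub C (filter_subset _ _)
    intro w hw w' hw' hlt
    rw [hC, mem_filter] at hw hw'
    have e1 := h2 w hw.1 w' hw'.1 hlt
    have e2 := (h1 w' hw'.1).1
    have e3 := (h5 w hw.1).2
    linarith [hw'.2]
  have hcard : #(A.image tt) ≤ 9 := by
    have hmap : ∀ t ∈ A.image tt, ⌊al t * 4 / ρ⌋ ∈ Icc (0 : ℤ) 8 := by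
      intro t ht
      obtain ⟨w, hw, rfl⟩ := mem_image.1 ht
      rw [hA, mem_filter] at hw
      obtain ⟨e1, e2, e3, e4⟩ := h3 w hw.1
      rw [mem_Icc]
      constructor
      · exact Int.floor_nonneg.2 (by positivity)
      · have : al (tt w) * 4 / ρ ≤ 8 := by
          rw [div_le_iff₀ hρ]
          linarith [hw.2.2]
        have h8 := Int.floor_le_floor this
        have h9 : ⌊(8 : ℝ)⌋ = 8 := by norm_num
        rwa [h9] at h8
    have hkey : ∀ w ∈ A, ∀ w' ∈ A, tt w < tt w' →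
        ⌊al (tt w') * 4 / ρ⌋ < ⌊al (tt w) * 4 / ρ⌋ := by
      intro w hw w' hw' hlt
      rw [hA, mem_filter] at hw hw'
      obtain ⟨e1, e2, e3, e4⟩ := h3 w' hw'.1
      have e5 := h4 w hw.1 w' hw'.1 hlt
      have e6 : al (tt w') * 4 / ρ + 1 ≤ al (tt w) * 4 / ρ := by
        have : al (tt w') * 4 / ρ + 1 = (al (tt w') * 4 + ρ) / ρ := by
          field_simp
        rw [this]
        apply div_le_div_of_nonneg_right _ hρ.le
        linarith [hw'.2.1]
      have e7 := Int.floor_le_floor e6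
      rw [Int.floor_add_one] at e7
      omega
    have hinj : Set.InjOn (fun t => ⌊al t * 4 / ρ⌋) (A.image tt : Set ℕ) := by
      intro t ht t' ht' heq
      rw [mem_coe] at ht ht'
      obtain ⟨w, hw, rfl⟩ := mem_image.1 ht
      obtain ⟨w', hw', rfl⟩ := mem_image.1 ht'
      simp only at heq
      rcases lt_trichotomy (tt w) (tt w') with h | h | h
      · have := hkey w hw w' hw' h
        omega
      · exact h
      · have := hkey w' hw' w hw h
        omega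
    have := card_le_card_of_injOn (t := Icc (0 : ℤ) 8) _ (fun t ht => hmap t ht) hinj
    simpa using this
  have hAX : ∑ w ∈ A, m w ≤ 9 * X := by
    rw [← sum_fiberwise_of_maps_to (g := tt) (t := A.image tt)
      (fun w hw => mem_image_of_mem tt hw)]
    have e1 : ∀ t ∈ A.image tt, ∑ w ∈ A with tt w = t, m w ≤ X := by
      intro t _
      refine le_trans (sum_le_sum_of_subset_of_nonneg ?_ (fun i _ _ => hm i)) (h6 t)
      exact filter_subset_filter _ (filter_subset _ _)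
    have e2 := sum_le_sum e1
    rw [sum_const, nsmul_eq_mul] at e2
    refine e2.trans (mul_le_mul_of_nonneg_right ?_ hX)
    exact_mod_cast hcard
  have hW : W ⊆ A ∪ (B ∪ C) := by
    intro w hw
    rw [mem_union, mem_union, hA, hB, hC, mem_filter, mem_filter, mem_filter]
    rcases le_or_gt (ρ / 2) (dd w) with h | h
    · rcases le_or_gt (dd w) (2 * ρ) with h' | h'
      · exact Or.inl ⟨hw, h, h'⟩
      · exact Or.inr (Or.inl ⟨hw, h'⟩)
    · exact Or.inr (Or.inr ⟨hw, h⟩)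
  have f1 := sum_le_sum_of_subset_of_nonneg (f := m) hW (fun i _ _ => hm i)
  have f2 : ∑ w ∈ A ∪ (B ∪ C), m w ≤ ∑ w ∈ A, m w + (∑ w ∈ B, m w + ∑ w ∈ C, m w) := by
    have g1 := sum_union_inter (s₁ := A) (s₂ := B ∪ C) (f := m)
    have g2 := sum_union_inter (s₁ := B) (s₂ := C) (f := m)
    have g3 : 0 ≤ ∑ w ∈ A ∩ (B ∪ C), m w := sum_nonneg (fun i _ => hm i)
    have g4 : 0 ≤ ∑ w ∈ B ∩ C, m w := sum_nonneg (fun i _ => hm i)
    linarith
  linarith

namespace Leaves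

variable {Λ : Type*} [Fintype Λ] (L : Leaves Λ)

open Classical in
/-- the leaves with centre `z` -/
noncomputable def lsC (z : Λ) : Finset Λ := {w | z ∈ L.cen w}

theorem mem_lsC {z w : Λ} : w ∈ L.lsC z ↔ z ∈ L.cen w := by
  classical
  unfold lsC
  simp

theorem cell_sub {t : ℕ} (ht : t ≤ L.T) {w z : Λ} (h : L.zc t w = z) : L.cell t w ⊆ L.lsC z := by
  intro a ha
  rw [L.mem_lsC, L.mem_cen]
  exact ⟨t, ht, (L.zc_congr ht (L.mem_cell.1 ha)).trans h⟩

/-- the masses of the centres add up -/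
theorem sum_lsC {n : ℕ} (hn : Fintype.card Λ ≤ 2 ^ n) (m : Λ → ℝ) (hm : ∀ w, 0 ≤ m w) :
    ∑ z, ∑ w ∈ L.lsC z, m w ≤ (n + 1) * ∑ w, m w := by
  classical
  have h1 : ∑ z, ∑ w ∈ L.lsC z, m w = ∑ w, ∑ z ∈ L.cen w, m w := by
    apply sum_comm'
    intro z w
    rw [L.mem_lsC]
    simp
  rw [h1, mul_sum]
  apply sum_le_sum
  intro w _
  rw [sum_const, nsmul_eq_mul]
  apply mul_le_mul_of_nonneg_right _ (hm w)
  exact_mod_cast L.card_cen_le hn w

/-- `w` makes an `ε`-giant exit at `t` -/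
def gi (m : Λ → ℝ) (ε : ℝ) (t : ℕ) (w : Λ) : Prop :=
  ∑ a ∈ L.cell (t + 1) w, m a ≤ ε * ∑ a ∈ L.cell t w, m a

/-- `w` makes a giant exit along the heavy path to `z` -/
def HG (m : Λ → ℝ) (ε : ℝ) (z w : Λ) : Prop :=
  ∃ t < L.T, L.zc t w = z ∧ L.D (t + 1) w = L.D (t + 1) z ∧ L.gi m ε t w

/-- `w` makes a giant exit which leaves the heavy path to `z` -/
def LG (m : Λ → ℝ) (ε : ℝ) (z w : Λ) : Prop :=
  ∃ t < L.T, L.zc t w = z ∧ L.D (t + 1) w ≠ L.D (t + 1) z ∧ L.gi m ε t w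

/-- every giant exit is heavy or light -/
theorem gi_cases {m : Λ → ℝ} {ε : ℝ} {t : ℕ} (ht : t < L.T) {w : Λ} (h : L.gi m ε t w) :
    L.HG m ε (L.zc t w) w ∨ L.LG m ε (L.zc t w) w := by
  by_cases h' : L.D (t + 1) w = L.D (t + 1) (L.zc t w)
  · exact Or.inl ⟨t, ht, rfl, h', h⟩
  · exact Or.inr ⟨t, ht, rfl, h', h⟩

theorem HG_mem {m : Λ → ℝ} {ε : ℝ} {z w : Λ} (h : L.HG m ε z w) : w ∈ L.lsC z := by
  obtain ⟨t, ht, h1, _⟩ := h
  exact L.cell_sub ht.le h1 (L.self_mem t w)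

theorem LG_mem {m : Λ → ℝ} {ε : ℝ} {z w : Λ} (h : L.LG m ε z w) : w ∈ L.lsC z := by
  obtain ⟨t, ht, h1, _⟩ := h
  exact L.cell_sub ht.le h1 (L.self_mem t w)

open Classical in
/-- the heavy giants are light -/
theorem heavy_le {m : Λ → ℝ} (hm : ∀ w, 0 ≤ m w) {ε : ℝ} (hε : 0 ≤ ε) (z : Λ) :
    ∑ w with L.HG m ε z w, m w ≤ ε * ∑ w ∈ L.lsC z, m w := by
  classical
  have h0 : 0 ≤ ∑ w ∈ L.lsC z, m w := sum_nonneg (fun i _ => hm i)
  by_cases hex : ∃ t, t < L.T ∧ ∃ w, L.zc t w = z ∧ L.D (t + 1) w = L.D (t + 1) z ∧ L.gi m ε t w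
  · obtain ⟨ht0, w0, hz0, hD0, hg0⟩ := Nat.find_spec hex
    set t0 := Nat.find hex with ht0d
    have hsub : (univ.filter (fun w => L.HG m ε z w)) ⊆ L.cell (t0 + 1) w0 := by
      intro w hw
      rw [mem_filter] at hw
      obtain ⟨t, ht, h1, h2, h3⟩ := hw.2
      have hle : t0 ≤ t := Nat.find_min' hex ⟨ht, w, h1, h2, h3⟩
      rw [L.mem_cell, hD0]
      exact L.D_le (Nat.succ_le_succ hle) h2
    calc ∑ w with L.HG m ε z w, m w ≤ ∑ w ∈ L.cell (t0 + 1) w0, m w :=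
          sum_le_sum_of_subset_of_nonneg hsub (fun i _ _ => hm i)
      _ ≤ ε * ∑ a ∈ L.cell t0 w0, m a := hg0
      _ ≤ _ := mul_le_mul_of_nonneg_left
          (sum_le_sum_of_subset_of_nonneg (L.cell_sub ht0.le hz0) (fun i _ _ => hm i)) hε
  · have : univ.filter (fun w => L.HG m ε z w) = ∅ := by
      rw [filter_eq_empty_iff]
      intro w _ hw
      obtain ⟨t, ht, h1, h2, h3⟩ := hw
      exact hex ⟨t, ht, w, h1, h2, h3⟩
    rw [this, sum_empty]
    positivity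

/-- distance from the centre `z` to the interval of `w` -/
noncomputable def del (z w : Λ) : ℝ := if L.x z < L.x w then L.lo w - L.x z else L.x z - L.hi w

/-- the far end -/
noncomputable def Del (z w : Λ) : ℝ := if L.x z < L.x w then L.hi w - L.x z else L.x z - L.lo w

/-- `ρ` is an octave of `w` seen from `z` -/
def inO (z w : Λ) (ρ : ℝ) : Prop := L.del z w ≤ 2 * ρ ∧ ρ / 2 ≤ L.Del z w

omit [Fintype Λ] in
/-- the separation level -/
theorem sep_unique {z w : Λ} {t t' : ℕ} (h1 : L.D t w = L.D t z) (h2 : L.D (t + 1) w ≠ L.D (t + 1) z)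
    (h1' : L.D t' w = L.D t' z) (h2' : L.D (t' + 1) w ≠ L.D (t' + 1) z) : t = t' := by
  rcases lt_trichotomy t t' with h | h | h
  · exact absurd (L.D_le (Nat.succ_le_of_lt h) h1') h2
  · exact h
  · exact absurd (L.D_le (Nat.succ_le_of_lt h) h1) h2'

omit [Fintype Λ] in
theorem x_inj {w w' : Λ} (h : L.x w = L.x w') : w = w' := L.inj w w' (by rw [h])

omit [Fintype Λ] in
theorem D_pos (t : ℕ) (w : Λ) :
    (L.D t w : ℝ) / 2 ^ t ≤ L.x w ∧ L.x w < ((L.D t w : ℝ) + 1) / 2 ^ t := by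
  have h2 : (0 : ℝ) < 2 ^ t := by positivity
  unfold D
  constructor
  · rw [div_le_iff₀ h2, mul_comm]
    exact Int.floor_le _
  · rw [lt_div_iff₀ h2, mul_comm]
    exact Int.lt_floor_add_one _

omit [Fintype Λ] in
/-- the cell at a finer scale is inside -/
theorem D_nest {t t' : ℕ} (h : t ≤ t') (w : Λ) :
    (L.D t w : ℝ) / 2 ^ t ≤ (L.D t' w : ℝ) / 2 ^ t' ∧
      ((L.D t' w : ℝ) + 1) / 2 ^ t' ≤ ((L.D t w : ℝ) + 1) / 2 ^ t := by
  induction t', h using Nat.le_induction with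
  | base => exact ⟨le_rfl, le_rfl⟩
  | succ n _ ih =>
    have h2 : (0 : ℝ) < 2 ^ n := by positivity
    have h3 := L.D_succ n w
    have h4 : 2 * L.D n w ≤ L.D (n + 1) w := by omega
    have h5 : L.D (n + 1) w ≤ 2 * L.D n w + 1 := by omega
    have h4' : 2 * (L.D n w : ℝ) ≤ L.D (n + 1) w := by exact_mod_cast h4
    have h5' : (L.D (n + 1) w : ℝ) ≤ 2 * L.D n w + 1 := by exact_mod_cast h5
    constructor
    · refine ih.1.trans ?_
      rw [pow_succ, div_le_div_iff₀ h2 (by positivity)]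
      nlinarith
    · refine le_trans ?_ ih.2
      rw [pow_succ, div_le_div_iff₀ (by positivity) h2]
      nlinarith

open Classical in
/-- the level of the giant exit -/
noncomputable def lvl (m : Λ → ℝ) (ε : ℝ) (z w : Λ) : ℕ :=
  if h : L.LG m ε z w then h.choose else 0

theorem lvl_spec {m : Λ → ℝ} {ε : ℝ} {z w : Λ} (h : L.LG m ε z w) :
    L.lvl m ε z w < L.T ∧ L.zc (L.lvl m ε z w) w = z ∧
      L.D (L.lvl m ε z w + 1) w ≠ L.D (L.lvl m ε z w + 1) z ∧ L.gi m ε (L.lvl m ε z w) w := by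
  classical
  unfold lvl
  rw [dif_pos h]
  exact h.choose_spec

theorem lvl_D {m : Λ → ℝ} {ε : ℝ} {z w : Λ} (h : L.LG m ε z w) :
    L.D (L.lvl m ε z w) w = L.D (L.lvl m ε z w) z := by
  obtain ⟨h1, h2, _⟩ := L.lvl_spec h
  have := L.zc_D h1.le w
  rw [h2] at this
  exact this.symm

/-- right side: the child of `w` is the right neighbour -/
theorem lvl_right {m : Λ → ℝ} {ε : ℝ} {z w : Λ} (h : L.LG m ε z w) (hx : L.x z < L.x w) :
    L.D (L.lvl m ε z w + 1) w = L.D (L.lvl m ε z w + 1) z + 1 ∧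
      L.D (L.lvl m ε z w + 1) z = 2 * L.D (L.lvl m ε z w) z := by
  obtain ⟨_, _, h3, _⟩ := L.lvl_spec h
  have h4 := L.lvl_D h
  have h5 := L.D_succ (L.lvl m ε z w) w
  have h6 := L.D_succ (L.lvl m ε z w) z
  have h7 := L.D_mono (L.lvl m ε z w + 1) hx.le
  omega

/-- left side: the child of `w` is the left neighbour -/
theorem lvl_left {m : Λ → ℝ} {ε : ℝ} {z w : Λ} (h : L.LG m ε z w) (hx : L.x w < L.x z) :
    L.D (L.lvl m ε z w + 1) w = L.D (L.lvl m ε z w + 1) z - 1 ∧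
      L.D (L.lvl m ε z w + 1) z = 2 * L.D (L.lvl m ε z w) z + 1 := by
  obtain ⟨_, _, h3, _⟩ := L.lvl_spec h
  have h4 := L.lvl_D h
  have h5 := L.D_succ (L.lvl m ε z w) w
  have h6 := L.D_succ (L.lvl m ε z w) z
  have h7 := L.D_mono (L.lvl m ε z w + 1) hx.le
  omega

theorem tile_mass {m : Λ → ℝ} (hm : ∀ w, 0 ≤ m w) {ε : ℝ} (hε : 0 ≤ ε) {z : Λ} {W : Finset Λ}
    (hW : ∀ w ∈ W, L.LG m ε z w)
    (hc : ∀ w ∈ W, ∀ w' ∈ W, L.lvl m ε z w = L.lvl m ε z w' →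
      L.D (L.lvl m ε z w + 1) w = L.D (L.lvl m ε z w + 1) w') (t : ℕ) :
    ∑ w ∈ W with L.lvl m ε z w = t, m w ≤ ε * ∑ w ∈ L.lsC z, m w := by
  classical
  have h0 : 0 ≤ ∑ w ∈ L.lsC z, m w := sum_nonneg (fun i _ => hm i)
  rcases (W.filter (fun w => L.lvl m ε z w = t)).eq_empty_or_nonempty with he | ⟨w0, hw0⟩
  · rw [he, sum_empty]
    positivity
  · rw [mem_filter] at hw0
    obtain ⟨h1, h2, _, h4⟩ := L.lvl_spec (hW w0 hw0.1)
    have hsub : W.filter (fun w => L.lvl m ε z w = t) ⊆ L.cell (L.lvl m ε z w0 + 1) w0 := by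
      intro w hw
      rw [mem_filter] at hw
      rw [L.mem_cell]
      exact (hc w0 hw0.1 w hw.1 (hw0.2.trans hw.2.symm)).symm
    calc _ ≤ ∑ w ∈ L.cell (L.lvl m ε z w0 + 1) w0, m w :=
          sum_le_sum_of_subset_of_nonneg hsub (fun i _ _ => hm i)
      _ ≤ ε * ∑ a ∈ L.cell (L.lvl m ε z w0) w0, m a := h4
      _ ≤ _ := mul_le_mul_of_nonneg_left
          (sum_le_sum_of_subset_of_nonneg (L.cell_sub h1.le h2) (fun i _ _ => hm i)) hε

open Classical in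
/-- **the octave lemma**, right side -/
theorem oct_right {m : Λ → ℝ} (hm : ∀ w, 0 ≤ m w) {ε : ℝ} (hε : 0 ≤ ε) (z : Λ) {ρ : ℝ}
    (hρ : 0 < ρ) :
    ∑ w with L.LG m ε z w ∧ L.inO z w ρ ∧ L.x z < L.x w, m w ≤
      11 * (ε * ∑ w ∈ L.lsC z, m w) := by
  classical
  have h0 : 0 ≤ ∑ w ∈ L.lsC z, m w := sum_nonneg (fun i _ => hm i)
  apply oct_abs m hm _ (L.lvl m ε z)
    (fun t => ((L.D (t + 1) z : ℝ) + 1) / 2 ^ (t + 1) - L.x z) (fun t => 1 / 2 ^ (t + 1))
    (fun w => L.x w - L.x z) (fun w => L.lo w - L.x z) (fun w => L.hi w - L.x z) hρ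
    (by positivity)
  · intro w _
    constructor
    · linarith [L.lo_lt w]
    · linarith [L.lt_hi w]
  · intro w _ w' _ hlt
    linarith [L.disj w w' (by linarith)]
  · intro w _ w' _ heq
    exact L.x_inj (by linarith)
  · intro w hw
    rw [mem_filter] at hw
    obtain ⟨_, h1, _, h3⟩ := hw
    obtain ⟨e1, e2⟩ := L.lvl_right h1 h3
    set t := L.lvl m ε z w
    have hp : (0 : ℝ) < 2 ^ (t + 1) := by positivity
    obtain ⟨f1, f2⟩ := L.D_pos (t + 1) z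
    obtain ⟨f3, f4⟩ := L.D_pos (t + 1) w
    rw [e1] at f3 f4
    push_cast at f3 f4
    have g1 : ((L.D (t + 1) z : ℝ) + 1) / 2 ^ (t + 1) =
        (L.D (t + 1) z : ℝ) / 2 ^ (t + 1) + 1 / 2 ^ (t + 1) := by rw [add_div]
    have g2 : ((L.D (t + 1) z : ℝ) + 1 + 1) / 2 ^ (t + 1) =
        ((L.D (t + 1) z : ℝ) + 1) / 2 ^ (t + 1) + 1 / 2 ^ (t + 1) := by rw [add_div]
    refine ⟨?_, ?_, ?_, ?_⟩
    · linarith
    · linarith
    · linarith
    · linarith
  · intro w hw w' hw' hlt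
    rw [mem_filter] at hw hw'
    obtain ⟨_, h1, _, h3⟩ := hw
    obtain ⟨_, h1', _, h3'⟩ := hw'
    obtain ⟨e1, e2⟩ := L.lvl_right h1 h3
    obtain ⟨e1', e2'⟩ := L.lvl_right h1' h3'
    have hn := (L.D_nest (Nat.succ_le_of_lt hlt) z).2
    set t := L.lvl m ε z w
    set t' := L.lvl m ε z w'
    have g1 : ((L.D (t' + 1) z : ℝ) + 1) / 2 ^ (t' + 1) + 1 / 2 ^ (t' + 1) =
        ((L.D t' z : ℝ) + 1) / 2 ^ t' := by
      rw [e2', pow_succ]
      push_cast
      field_simp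
      ring
    have key : ∀ a b c d e : ℝ, a + b = c → c ≤ d → a - e + b ≤ d - e := by
      intro a b c d e h1 h2
      linarith
    exact key _ _ _ _ _ g1 hn
  · intro w hw
    rw [mem_filter] at hw
    obtain ⟨_, _, h2, h3⟩ := hw
    unfold inO del Del at h2
    rw [if_pos h3, if_pos h3] at h2
    exact h2
  · intro t
    apply L.tile_mass hm hε
    · intro w hw
      rw [mem_filter] at hw
      exact hw.2.1
    · intro w hw w' hw' heq
      rw [mem_filter] at hw hw'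
      obtain ⟨e1, _⟩ := L.lvl_right hw.2.1 hw.2.2.2
      obtain ⟨e1', _⟩ := L.lvl_right hw'.2.1 hw'.2.2.2
      rw [← heq] at e1'
      rw [e1, e1']

open Classical in
/-- **the octave lemma**, left side -/
theorem oct_left {m : Λ → ℝ} (hm : ∀ w, 0 ≤ m w) {ε : ℝ} (hε : 0 ≤ ε) (z : Λ) {ρ : ℝ}
    (hρ : 0 < ρ) :
    ∑ w with L.LG m ε z w ∧ L.inO z w ρ ∧ L.x w < L.x z, m w ≤
      11 * (ε * ∑ w ∈ L.lsC z, m w) := by
  classical
  have h0 : 0 ≤ ∑ w ∈ L.lsC z, m w := sum_nonneg (fun i _ => hm i)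
  apply oct_abs m hm _ (L.lvl m ε z)
    (fun t => L.x z - (L.D (t + 1) z : ℝ) / 2 ^ (t + 1)) (fun t => 1 / 2 ^ (t + 1))
    (fun w => L.x z - L.x w) (fun w => L.x z - L.hi w) (fun w => L.x z - L.lo w) hρ
    (by positivity)
  · intro w _
    constructor
    · linarith [L.lt_hi w]
    · linarith [L.lo_lt w]
  · intro w _ w' _ hlt
    linarith [L.disj w' w (by linarith)]
  · intro w _ w' _ heq
    exact L.x_inj (by linarith)
  · intro w hw
    rw [mem_filter] at hw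
    obtain ⟨_, h1, _, h3⟩ := hw
    obtain ⟨e1, e2⟩ := L.lvl_left h1 h3
    set t := L.lvl m ε z w
    have hp : (0 : ℝ) < 2 ^ (t + 1) := by positivity
    obtain ⟨f1, f2⟩ := L.D_pos (t + 1) z
    obtain ⟨f3, f4⟩ := L.D_pos (t + 1) w
    rw [e1] at f3 f4
    push_cast at f3 f4
    have g1 : ((L.D (t + 1) z : ℝ) + 1) / 2 ^ (t + 1) =
        (L.D (t + 1) z : ℝ) / 2 ^ (t + 1) + 1 / 2 ^ (t + 1) := by rw [add_div]
    have g2 : ((L.D (t + 1) z : ℝ) - 1 + 1) / 2 ^ (t + 1) =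
        (L.D (t + 1) z : ℝ) / 2 ^ (t + 1) := by rw [sub_add_cancel]
    have g3 : ((L.D (t + 1) z : ℝ) - 1) / 2 ^ (t + 1) =
        (L.D (t + 1) z : ℝ) / 2 ^ (t + 1) - 1 / 2 ^ (t + 1) := by rw [sub_div]
    refine ⟨?_, ?_, ?_, ?_⟩
    · linarith
    · linarith
    · linarith
    · linarith
  · intro w hw w' hw' hlt
    rw [mem_filter] at hw hw'
    obtain ⟨_, h1, _, h3⟩ := hw
    obtain ⟨_, h1', _, h3'⟩ := hw'
    obtain ⟨e1, e2⟩ := L.lvl_left h1 h3
    obtain ⟨e1', e2'⟩ := L.lvl_left h1' h3'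
    have hn := (L.D_nest (Nat.succ_le_of_lt hlt) z).1
    set t := L.lvl m ε z w
    set t' := L.lvl m ε z w'
    have g1 : (L.D (t' + 1) z : ℝ) / 2 ^ (t' + 1) - 1 / 2 ^ (t' + 1) =
        (L.D t' z : ℝ) / 2 ^ t' := by
      rw [e2', pow_succ]
      push_cast
      field_simp
      ring
    have key : ∀ a b c d e : ℝ, a - b = c → d ≤ c → e - a + b ≤ e - d := by
      intro a b c d e h1 h2
      linarith
    exact key _ _ _ _ _ g1 hn
  · intro w hw
    rw [mem_filter] at hw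
    obtain ⟨_, _, h2, h3⟩ := hw
    unfold inO del Del at h2
    rw [if_neg h3.not_gt, if_neg h3.not_gt] at h2
    exact h2
  · intro t
    apply L.tile_mass hm hε
    · intro w hw
      rw [mem_filter] at hw
      exact hw.2.1
    · intro w hw w' hw' heq
      rw [mem_filter] at hw hw'
      obtain ⟨e1, _⟩ := L.lvl_left hw.2.1 hw.2.2.2
      obtain ⟨e1', _⟩ := L.lvl_left hw'.2.1 hw'.2.2.2
      rw [← heq] at e1'
      rw [e1, e1']

open Classical in
/-- **the octave lemma (OCT)** -/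
theorem oct {m : Λ → ℝ} (hm : ∀ w, 0 ≤ m w) {ε : ℝ} (hε : 0 ≤ ε) (z : Λ) {ρ : ℝ}
    (hρ : 0 < ρ) :
    ∑ w with L.LG m ε z w ∧ L.inO z w ρ, m w ≤ 22 * (ε * ∑ w ∈ L.lsC z, m w) := by
  classical
  have h1 := L.oct_right hm hε z hρ
  have h2 := L.oct_left hm hε z hρ
  have hsub : univ.filter (fun w => L.LG m ε z w ∧ L.inO z w ρ) ⊆
      univ.filter (fun w => L.LG m ε z w ∧ L.inO z w ρ ∧ L.x z < L.x w) ∪
      univ.filter (fun w => L.LG m ε z w ∧ L.inO z w ρ ∧ L.x w < L.x z) := by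
    intro w hw
    rw [mem_filter] at hw
    rw [mem_union, mem_filter, mem_filter]
    rcases lt_trichotomy (L.x z) (L.x w) with h | h | h
    · exact Or.inl ⟨hw.1, hw.2.1, hw.2.2, h⟩
    · exfalso
      have := L.x_inj h
      obtain ⟨_, _, h3, _⟩ := L.lvl_spec hw.2.1
      exact h3 (by rw [this])
    · exact Or.inr ⟨hw.1, hw.2.1, hw.2.2, h⟩
  have h3 := sum_le_sum_of_subset_of_nonneg (f := m) hsub (fun i _ _ => hm i)
  have h4 := sum_union_inter
    (s₁ := univ.filter (fun w => L.LG m ε z w ∧ L.inO z w ρ ∧ L.x z < L.x w))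
    (s₂ := univ.filter (fun w => L.LG m ε z w ∧ L.inO z w ρ ∧ L.x w < L.x z)) (f := m)
  have h5 : 0 ≤ ∑ w ∈ univ.filter (fun w => L.LG m ε z w ∧ L.inO z w ρ ∧ L.x z < L.x w) ∩
      univ.filter (fun w => L.LG m ε z w ∧ L.inO z w ρ ∧ L.x w < L.x z), m w :=
    sum_nonneg (fun i _ => hm i)
  linarith

end Leaves

end Vale.Agent.P065.H987
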