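import Mathlib

/-!
# P065, LEMMA NG, part (a): heavy paths of the dyadic time tree and octaves (helper987)

A finite family of leaves `w` with centres `x w` and disjoint intervals `(lo w, hi w)`; `D t w` is
the dyadic cell of scale `t` of the centre. `zc t w` is the end of the heavy path which starts in
the cell `D t w` (heavy = with more leaves). For a nonnegative weight `m` on the leaves, a leaf `w`
makes an `ε`-giant exit at `t` if `m (D (t+1) w) ≤ ε * m (D t w)`.

Following helper860's note #7193, steps (0) and (1).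
-/

set_option autoImplicit false

namespace Vale.Agent.P065.H987

open Finset

/-- leaves with disjoint time intervals -/
structure Leaves (Λ : Type*) where
  x : Λ → ℝ
  lo : Λ → ℝ
  hi : Λ → ℝ
  T : ℕ
  lo_lt : ∀ w, lo w < x w
  lt_hi : ∀ w, x w < hi w
  disj : ∀ w w', x w < x w' → hi w ≤ lo w'
  inj : ∀ w w', ⌊(2 : ℝ) ^ T * x w⌋ = ⌊(2 : ℝ) ^ T * x w'⌋ → w = w'

namespace Leaves

variable {Λ : Type*} [Fintype Λ] (L : Leaves Λ)

/-- the dyadic cell of scale `t` -/
noncomputable def D (t : ℕ) (w : Λ) : ℤ := ⌊(2 : ℝ) ^ t * L.x w⌋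

omit [Fintype Λ] in
theorem D_succ (t : ℕ) (w : Λ) : L.D t w = L.D (t + 1) w / 2 := by
  unfold D
  have h : (2 : ℝ) ^ (t + 1) * L.x w = 2 * ((2 : ℝ) ^ t * L.x w) := by rw [pow_succ]; ring
  rw [h]
  set a := (2 : ℝ) ^ t * L.x w
  have h1 := Int.floor_le (2 * a)
  have h2 := Int.lt_floor_add_one (2 * a)
  rw [Int.floor_eq_iff]
  have h3 : 2 * (⌊2 * a⌋ / 2) ≤ ⌊2 * a⌋ := Int.mul_ediv_self_le (by norm_num)
  have h4 : ⌊2 * a⌋ < 2 * (⌊2 * a⌋ / 2) + 2 := by omega
  have h5 : (2 : ℝ) * ((⌊2 * a⌋ / 2 : ℤ) : ℝ) ≤ ((⌊2 * a⌋ : ℤ) : ℝ) := by exact_mod_cast h3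
  have h6 : ((⌊2 * a⌋ : ℤ) : ℝ) + 1 ≤ 2 * ((⌊2 * a⌋ / 2 : ℤ) : ℝ) + 2 := by exact_mod_cast h4
  constructor <;> linarith

omit [Fintype Λ] in
theorem D_le {t t' : ℕ} (h : t ≤ t') {w w' : Λ} (hw : L.D t' w = L.D t' w') :
    L.D t w = L.D t w' := by
  induction t', h using Nat.le_induction with
  | base => exact hw
  | succ n _ ih => exact ih (by rw [L.D_succ n w, L.D_succ n w', hw])

omit [Fintype Λ] in
theorem D_mono (t : ℕ) {w w' : Λ} (h : L.x w ≤ L.x w') : L.D t w ≤ L.D t w' :=
  Int.floor_le_floor (mul_le_mul_of_nonneg_left h (by positivity))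

open Classical in
/-- the leaves of the cell of `w` -/
noncomputable def cell (t : ℕ) (w : Λ) : Finset Λ := {w' | L.D t w' = L.D t w}

theorem mem_cell {t : ℕ} {w w' : Λ} : w' ∈ L.cell t w ↔ L.D t w' = L.D t w := by
  classical
  unfold cell
  simp

theorem self_mem (t : ℕ) (w : Λ) : w ∈ L.cell t w := L.mem_cell.2 rfl

theorem cell_congr {t : ℕ} {w w' : Λ} (h : L.D t w = L.D t w') : L.cell t w = L.cell t w' := by
  ext a
  rw [L.mem_cell, L.mem_cell, h]

theorem cell_anti {t t' : ℕ} (h : t ≤ t') (w : Λ) : L.cell t' w ⊆ L.cell t w := by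
  intro a ha
  rw [L.mem_cell] at ha ⊢
  exact L.D_le h ha

/-- the heavy representative of a set of leaves at scale `t` -/
noncomputable def hvS (t : ℕ) (S : Finset Λ) (h : S.Nonempty) : Λ :=
  (exists_max_image S (fun w => #(L.cell (t + 1) w)) h).choose

theorem hvS_mem (t : ℕ) (S : Finset Λ) (h : S.Nonempty) : L.hvS t S h ∈ S :=
  (exists_max_image S (fun w => #(L.cell (t + 1) w)) h).choose_spec.1

theorem hvS_max (t : ℕ) (S : Finset Λ) (h : S.Nonempty) {w : Λ} (hw : w ∈ S) :
    #(L.cell (t + 1) w) ≤ #(L.cell (t + 1) (L.hvS t S h)) :=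
  (exists_max_image S (fun w => #(L.cell (t + 1) w)) h).choose_spec.2 w hw

/-- a leaf in the heavy child of the cell -/
noncomputable def hv (t : ℕ) (w : Λ) : Λ := L.hvS t (L.cell t w) ⟨w, L.self_mem t w⟩

theorem hv_D (t : ℕ) (w : Λ) : L.D t (L.hv t w) = L.D t w := L.mem_cell.1 (L.hvS_mem _ _ _)

theorem hv_congr {t : ℕ} {w w' : Λ} (h : L.D t w = L.D t w') : L.hv t w = L.hv t w' := by
  unfold hv
  congr 1
  exact L.cell_congr h

/-- auxiliary: the end of the heavy path, `s` levels above the bottom -/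
noncomputable def zr : ℕ → Λ → Λ
  | 0, w => w
  | (s + 1), w => zr s (L.hv (L.T - (s + 1)) w)

/-- the end of the heavy path which starts in the cell of `w` at scale `t` -/
noncomputable def zc (t : ℕ) (w : Λ) : Λ := L.zr (L.T - t) w

theorem zc_T (w : Λ) : L.zc L.T w = w := by
  unfold zc
  rw [Nat.sub_self]
  rfl

theorem zc_step {t : ℕ} (ht : t < L.T) (w : Λ) : L.zc t w = L.zc (t + 1) (L.hv t w) := by
  unfold zc
  have h1 : L.T - t = (L.T - (t + 1)) + 1 := by omega
  rw [h1]
  show L.zr (L.T - (t + 1)) (L.hv (L.T - (L.T - (t + 1) + 1)) w) = _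
  have h2 : L.T - (L.T - (t + 1) + 1) = t := by omega
  rw [h2]

theorem zc_D {t : ℕ} (ht : t ≤ L.T) (w : Λ) : L.D t (L.zc t w) = L.D t w := by
  induction h : L.T - t generalizing t w with
  | zero =>
    have : t = L.T := by omega
    subst this
    rw [L.zc_T]
  | succ n ih =>
    have ht' : t < L.T := by omega
    rw [L.zc_step ht']
    have h1 := ih (t := t + 1) ht' (L.hv t w) (by omega)
    exact (L.D_le (Nat.le_succ t) h1).trans (L.hv_D t w)

theorem zc_congr {t : ℕ} (ht : t ≤ L.T) {w w' : Λ} (h : L.D t w = L.D t w') :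
    L.zc t w = L.zc t w' := by
  rcases ht.eq_or_lt with rfl | ht'
  · rw [L.zc_T, L.zc_T]
    exact L.inj _ _ h
  · rw [L.zc_step ht', L.zc_step ht', L.hv_congr h]

/-- the heavy path continues -/
theorem zc_heavy {t : ℕ} (ht : t < L.T) {w : Λ} (h : L.D (t + 1) w = L.D (t + 1) (L.zc t w)) :
    L.zc (t + 1) w = L.zc t w := by
  rw [L.zc_step ht] at h ⊢
  rw [L.zc_D (by omega)] at h
  exact L.zc_congr (by omega) h

/-- a light edge halves the number of leaves -/
theorem light {t : ℕ} (ht : t < L.T) {w : Λ} (h : L.D (t + 1) w ≠ L.D (t + 1) (L.zc t w)) :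
    2 * #(L.cell (t + 1) w) ≤ #(L.cell t w) := by
  classical
  rw [L.zc_step ht, L.zc_D (by omega)] at h
  have h1 : #(L.cell (t + 1) w) ≤ #(L.cell (t + 1) (L.hv t w)) :=
    L.hvS_max t (L.cell t w) ⟨w, L.self_mem t w⟩ (L.self_mem t w)
  have h2 : Disjoint (L.cell (t + 1) w) (L.cell (t + 1) (L.hv t w)) := by
    rw [Finset.disjoint_left]
    intro a ha hb
    rw [L.mem_cell] at ha hb
    exact h (ha.symm.trans hb)
  have h3 : L.cell (t + 1) w ∪ L.cell (t + 1) (L.hv t w) ⊆ L.cell t w := by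
    apply union_subset (L.cell_anti (Nat.le_succ t) w)
    intro a ha
    have := L.cell_anti (Nat.le_succ t) _ ha
    rw [L.mem_cell] at this ⊢
    exact this.trans (L.hv_D t w)
  have h4 := card_le_card h3
  rw [card_union_of_disjoint h2] at h4
  omega

open Classical in
/-- the centres of `w` -/
noncomputable def cen (w : Λ) : Finset Λ := (range (L.T + 1)).image (fun t => L.zc t w)

theorem mem_cen {w z : Λ} : z ∈ L.cen w ↔ ∃ t ≤ L.T, L.zc t w = z := by
  classical
  unfold cen
  simp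

theorem card_cell_pos (t : ℕ) (w : Λ) : 0 < #(L.cell t w) := card_pos.2 ⟨w, L.self_mem t w⟩

open Classical in
/-- the centres seen below scale `t` -/
theorem card_cen_aux (w : Λ) (s : ℕ) (hs : s ≤ L.T) :
    2 ^ (#(((Icc (L.T - s) L.T).image (fun t => L.zc t w))) - 1) ≤ #(L.cell (L.T - s) w) := by
  classical
  induction s with
  | zero =>
    rw [Nat.sub_zero, Icc_self, image_singleton, card_singleton]
    exact L.card_cell_pos _ _
  | succ s ih =>
    have ih' := ih (by omega)
    set t := L.T - (s + 1) with ht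
    have h1 : L.T - s = t + 1 := by omega
    rw [h1] at ih'
    have htT : t < L.T := by omega
    have h2 : Icc t L.T = insert t (Icc (t + 1) L.T) := by
      ext a
      simp only [mem_Icc, mem_insert]
      omega
    rw [h2, image_insert]
    have hne : ((Icc (t + 1) L.T).image (fun t => L.zc t w)).Nonempty :=
      ⟨_, mem_image_of_mem _ (mem_Icc.2 ⟨le_rfl, by omega⟩)⟩
    have hpos := card_pos.2 hne
    by_cases h : L.D (t + 1) w = L.D (t + 1) (L.zc t w)
    · have h3 : L.zc t w ∈ (Icc (t + 1) L.T).image (fun t => L.zc t w) :=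
        mem_image.2 ⟨t + 1, mem_Icc.2 ⟨le_rfl, by omega⟩, L.zc_heavy htT h⟩
      rw [insert_eq_of_mem h3]
      exact ih'.trans (card_le_card (L.cell_anti (Nat.le_succ t) w))
    · have h3 := L.light htT h
      have h4 := card_insert_le (L.zc t w) ((Icc (t + 1) L.T).image (fun t => L.zc t w))
      calc 2 ^ (#(insert (L.zc t w) ((Icc (t + 1) L.T).image (fun t => L.zc t w))) - 1)
          ≤ 2 ^ ((#((Icc (t + 1) L.T).image (fun t => L.zc t w)) - 1) + 1) :=
            Nat.pow_le_pow_right (by norm_num) (by omega)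
        _ = 2 * 2 ^ (#((Icc (t + 1) L.T).image (fun t => L.zc t w)) - 1) := by
            rw [pow_succ]; ring
        _ ≤ 2 * #(L.cell (t + 1) w) := Nat.mul_le_mul_left _ ih'
        _ ≤ _ := h3

/-- few centres -/
theorem card_cen_le {n : ℕ} (hn : Fintype.card Λ ≤ 2 ^ n) (w : Λ) : #(L.cen w) ≤ n + 1 := by
  classical
  have h1 := L.card_cen_aux w L.T le_rfl
  rw [Nat.sub_self] at h1
  have h2 : (Icc 0 L.T).image (fun t => L.zc t w) = L.cen w := by
    unfold cen
    congr 1
    ext a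
    simp
  rw [h2] at h1
  have h3 : #(L.cell 0 w) ≤ 2 ^ n := (card_le_univ _).trans hn
  have h4 := (Nat.pow_le_pow_iff_right (by norm_num : 1 < 2)).1 (h1.trans h3)
  omega

end Leaves

end Vale.Agent.P065.H987
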