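import Vale.Agent.P065.H353.Transfer

/-!
# P065: the point budgets of ROWS, summed over the boxes (helper987, for helper819)

`C : H700.Cols`, `R v k` (`v : ℕ`) nested boxes which are functions of the fine box, `MQ v k x` the
mass of the box `R v k = x` under `C.Q μ`, `Y v k` a variable which is determined by
`R (v + gp) k` inside the boxes of a finite set `B v k`.

* `P0`: `MQ v k x ≤ PE μ (E k = some b ∧ R v k = x) / J`;
* `P1`: the divergences of `Y` given one label, summed over the boxes;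
* `P2`: the divergences of `Y` under the law `Q` of the box;
* `P3`: the number of boxes with two heavy halves.
-/

set_option autoImplicit false

open Finset Real

noncomputable section

namespace Vale.Agent.P065.H987

open Vale.Agent.P065.Ent Vale.Agent.P065.H700

/-! ## Divergences of laws on one box -/

section supp

variable {Ω : Type*} [Fintype Ω] {α β γ : Type*}

theorem Pr_supp {p : Ω → ℝ} (hp : ∀ ω, 0 ≤ p ω) {A : Ω → Prop} (hpA : ∀ ω, 0 < p ω → A ω)
    {Y : Ω → α} {Y' : Ω → β} {ω : Ω} (h : ∀ ω', A ω' → (Y ω' = Y ω ↔ Y' ω' = Y' ω)) :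
    Pr p Y (Y ω) = Pr p Y' (Y' ω) := by
  classical
  unfold Pr
  refine sum_congr rfl fun ω' _ => ?_
  rcases (hp ω').eq_or_lt with h0 | h0
  · rw [← h0]
    simp
  · have := h ω' (hpA ω' h0)
    by_cases h1 : Y ω' = Y ω
    · rw [if_pos h1, if_pos (this.1 h1)]
    · rw [if_neg h1, if_neg fun h2 => h1 (this.2 h2)]

/-- the divergence depends on the variable on the support only -/
theorem KL_supp {p q : Ω → ℝ} (hp : ∀ ω, 0 ≤ p ω) (hq : ∀ ω, 0 ≤ q ω) (A : Ω → Prop)
    (hpA : ∀ ω, 0 < p ω → A ω) (hqA : ∀ ω, 0 < q ω → A ω) {Y : Ω → α} {Y' : Ω → β}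
    (h : ∀ ω ω', A ω → A ω' → (Y ω' = Y ω ↔ Y' ω' = Y' ω)) : KL p q Y = KL p q Y' := by
  unfold KL
  refine sum_congr rfl fun ω _ => ?_
  rcases (hp ω).eq_or_lt with h0 | h0
  · rw [← h0, zero_mul, zero_mul]
  · have hA := hpA ω h0
    rw [Pr_supp hp hpA (Y := Y) (Y' := Y') (fun ω' => h ω ω' hA),
      Pr_supp hq hqA (Y := Y) (Y' := Y') (fun ω' => h ω ω' hA)]

/-- data processing inside a box -/
theorem KL_box_le {p q : Ω → ℝ} (hp : IsProb p) (hq : IsProb q) (hac : AC p q) {R : Ω → β} (x : β)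
    (hpR : ∀ ω, 0 < p ω → R ω = x) (hqR : ∀ ω, 0 < q ω → R ω = x) {R' : Ω → γ} (hR : Det R' R)
    {Y : Ω → α} (hY : ∀ ω ω', R ω = x → R ω' = x → R' ω = R' ω' → Y ω = Y ω') :
    KL p q Y ≤ KL p q R' := by
  classical
  set Y' : Ω → Option α := fun ω => if R ω = x then some (Y ω) else none with hY'
  have h1 : KL p q Y = KL p q Y' := by
    refine KL_supp hp.nonneg hq.nonneg (fun ω => R ω = x) hpR hqR ?_
    intro ω ω' h h'
    simp only [hY', if_pos h, if_pos h', Option.some.injEq]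
  rw [h1]
  refine KL_mono hp hq hac ?_
  intro ω ω' he
  have h2 := hR ω ω' he
  by_cases h3 : R ω = x
  · have h4 : R ω' = x := h2 ▸ h3
    simp only [hY', if_pos h3, if_pos h4, Option.some.injEq]
    exact hY ω ω' h3 h4 he
  · have h4 : R ω' ≠ x := fun h => h3 (h2.trans h)
    simp only [hY', if_neg h3, if_neg h4]

/-- conditioning on the event `R = x` -/
theorem cE_eq_cnd (μ : Ω → ℝ) (R : Ω → β) (x : β) :
    cE μ (fun ω => R ω = x) = cnd μ R x := by
  classical
  have h1 : Pr μ (fun ω => R ω = x) True = Pr μ R x := by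
    unfold Pr
    refine sum_congr rfl fun ω _ => ?_
    by_cases h : R ω = x <;> simp [h]
  funext ω
  unfold cE cnd
  rw [h1]
  by_cases h : R ω = x <;> simp [h]

theorem cE_pair_eq_cnd {ε : Type*} (μ : Ω → ℝ) (E : Ω → ε) (e : ε) (R : Ω → β) (x : β) :
    cE μ (fun ω => E ω = e ∧ R ω = x) = cnd μ (fun ω => (E ω, R ω)) (e, x) := by
  classical
  have h1 : Pr μ (fun ω => E ω = e ∧ R ω = x) True = Pr μ (fun ω => (E ω, R ω)) (e, x) := by
    unfold Pr
    refine sum_congr rfl fun ω _ => ?_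
    by_cases h : E ω = e <;> by_cases h' : R ω = x <;> simp [h, h']
  funext ω
  unfold cE cnd
  rw [h1]
  by_cases h : E ω = e <;> by_cases h' : R ω = x <;> simp [h, h']

theorem cnd_supp {μ : Ω → ℝ} {R : Ω → β} {x : β} {ω : Ω} (h : 0 < cnd μ R x ω) : R ω = x :=
  cnd_pos h

/-- the divergence given one label, inside a box -/
theorem KL_label_le {ε : Type*} {μ : Ω → ℝ} (hμ : IsProb μ) (E : Ω → ε) (e : ε) {R : Ω → β} {x : β}
    (hpos : 0 < Pr μ (fun ω => (E ω, R ω)) (e, x)) {R' : Ω → γ} (hR : Det R' R)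
    {Y : Ω → α} (hY : ∀ ω ω', R ω = x → R ω' = x → R' ω = R' ω' → Y ω = Y ω') :
    KL (cE μ (fun ω => E ω = e ∧ R ω = x)) (cE μ (fun ω => R ω = x)) Y ≤ DE μ E e R' R x := by
  rw [cE_pair_eq_cnd, cE_eq_cnd]
  have h1 : 0 < Pr μ R x := hpos.trans_le (Pr_pair_le hμ E e R x)
  have hac : AC (cnd μ (fun ω => (E ω, R ω)) (e, x)) (cnd μ R x) := by
    intro ω hω
    have h2 := cnd_pos hω
    have h3 : R ω = x := (Prod.mk.inj h2).2
    unfold cnd at hω ⊢
    rw [if_pos h2] at hω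
    rw [if_pos h3]
    have h4 : 0 < μ ω := by
      rcases (hμ.nonneg ω).eq_or_lt with h5 | h5
      · rw [← h5, zero_div] at hω
        exact absurd hω (lt_irrefl _)
      · exact h5
    exact div_pos h4 h1
  refine KL_box_le (cnd_isProb hμ hpos) (cnd_isProb hμ h1) hac x ?_ (fun ω hω => cnd_pos hω) hR hY
  intro ω hω
  have h2 := cnd_pos hω
  exact (Prod.mk.inj h2).2

end supp

/-! ## Residue classes -/

theorem sum_residue {g : ℕ → ℝ} (hg : ∀ v, 0 ≤ g v) {gp : ℕ} (hgp : 1 ≤ gp) (n : ℕ) :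
    ∑ v ∈ range n, g v ≤ ∑ s ∈ range gp, ∑ j ∈ range n, g (s + j * gp) := by
  classical
  rw [← sum_product']
  have h1 : ∑ v ∈ range n, g v =
      ∑ y ∈ (range n).image (fun v => (v % gp, v / gp)), g (y.1 + y.2 * gp) := by
    rw [sum_image]
    · refine sum_congr rfl fun v _ => ?_
      have h2 : v % gp + v / gp * gp = v := Nat.mod_add_div' v gp
      rw [h2]
    · intro v _ v' _ h
      simp only [Prod.mk.injEq] at h
      have h2 : v % gp + v / gp * gp = v := Nat.mod_add_div' v gp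
      have h3 : v' % gp + v' / gp * gp = v' := Nat.mod_add_div' v' gp
      rw [← h2, ← h3, h.1, h.2]
  rw [h1]
  refine sum_le_sum_of_subset_of_nonneg ?_ fun y _ _ => hg _
  intro y hy
  obtain ⟨v, hv, rfl⟩ := mem_image.1 hy
  rw [mem_range] at hv
  rw [mem_product, mem_range, mem_range]
  exact ⟨Nat.mod_lt _ hgp, (Nat.div_le_self v gp).trans_lt hv⟩

/-! ## The columns -/

variable {Ω : Type*} [Fintype Ω] {κ : Type*} [Fintype κ] {α υ : Type*} {C : Cols Ω κ α} {μ : Ω → ℝ}

/-- the mass of a box of one column under `Q` -/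
def MQ (C : Cols Ω κ α) (μ : Ω → ℝ) {τ : Type*} (R : κ → Ω → τ) (k : κ) (x : τ) : ℝ :=
  Pr (fun ω => C.Q μ (k, ω)) (R k) x

/-- the law `Q` of the box -/
def qr (C : Cols Ω κ α) (μ : Ω → ℝ) {τ : Type*} (R : κ → Ω → τ) (k : κ) (x : τ) : Ω → ℝ :=
  cnd (fun ω => C.Q μ (k, ω)) (R k) x

theorem MQ_nonneg (hμ : IsProb μ) {τ : Type*} (R : κ → Ω → τ) (k : κ) (x : τ) :
    0 ≤ MQ C μ R k x := by
  classical
  unfold MQ Pr
  refine sum_nonneg fun ω _ => ?_
  split_ifs
  · exact Cols.Q_nonneg hμ _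
  · exact le_rfl

theorem exists_of_MQ_pos (_hμ : IsProb μ) {τ : Type*} {R : κ → Ω → τ} {k : κ} {x : τ}
    (h : 0 < MQ C μ R k x) : ∃ ω, R k ω = x ∧ 0 < C.Q μ (k, ω) := by
  classical
  by_contra hcon
  push Not at hcon
  have : MQ C μ R k x ≤ 0 := by
    unfold MQ Pr
    refine sum_nonpos fun ω _ => ?_
    split_ifs with h1
    · exact hcon ω h1
    · exact le_rfl
  linarith

/-- **(P0)**: a box has at most `1 / J` times the mass of each label -/
theorem P0 (hμ : IsProb μ) {τ : Type*} {R : κ → Ω → τ} {r : κ → α → τ}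
    (heq : ∀ k ω, R k ω = r k (C.ρ k ω)) (b : Bool) (k : κ) (x : τ) :
    MQ C μ R k x ≤ 1 / C.J μ * PE μ (fun ω => C.E k ω = some b ∧ R k ω = x) := by
  classical
  have h1 := Cols.col_sum (C := C) hμ k (fun a => if r k a = x then 1 else 0)
  have h2 : MQ C μ R k x =
      (∑ ω, μ ω * C.dens μ k ω * (if r k (C.ρ k ω) = x then 1 else 0)) / C.J μ := by
    unfold MQ Pr
    rw [sum_div]
    refine sum_congr rfl fun ω _ => ?_
    unfold Cols.Q
    rw [heq]
    split_ifs <;> simp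
  have h3 : PE μ (fun ω => C.E k ω = some b ∧ R k ω = x) =
      ∑ ω, (if C.E k ω = some b then μ ω * (if r k (C.ρ k ω) = x then 1 else 0) else 0) := by
    rw [PE_eq]
    refine sum_congr rfl fun ω _ => ?_
    rw [heq]
    by_cases e1 : C.E k ω = some b <;> by_cases e2 : r k (C.ρ k ω) = x <;> simp [e1, e2]
  rw [h2, h1, h3, tower hμ (C.E k) (C.ρ k) (some b) (fun a => if r k a = x then 1 else 0),
    div_eq_mul_one_div, mul_comm]
  refine mul_le_mul_of_nonneg_left (sum_le_sum fun ω _ => ?_)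
    (one_div_nonneg.2 (Cols.J_nonneg hμ))
  refine mul_le_mul_of_nonneg_left ?_ (hμ.nonneg ω)
  refine mul_le_mul_of_nonneg_right (Cols.wt_le hμ k b _) ?_
  split_ifs <;> norm_num

theorem label_pos (hμ : IsProb μ) (hJ : 0 < C.J μ) {τ : Type*} {R : κ → Ω → τ} {r : κ → α → τ}
    (heq : ∀ k ω, R k ω = r k (C.ρ k ω)) (b : Bool) {k : κ} {x : τ} (h : 0 < MQ C μ R k x) :
    0 < Pr μ (fun ω => (C.E k ω, R k ω)) (some b, x) := by
  classical
  have h1 := P0 hμ heq b k x
  have h2 : 0 < PE μ (fun ω => C.E k ω = some b ∧ R k ω = x) := by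
    by_contra hcon
    push Not at hcon
    have h3 : 0 ≤ 1 / C.J μ := by positivity
    nlinarith
  have h3 : PE μ (fun ω => C.E k ω = some b ∧ R k ω = x) =
      Pr μ (fun ω => (C.E k ω, R k ω)) (some b, x) := by
    unfold PE Pr
    refine sum_congr rfl fun ω _ => ?_
    by_cases h : C.E k ω = some b <;> by_cases h' : R k ω = x <;> simp [h, h']
  rwa [h3] at h2

/-- expectation of a function of the box -/
theorem sum_box_le (hμ : IsProb μ) {τ : Type*} (R : κ → Ω → τ) (g : κ → τ → ℝ)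
    (hg : ∀ k x, 0 ≤ g k x) (B : κ → Finset τ) (hB : ∀ k, ∀ x ∈ B k, 0 < MQ C μ R k x) :
    ∑ k, ∑ x ∈ B k, MQ C μ R k x * g k x ≤ ∑ t : κ × Ω, C.Q μ t * g t.1 (R t.1 t.2) := by
  classical
  rw [Fintype.sum_prod_type]
  refine sum_le_sum fun k _ => ?_
  have h1 := sum_fiber (fun ω => C.Q μ (k, ω)) (R k) (g k)
  rw [h1]
  refine sum_le_sum_of_subset_of_nonneg ?_ ?_
  · intro x hx
    obtain ⟨ω, hω, _⟩ := exists_of_MQ_pos hμ (hB k x hx)
    exact mem_image.2 ⟨ω, mem_univ _, hω⟩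
  · intro x _ _
    exact mul_nonneg (MQ_nonneg hμ R k x) (hg k x)

/-- the data of the boxes -/
structure Bxs (C : Cols Ω κ α) (τ₀ τ : Type) where
  /-- the coarse box -/
  R0 : κ → Ω → τ₀
  r0 : κ → α → τ₀
  eq0 : ∀ k ω, R0 k ω = r0 k (C.ρ k ω)
  /-- relevant coarse boxes -/
  rel : κ → τ₀ → Prop
  /-- the box of level `v` -/
  R : ℕ → κ → Ω → τ
  r : ℕ → κ → α → τ
  eq : ∀ v k ω, R v k ω = r v k (C.ρ k ω)
  det : ∀ v k, Det (R (v + 1) k) (R v k)
  det0 : ∀ v k, Det (R v k) (R0 k)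

namespace Bxs

variable {τ₀ τ : Type} (G : Bxs C τ₀ τ)

omit [Fintype Ω] [Fintype κ] in
theorem det_le {v v' : ℕ} (h : v ≤ v') (k : κ) : Det (G.R v' k) (G.R v k) := by
  induction v', h using Nat.le_induction with
  | base => exact Det.refl _
  | succ n _ ih => exact (G.det n k).trans ih

/-- relevance contains the support -/
def Good (μ : Ω → ℝ) : Prop := ∀ k ω, 0 < C.wt μ k (C.ρ k ω) → G.rel k (G.R0 k ω)

open Classical in
/-- the coarse content of the label `b` -/
def A (μ : Ω → ℝ) (b : Bool) : ℝ :=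
  ∑ k, ∑ ω, (if C.E k ω = some b ∧ G.rel k (G.R0 k ω) then
    μ ω * (- log (cp μ (C.E k) (some b) (G.R0 k) ω)) else 0)

/-- the types of the filtration -/
def tyF (τ₀ τ : Type) : ℕ → Type
  | 0 => τ₀
  | (_ + 1) => τ

/-- the boxes of the filtration of the residue class of `s` -/
def RF (s gp : ℕ) : ∀ j, κ → Ω → tyF τ₀ τ j
  | 0 => G.R0
  | (j + 1) => G.R (s + j * gp)

def rF (s gp : ℕ) : ∀ j, κ → α → tyF τ₀ τ j
  | 0 => G.r0
  | (j + 1) => G.r (s + j * gp)

/-- the filtration of the residue class of `s` -/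
def F (s gp : ℕ) : C.Filt where
  ty := tyF τ₀ τ
  R := G.RF s gp
  r := G.rF s gp
  eq := by
    intro j
    cases j with
    | zero => exact G.eq0
    | succ j => exact G.eq (s + j * gp)
  det := by
    intro j k
    cases j with
    | zero => exact G.det0 _ k
    | succ j => exact G.det_le (by nlinarith) k
  rel := G.rel

omit [Fintype κ] in
theorem F_good (hG : G.Good μ) (s gp : ℕ) : (G.F s gp).Good μ := fun k ω h => hG k ω h

theorem F_A (μ : Ω → ℝ) (b : Bool) (s gp : ℕ) : (G.F s gp).A μ b = G.A μ b := rfl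

/-- **(P1)**: the divergences given one label, summed over levels, columns and boxes -/
theorem P1 (hμ : IsProb μ) (hJ : 0 < C.J μ) (hG : G.Good μ) (b : Bool) {gp : ℕ} (hgp : 1 ≤ gp)
    (n : ℕ) (Y : ℕ → κ → τ → Ω → υ) (B : ℕ → κ → Finset τ)
    (hB : ∀ v < n, ∀ k, ∀ x ∈ B v k, 0 < MQ C μ (G.R v) k x ∧
      ∀ ω ω', G.R v k ω = x → G.R v k ω' = x → G.R (v + gp) k ω = G.R (v + gp) k ω' →
        Y v k x ω = Y v k x ω') :
    ∑ v ∈ range n, ∑ k, ∑ x ∈ B v k, MQ C μ (G.R v) k x *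
      KL (cE μ (fun ω => C.E k ω = some b ∧ G.R v k ω = x)) (cE μ (fun ω => G.R v k ω = x))
        (Y v k x) ≤ gp * (G.A μ b / C.J μ) := by
  classical
  set g : ℕ → ℝ := fun v => ∑ t : κ × Ω, C.Q μ t *
    DE μ (C.E t.1) (some b) (G.R (v + gp) t.1) (G.R v t.1) (G.R v t.1 t.2) with hg
  have hg0 : ∀ v, 0 ≤ g v := fun v => sum_nonneg fun t _ =>
    mul_nonneg (Cols.Q_nonneg hμ t) (DE_nonneg hμ _ _ _ _ _)
  have h1 : ∀ v ∈ range n, ∑ k, ∑ x ∈ B v k, MQ C μ (G.R v) k x *
      KL (cE μ (fun ω => C.E k ω = some b ∧ G.R v k ω = x)) (cE μ (fun ω => G.R v k ω = x))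
        (Y v k x) ≤ g v := by
    intro v hv
    rw [mem_range] at hv
    refine le_trans ?_ (sum_box_le hμ (G.R v)
      (fun k x => DE μ (C.E k) (some b) (G.R (v + gp) k) (G.R v k) x)
      (fun k x => DE_nonneg hμ _ _ _ _ _) (B v) (fun k x hx => (hB v hv k x hx).1))
    refine sum_le_sum fun k _ => sum_le_sum fun x hx => ?_
    obtain ⟨h2, h3⟩ := hB v hv k x hx
    exact mul_le_mul_of_nonneg_left
      (KL_label_le hμ (C.E k) (some b) (label_pos hμ hJ (G.eq v) b h2)
        (G.det_le (Nat.le_add_right v gp) k) h3) h2.le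
  refine (sum_le_sum h1).trans ((sum_residue hg0 hgp n).trans ?_)
  have h2 : ∀ s ∈ range gp, ∑ j ∈ range n, g (s + j * gp) ≤ G.A μ b / C.J μ := by
    intro s _
    have h3 := Cols.budget hμ (G.F s gp) (G.F_good hG s gp) b (n + 1)
    rw [F_A, sum_range_succ'] at h3
    have h4 : 0 ≤ ∑ t : κ × Ω, C.Q μ t *
        DE μ (C.E t.1) (some b) ((G.F s gp).R (0 + 1) t.1) ((G.F s gp).R 0 t.1)
          ((G.F s gp).R 0 t.1 t.2) := sum_nonneg fun t _ =>
      mul_nonneg (Cols.Q_nonneg hμ t) (DE_nonneg hμ _ _ _ _ _)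
    refine le_trans (le_of_eq ?_) (le_trans (le_add_of_nonneg_right h4) h3)
    refine sum_congr rfl fun j _ => ?_
    simp only [hg]
    have e : s + j * gp + gp = s + (j + 1) * gp := by ring
    rw [e]
    rfl
  refine (sum_le_sum h2).trans (le_of_eq ?_)
  rw [sum_const, card_range, nsmul_eq_mul]

end Bxs

/-! ## The law of one column -/

theorem col_cnd {τ : Type*} (q : κ × Ω → ℝ) (X : κ → Ω → τ) (k : κ) (x : τ) :
    (fun ω => cnd q (fun t : κ × Ω => (t.1, X t.1 t.2)) (k, x) (k, ω)) =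
      cnd (fun ω => q (k, ω)) (X k) x := by
  classical
  funext ω
  unfold cnd
  rw [Pr_col q X k x]
  by_cases h : X k ω = x
  · rw [if_pos (by simp [h]), if_pos h]
  · rw [if_neg (by simp [h]), if_neg h]

theorem cnd_lft [Nonempty κ] {τ : Type*} (μ : Ω → ℝ) (X : κ → Ω → τ) (k : κ) (x : τ) :
    cnd (fun ω => lft κ μ (k, ω)) (X k) x = cnd μ (X k) x := by
  classical
  have hc : (Fintype.card κ : ℝ) ≠ 0 := Nat.cast_ne_zero.mpr Fintype.card_ne_zero
  have h1 : Pr (fun ω => lft κ μ (k, ω)) (X k) x = Pr μ (X k) x / Fintype.card κ := by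
    rw [← Pr_col (lft κ μ) X k x, Pr_lft]
  funext ω
  unfold cnd
  rw [h1]
  unfold lft
  split_ifs
  · rw [div_div_div_cancel_right₀ hc]
  · rfl

/-- the divergence inside one box of one column -/
theorem KL_col {τ τ' : Type*} (q q' : κ × Ω → ℝ) (X : κ → Ω → τ) (X' : κ → Ω → τ') (k : κ) (x : τ) :
    KL (cnd q (fun t : κ × Ω => (t.1, X t.1 t.2)) (k, x))
      (cnd q' (fun t : κ × Ω => (t.1, X t.1 t.2)) (k, x)) (fun t => (t.1, X' t.1 t.2)) =
    KL (cnd (fun ω => q (k, ω)) (X k) x) (cnd (fun ω => q' (k, ω)) (X k) x) (X' k) := by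
  classical
  unfold KL
  rw [Fintype.sum_prod_type, sum_eq_single k]
  · refine sum_congr rfl fun ω _ => ?_
    have h1 := congrFun (col_cnd q X k x) ω
    rw [Pr_col _ X' k, Pr_col _ X' k, col_cnd, col_cnd]
    rw [h1]
  · intro k' _ hk'
    refine sum_eq_zero fun ω _ => ?_
    have : cnd q (fun t : κ × Ω => (t.1, X t.1 t.2)) (k, x) (k', ω) = 0 := by
      unfold cnd
      rw [if_neg]
      intro h
      exact hk' (Prod.mk.inj h).1
    rw [this, zero_mul]
  · intro h
    exact absurd (mem_univ k) h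

namespace Bxs

variable {τ₀ τ : Type} (G : Bxs C τ₀ τ)

theorem AC_lft (hμ : IsProb μ) : AC (C.Q μ) (lft κ μ) := by
  intro t ht
  have h1 := Cols.Q_le (C := C) hμ t
  have h2 : 0 < μ t.2 := by
    rcases (hμ.nonneg t.2).eq_or_lt with h0 | h0
    · rw [← h0, zero_div] at h1; linarith
    · exact h0
  have : Nonempty κ := ⟨t.1⟩
  exact div_pos h2 (Nat.cast_pos.mpr Fintype.card_pos)

/-- **(P2)**: the divergences of the law `Q` of the box, summed over levels, columns and boxes -/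
theorem P2 (hμ : IsProb μ) (hJ : 0 < C.J μ) (hG : G.Good μ) {gp : ℕ} (hgp : 1 ≤ gp)
    (n : ℕ) (Y : ℕ → κ → τ → Ω → υ) (B : ℕ → κ → Finset τ)
    (hB : ∀ v < n, ∀ k, ∀ x ∈ B v k, 0 < MQ C μ (G.R v) k x ∧
      ∀ ω ω', G.R v k ω = x → G.R v k ω' = x → G.R (v + gp) k ω = G.R (v + gp) k ω' →
        Y v k x ω = Y v k x ω') :
    ∑ v ∈ range n, ∑ k, ∑ x ∈ B v k, MQ C μ (G.R v) k x *
      KL (qr C μ (G.R v) k x) (cE μ (fun ω => G.R v k ω = x)) (Y v k x) ≤
      gp * (3 * (G.A μ false + G.A μ true) / C.J μ) := by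
  classical
  have hne : Nonempty κ := by
    by_contra hcon
    rw [not_nonempty_iff] at hcon
    have : C.J μ = 0 := by
      unfold Cols.J
      exact Fintype.sum_empty _
    exact hJ.ne' this
  have hQ := Cols.isProb_Q (C := C) hμ hJ
  have hL := isProb_lft (κ := κ) hμ
  have hac : AC (C.Q μ) (lft κ μ) := AC_lft hμ
  set g : ℕ → ℝ := fun v => KLc (C.Q μ) (lft κ μ) (fun t => (t.1, G.R (v + gp) t.1 t.2))
    (fun t => (t.1, G.R v t.1 t.2)) with hg
  have hg0 : ∀ v, 0 ≤ g v := fun v => KLc_nonneg hQ hL hac _ _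
  have hAC : ∀ {β : Type _} (Z : κ × Ω → β) (z : β), 0 < Pr (C.Q μ) Z z →
      IsProb (cnd (C.Q μ) Z z) ∧ IsProb (cnd (lft κ μ) Z z) ∧
        AC (cnd (C.Q μ) Z z) (cnd (lft κ μ) Z z) := by
    intro β Z z hz
    have hz' : 0 < Pr (lft κ μ) Z z := by
      by_contra hcon
      push Not at hcon
      have h0 : Pr (C.Q μ) Z z ≤ 0 := by
        unfold Pr
        refine sum_nonpos fun t _ => ?_
        split_ifs with ht
        · by_contra h1
          push Not at h1
          have h2 := hac t h1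
          have h3 := le_Pr hL Z t
          rw [ht] at h3
          linarith
        · exact le_rfl
      linarith
    refine ⟨cnd_isProb hQ hz, cnd_isProb hL hz', ?_⟩
    intro t ht
    have h2 := cnd_pos ht
    unfold cnd at ht ⊢
    rw [if_pos h2] at ht ⊢
    have h4 : 0 < C.Q μ t := by
      rcases (hQ.nonneg t).eq_or_lt with h5 | h5
      · rw [← h5, zero_div] at ht
        exact absurd ht (lt_irrefl _)
      · exact h5
    exact div_pos (hac t h4) hz'
  have h1 : ∀ v ∈ range n, ∑ k, ∑ x ∈ B v k, MQ C μ (G.R v) k x *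
      KL (qr C μ (G.R v) k x) (cE μ (fun ω => G.R v k ω = x)) (Y v k x) ≤ g v := by
    intro v hv
    rw [mem_range] at hv
    set Z : κ × Ω → κ × τ := fun t => (t.1, G.R v t.1 t.2) with hZ
    have h2 : g v = ∑ z ∈ univ.image Z, Pr (C.Q μ) Z z *
        KL (cnd (C.Q μ) Z z) (cnd (lft κ μ) Z z) (fun t => (t.1, G.R (v + gp) t.1 t.2)) :=
      H353.KLc_fiber hQ hL hac _ Z
    rw [h2]
    have h3 : ∑ k, ∑ x ∈ B v k, MQ C μ (G.R v) k x *
        KL (qr C μ (G.R v) k x) (cE μ (fun ω => G.R v k ω = x)) (Y v k x) ≤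
        ∑ z ∈ (univ : Finset κ).sigma (fun k => B v k), Pr (C.Q μ) Z (z.1, z.2) *
          KL (cnd (C.Q μ) Z (z.1, z.2)) (cnd (lft κ μ) Z (z.1, z.2))
            (fun t => (t.1, G.R (v + gp) t.1 t.2)) := by
      rw [sum_sigma]
      refine sum_le_sum fun k _ => sum_le_sum fun x hx => ?_
      obtain ⟨h4, h5⟩ := hB v hv k x hx
      have h6 : Pr (C.Q μ) Z (k, x) = MQ C μ (G.R v) k x := Pr_col (C.Q μ) (G.R v) k x
      rw [h6]
      refine mul_le_mul_of_nonneg_left ?_ h4.le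
      obtain ⟨p1, p2, p3⟩ := hAC Z (k, x) (by rw [h6]; exact h4)
      have h7 : KL (cnd (C.Q μ) Z (k, x)) (cnd (lft κ μ) Z (k, x))
          (fun t => (t.1, G.R (v + gp) t.1 t.2)) =
          KL (qr C μ (G.R v) k x) (cnd μ (G.R v k) x) (G.R (v + gp) k) := by
        rw [hZ, KL_col, cnd_lft]
        rfl
      rw [h7, cE_eq_cnd]
      -- the laws of the column are probability vectors
      have hq1 : IsProb (qr C μ (G.R v) k x) := by
        refine ⟨fun ω => ?_, ?_⟩
        · unfold qr cnd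
          split_ifs
          · exact div_nonneg (Cols.Q_nonneg hμ _) h4.le
          · exact le_rfl
        · unfold qr cnd
          have e1 : ∀ ω, (if G.R v k ω = x then
              C.Q μ (k, ω) / Pr (fun ω => C.Q μ (k, ω)) (G.R v k) x else 0) =
              (if G.R v k ω = x then C.Q μ (k, ω) else 0) / MQ C μ (G.R v) k x := by
            intro ω
            unfold MQ
            split_ifs <;> simp
          rw [sum_congr rfl fun ω _ => e1 ω, ← sum_div]
          exact div_self h4.ne'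
      have hlp := label_pos hμ hJ (G.eq v) false h4
      have hpp : 0 < Pr μ (G.R v k) x := hlp.trans_le (Pr_pair_le hμ _ _ _ _)
      have hq2 : IsProb (cnd μ (G.R v k) x) := cnd_isProb hμ hpp
      refine KL_box_le hq1 hq2 ?_ x (fun ω hω => cnd_pos hω) (fun ω hω => cnd_pos hω)
        (G.det_le (Nat.le_add_right v gp) k) h5
      intro ω hω
      have h8 : G.R v k ω = x := cnd_pos hω
      unfold qr cnd at hω
      unfold cnd
      rw [if_pos h8] at hω ⊢
      have hω' : 0 < C.Q μ (k, ω) / Pr (fun ω => C.Q μ (k, ω)) (G.R v k) x := hω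
      have h9 : 0 < C.Q μ (k, ω) := by
        rcases (Cols.Q_nonneg (C := C) hμ (k, ω)).eq_or_lt with h5 | h5
        · rw [← h5, zero_div] at hω'
          exact absurd hω' (lt_irrefl _)
        · exact h5
      have h10 := hac (k, ω) h9
      have h11 : 0 < μ ω := by
        unfold lft at h10
        by_contra hcon
        push Not at hcon
        have : μ ω / Fintype.card κ ≤ 0 :=
          div_nonpos_of_nonpos_of_nonneg hcon (Nat.cast_nonneg _)
        simp only at h10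
        linarith
      exact div_pos h11 hpp
    refine h3.trans ?_
    have h12 : ∑ z ∈ (univ : Finset κ).sigma (fun k => B v k), Pr (C.Q μ) Z (z.1, z.2) *
          KL (cnd (C.Q μ) Z (z.1, z.2)) (cnd (lft κ μ) Z (z.1, z.2))
            (fun t => (t.1, G.R (v + gp) t.1 t.2)) =
        ∑ y ∈ ((univ : Finset κ).sigma (fun k => B v k)).image
          (fun z : (_ : κ) × τ => (z.1, z.2)), Pr (C.Q μ) Z y *
          KL (cnd (C.Q μ) Z y) (cnd (lft κ μ) Z y)
            (fun t => (t.1, G.R (v + gp) t.1 t.2)) := by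
      rw [sum_image]
      rintro ⟨a, a'⟩ _ ⟨b, b'⟩ _ hab
      simp only [Prod.mk.injEq] at hab
      obtain ⟨rfl, rfl⟩ := hab
      rfl
    rw [h12]
    refine sum_le_sum_of_subset_of_nonneg ?_ ?_
    · intro y hy
      obtain ⟨⟨k, x⟩, hz, rfl⟩ := mem_image.1 hy
      rw [mem_sigma] at hz
      obtain ⟨ω, hω, _⟩ := exists_of_MQ_pos hμ (hB v hv k x hz.2).1
      exact mem_image.2 ⟨(k, ω), mem_univ _, by simp only [hZ]; rw [hω]⟩
    · intro y _ _
      rcases (Pr_nonneg hQ Z y).eq_or_lt with h0 | h0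
      · rw [← h0, zero_mul]
      · obtain ⟨p1, p2, p3⟩ := hAC Z y h0
        exact mul_nonneg h0.le (KL_nonneg p1 p2 p3 _)
  refine (sum_le_sum h1).trans ((sum_residue hg0 hgp n).trans ?_)
  have h2 : ∀ s ∈ range gp, ∑ j ∈ range n, g (s + j * gp) ≤
      3 * (G.A μ false + G.A μ true) / C.J μ := by
    intro s _
    have h3 := Cols.budget_F hμ hJ (G.F s gp) (G.F_good hG s gp) (n + 1)
    rw [F_A, F_A, sum_range_succ'] at h3
    have h4 : 0 ≤ KLc (C.Q μ) (lft κ μ) (fun t => (t.1, (G.F s gp).R (0 + 1) t.1 t.2))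
        (fun t => (t.1, (G.F s gp).R 0 t.1 t.2)) := KLc_nonneg hQ hL hac _ _
    refine le_trans (le_of_eq ?_) (le_trans (le_add_of_nonneg_right h4) h3)
    refine sum_congr rfl fun j _ => ?_
    simp only [hg]
    have e : s + j * gp + gp = s + (j + 1) * gp := by ring
    rw [e]
    rfl
  refine (sum_le_sum h2).trans (le_of_eq ?_)
  rw [sum_const, card_range, nsmul_eq_mul]

end Bxs

/-! ## Boxes with two heavy halves -/

/-- **(P3)** for any law: if every child of a box of `Gd` has share at most `1 - ps`, the boxes of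
`Gd` are paid by the entropy of the child -/
theorem P3_one {Ω' : Type*} [Fintype Ω'] {β γ : Type*} {q : Ω' → ℝ} (hq : IsProb q) (X : Ω' → β)
    (R : Ω' → γ) (Gd : Finset γ) {ps : ℝ}
    (hGd : ∀ x ∈ Gd, ∀ y, Pr q (fun t => (X t, R t)) (y, x) ≤ (1 - ps) * Pr q R x) :
    ps * ∑ x ∈ Gd, Pr q R x ≤ Hc q X R := by
  classical
  rw [Hc_eq_sum hq]
  have h1 : ps * ∑ x ∈ Gd, Pr q R x = ∑ t, (if R t ∈ Gd then q t * ps else 0) := by
    have h2 := sum_fiber q R (fun x => if x ∈ Gd then ps else 0)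
    have h3 : ∑ t, (if R t ∈ Gd then q t * ps else 0) =
        ∑ t, q t * (if R t ∈ Gd then ps else 0) := by
      refine sum_congr rfl fun t _ => ?_
      split_ifs <;> simp
    rw [h3, h2, mul_sum]
    have h4 : ∑ x ∈ Gd, ps * Pr q R x = ∑ x ∈ Gd ∪ univ.image R,
        Pr q R x * (if x ∈ Gd then ps else 0) := by
      rw [← sum_subset (subset_union_left (s₁ := Gd) (s₂ := univ.image R))]
      · refine sum_congr rfl fun x hx => ?_
        rw [if_pos hx, mul_comm]
      · intro x _ hx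
        rw [if_neg hx, mul_zero]
    rw [h4]
    symm
    apply sum_subset subset_union_right
    intro x _ hx
    have : Pr q R x = 0 := by
      unfold Pr
      refine sum_eq_zero fun t _ => ?_
      rw [if_neg fun h => hx (mem_image.2 ⟨t, mem_univ _, h⟩)]
    rw [this, zero_mul]
  rw [h1]
  refine sum_le_sum fun t _ => ?_
  rcases (hq.nonneg t).eq_or_lt with h0 | h0
  · rw [← h0]
    simp
  have hp1 := Pr_pos hq (fun t => (X t, R t)) h0
  have hp2 := Pr_pos hq R h0
  have hle : Pr q (fun t => (X t, R t)) (X t, R t) / Pr q R (R t) ≤ 1 :=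
    div_le_one_of_le₀ (Pr_mono hq (det_snd X R) t) hp2.le
  split_ifs with h2
  · refine mul_le_mul_of_nonneg_left ?_ h0.le
    have h3 := hGd (R t) h2 (X t)
    have h4 : Pr q (fun t => (X t, R t)) (X t, R t) / Pr q R (R t) ≤ 1 - ps := by
      rw [div_le_iff₀ hp2]
      exact h3
    have h5 := log_le_sub_one_of_pos (div_pos hp1 hp2)
    linarith
  · refine mul_nonneg h0.le ?_
    have := log_nonpos (div_pos hp1 hp2).le hle
    linarith

/-- **(P3)** for the columns, summed over the levels -/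
theorem P3 (hμ : IsProb μ) (hJ : 0 < C.J μ) {τ : Type*} {β : Type*} (R : ℕ → κ → Ω → τ)
    (X : ℕ → κ → Ω → β) (n : ℕ) (Gd : ℕ → κ → Finset τ) {ps : ℝ}
    (hGd : ∀ v < n, ∀ k, ∀ x ∈ Gd v k, ∀ y,
      Pr (fun ω => C.Q μ (k, ω)) (fun ω => (X v k ω, R v k ω)) (y, x) ≤
        (1 - ps) * MQ C μ (R v) k x) :
    ps * ∑ v ∈ range n, ∑ k, ∑ x ∈ Gd v k, MQ C μ (R v) k x ≤
      ∑ v ∈ range n, Hc (C.Q μ) (fun t : κ × Ω => X v t.1 t.2)
        (fun t : κ × Ω => (t.1, R v t.1 t.2)) := by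
  classical
  rw [mul_sum]
  refine sum_le_sum fun v hv => ?_
  rw [mem_range] at hv
  have hQ := Cols.isProb_Q (C := C) hμ hJ
  set S : Finset (κ × τ) := ((univ : Finset κ).sigma (fun k => Gd v k)).image
    (fun z : (_ : κ) × τ => (z.1, z.2)) with hS
  have h1 := P3_one hQ (fun t : κ × Ω => X v t.1 t.2) (fun t : κ × Ω => (t.1, R v t.1 t.2)) S
    (ps := ps) ?_
  · refine le_trans (le_of_eq ?_) h1
    rw [hS, sum_image, sum_sigma]
    · congr 1
      refine sum_congr rfl fun k _ => sum_congr rfl fun x _ => ?_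
      exact (Pr_col (C.Q μ) (R v) k x).symm
    · rintro ⟨a, a'⟩ _ ⟨b, b'⟩ _ hab
      simp only [Prod.mk.injEq] at hab
      obtain ⟨rfl, rfl⟩ := hab
      rfl
  · intro y hy z
    obtain ⟨⟨k, x⟩, hz, rfl⟩ := mem_image.1 hy
    rw [mem_sigma] at hz
    have h2 := hGd v hv k x hz.2 z
    rw [Pr_col (C.Q μ) (R v) k x]
    refine le_trans (le_of_eq ?_) h2
    unfold Pr
    rw [Fintype.sum_prod_type, sum_eq_single k]
    · refine sum_congr rfl fun ω _ => ?_
      by_cases e1 : X v k ω = z <;> by_cases e2 : R v k ω = x <;> simp [e1, e2]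
    · intro k' _ hk'
      refine sum_eq_zero fun ω _ => ?_
      rw [if_neg]
      intro h
      exact hk' (Prod.mk.inj (Prod.mk.inj h).2).1
    · intro h
      exact absurd (mem_univ k) h

end Vale.Agent.P065.H987
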