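import Vale.Agent.P065.H987.ACont
import Vale.Agent.P065.H987.PBud

/-!
# P065: the point budgets on FRAME (helper987)

`bxs` : the boxes `R v` on the columns of FRAME, over the slope cell, with the relevant cells of
`ACont`; the coarse content is at most `XA p E`.
-/

set_option autoImplicit false

open Finset Real

noncomputable section

namespace Vale.Agent.P065.H987

open Vale.Agent.P065.UB Vale.Agent.P065.Ent Vale.Agent.P065.H154 Vale.Agent.P065.H700

variable {Ω : Type*} [Fintype Ω] {Lab : Type*} {F : Fr Ω} {ln : Ω → Pt} {p : Prm}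
  {lam : Ω → Lab} {f : p.Col → (ℕ × Lab) × ℤ × ℤ → ℝ} {f0 : ∀ k r, 0 ≤ f k r}
  {f1 : ∀ k r, f k r ≤ 1} {μ : Ω → ℝ}

omit [Fintype Ω] in
/-- a variable which is constant on the fine boxes is a function of the fine box -/
theorem exists_box_fun {τ : Type*} (N : p.Col → Ω → τ)
    (hN : ∀ c ω ω', rho F ln p lam c ω = rho F ln p lam c ω' → N c ω = N c ω') :
    ∃ n : p.Col → (ℕ × Lab) × ℤ × ℤ → Option τ, ∀ c ω,
      some (N c ω) = n c (rho F ln p lam c ω) := by
  classical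
  refine ⟨fun c a => if h : ∃ ω, rho F ln p lam c ω = a then some (N c h.choose) else none,
    fun c ω => ?_⟩
  have hex : ∃ ω', rho F ln p lam c ω' = rho F ln p lam c ω := ⟨ω, rfl⟩
  beta_reduce
  rw [dif_pos hex]
  exact congrArg some (hN _ _ _ hex.choose_spec).symm

/-- **the boxes over the slope cell** -/
def bxs (f0 : ∀ k r, 0 ≤ f k r) (f1 : ∀ k r, f k r ≤ 1) (μ : Ω → ℝ) (E : ℝ) {τ : Type}
    (N : ℕ → p.Col → Ω → τ) (n : ℕ → p.Col → (ℕ × Lab) × ℤ × ℤ → τ)
    (heq : ∀ t c ω, N t c ω = n t c (rho F ln p lam c ω)) (hdet : ∀ t c, Det (N (t + 1) c) (N t c))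
    (hdet0 : ∀ c, Det (N 0 c) (fun ω => Prm.S c.1 (ln ω))) :
    Bxs (cols F ln p lam f f0 f1) ℤ τ where
  R0 := fun c ω => Prm.S c.1 (ln ω)
  r0 := fun _ a => a.2.1
  eq0 := fun _ _ => rfl
  rel := rel0 μ ln p E
  R := N
  r := n
  eq := heq
  det := hdet
  det0 := by
    intro v c
    induction v with
    | zero => exact hdet0 c
    | succ v ih => exact (hdet v c).trans ih

variable {E : ℝ} {τ : Type} {N : ℕ → p.Col → Ω → τ} {n : ℕ → p.Col → (ℕ × Lab) × ℤ × ℤ → τ}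
  {heq : ∀ t c ω, N t c ω = n t c (rho F ln p lam c ω)}
  {hdet : ∀ t c, Det (N (t + 1) c) (N t c)}
  {hdet0 : ∀ c, Det (N 0 c) (fun ω => Prm.S c.1 (ln ω))}

theorem bxs_good
    (hsup : ∀ c ω, 0 < (cols F ln p lam f f0 f1).wt μ c (rho F ln p lam c ω) → ∀ b,
      exp (-E) ≤ Pr μ (fun ω => (lb ln p c ω, Prm.S c.1 (ln ω))) (some b, Prm.S c.1 (ln ω))) :
    (bxs f0 f1 μ E N n heq hdet hdet0).Good μ := fun c ω h => hsup c ω h

/-- the coarse content -/
theorem bxs_A_le (hμ : IsProb μ) (hE : 0 ≤ E) (b : Bool) :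
    (bxs f0 f1 μ E N n heq hdet hdet0).A μ b ≤ XA p E :=
  A_le hμ hE ((bxs f0 f1 μ E N n heq hdet hdet0).F 0 1) (fun _ => Det.refl _)
    (fun _ => Det.refl _) (fun _ _ h => h) b

end Vale.Agent.P065.H987
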