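import Vale.Agent.P065.H987.RowInfo

/-!
# P065, ROWS: the number of good boxes (helper987)

`count_good`: a good box of the level `v` splits; the sum over the levels of the masses of the good
boxes is at most the entropy of the fine boxes, divided by the share.
-/

set_option autoImplicit false

open Finset Real

noncomputable section

namespace Vale.Agent.P065.H987

open Vale.Agent.P065.UB Vale.Agent.P065.Ent Vale.Agent.P065.H154 Vale.Agent.P065.H700
  Vale.Agent.P065.H819

variable {Ω : Type*} [Fintype Ω] {F : Fr Ω} {ln : Ω → Pt} {p : Prm} {Lab : Type*}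
  {lam : Ω → Lab} {u : ℝ} {PB a n : ℕ}

/-- the boxes with the column -/
def NC (F : Fr Ω) (ln : Ω → Pt) (p : Prm) (u : ℝ) (PB a v : ℕ) (t : p.Col × Ω) :
    p.Col × ℤ × ℕ × ℤ × ℤ := (t.1, NF F ln p u PB a v t.1 t.2)

omit [Fintype Ω] in
lemma NC_det (u : ℝ) (PB a v : ℕ) :
    Det (NC F ln p u PB a (v + 1)) (NC F ln p u PB a v) := by
  rintro ⟨c, ω⟩ ⟨c', ω'⟩ h
  unfold NC at h ⊢
  simp only [Prod.mk.injEq] at h ⊢
  obtain ⟨rfl, h2⟩ := h
  exact ⟨rfl, NF_det u PB a v c ω ω' h2⟩

omit [Fintype Ω] in
lemma NC_rb (lam : Ω → Lab) (u : ℝ) (PB a v : ℕ) :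
    Det (rb F ln p lam) (NC F ln p u PB a v) := by
  rintro ⟨c, ω⟩ ⟨c', ω'⟩ h
  unfold rb at h
  unfold NC
  simp only [Prod.mk.injEq] at h ⊢
  obtain ⟨rfl, h2⟩ := h
  exact ⟨rfl, NF_rho lam u PB a v c h2⟩

omit [Fintype Ω] in
lemma NC_col (u : ℝ) (PB a v : ℕ) : Det (NC F ln p u PB a v) (fun t => t.1) := by
  rintro ⟨c, ω⟩ ⟨c', ω'⟩ h
  unfold NC at h
  exact (Prod.mk.inj h).1

omit [Fintype Ω] in
lemma NC_D (u : ℝ) (PB a v : ℕ) : Det (NC F ln p u PB a v) (fun t => F.D u v t.2) := by
  rintro ⟨c, ω⟩ ⟨c', ω'⟩ h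
  unfold NC NF at h
  simp only [Prod.mk.injEq] at h
  exact h.2.1

/-- the mass of a box -/
lemma MF_eq_Pr {Q : p.Col × Ω → ℝ} (v : ℕ) (c : p.Col) (r : ℤ × ℤ × ℤ) :
    MF F ln p Q u PB a v c r = Pr Q (NC F ln p u PB a v) (c, xv PB v r) := by
  classical
  have h1 : Pr Q (NC F ln p u PB a v) (c, xv PB v r) =
      Pr (fun ω => Q (c, ω)) (NF F ln p u PB a v c) (xv PB v r) :=
    Pr_col Q (fun c ω => NF F ln p u PB a v c ω) c (xv PB v r)
  have h2 : BF F ln p u PB a v c r = fun ω => NF F ln p u PB a v c ω = xv PB v r := by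
    funext ω
    exact propext BF_iff_NF
  rw [h1]
  unfold MF
  rw [h2, H60.PE_eq_Pr]
  rfl

open Classical in
/-- **the number of good boxes** -/
theorem count_good {Q : p.Col × Ω → ℝ} (hQ : IsProb Q) (lam : Ω → Lab) {ps : ℝ}
    (B : ℕ → p.Col → Finset (ℤ × ℤ × ℤ))
    (hB : ∀ v < n, ∀ c, ∀ r ∈ B v c, ∀ b : Bool, ps * MF F ln p Q u PB a v c r ≤
      PE (QC Q c) (fun ω => BF F ln p u PB a v c r ω ∧ inh (Tv (xs F u) v) r.2.1 b ω)) :
    ps * ∑ v ∈ range n, ∑ c, ∑ r ∈ B v c, MF F ln p Q u PB a v c r ≤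
      Hc Q (rb F ln p lam) (fun t => t.1) := by
  -- one level
  have h1 : ∀ v ∈ range n, ps * ∑ c, ∑ r ∈ B v c, MF F ln p Q u PB a v c r ≤
      H Q (NC F ln p u PB a (v + 1)) - H Q (NC F ln p u PB a v) := by
    intro v hv
    rw [mem_range] at hv
    set Gd : Finset (p.Col × ℤ × ℕ × ℤ × ℤ) :=
      (univ : Finset p.Col).biUnion fun c => (B v c).image fun r => (c, xv PB v r) with hGd
    have e1 : ∑ c, ∑ r ∈ B v c, MF F ln p Q u PB a v c r =
        ∑ x ∈ Gd, Pr Q (NC F ln p u PB a v) x := by
      rw [hGd, sum_biUnion]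
      · refine sum_congr rfl fun c _ => ?_
        rw [sum_image (fun r _ r' _ h => xv_inj (Prod.mk.inj h).2)]
        exact sum_congr rfl fun r _ => MF_eq_Pr v c r
      · intro c _ c' _ hne
        rw [Function.onFun, disjoint_left]
        intro x hx hx'
        obtain ⟨r, -, rfl⟩ := mem_image.1 hx
        obtain ⟨r', -, h⟩ := mem_image.1 hx'
        exact hne (Prod.mk.inj h).1.symm
    rw [e1]
    have e2 := P3_one hQ (fun t : p.Col × Ω => F.D u (v + 1) t.2) (NC F ln p u PB a v) Gd
      (ps := ps) (by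
        intro x hx y
        rw [hGd] at hx
        obtain ⟨c, -, hx⟩ := mem_biUnion.1 hx
        obtain ⟨r, hr, rfl⟩ := mem_image.1 hx
        set b : Bool := decide (y = 2 * r.2.1) with hb
        have hb' : y ≠ 2 * r.2.1 + (if b then 1 else 0) := by
          rw [hb]
          by_cases h : y = 2 * r.2.1
          · rw [decide_eq_true h]
            simp only [if_true]
            omega
          · rw [decide_eq_false h]
            simpa using h
        have h2 := hB v hv c r hr b
        rw [MF_eq_Pr] at h2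
        have h3 : PE (QC Q c) (fun ω => BF F ln p u PB a v c r ω ∧
            inh (Tv (xs F u) v) r.2.1 b ω) =
            Pr Q (fun t => (F.D u (v + 1) t.2, NC F ln p u PB a v t))
              (2 * r.2.1 + (if b then 1 else 0), (c, xv PB v r)) := by
          have g1 : Pr Q (fun t => (F.D u (v + 1) t.2, NC F ln p u PB a v t))
              (2 * r.2.1 + (if b then 1 else 0), (c, xv PB v r)) =
              Pr Q (fun t : p.Col × Ω => (t.1, (F.D u (v + 1) t.2, NF F ln p u PB a v t.1 t.2)))
                (c, (2 * r.2.1 + (if b then 1 else 0), xv PB v r)) := by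
            unfold Pr
            refine sum_congr rfl fun t _ => ?_
            unfold NC
            by_cases k1 : t.1 = c <;> by_cases k2 : F.D u (v + 1) t.2 =
              2 * r.2.1 + (if b then 1 else 0) <;> simp [k1, k2]
          rw [g1]
          have g2 := Pr_col Q (fun c ω => (F.D u (v + 1) ω, NF F ln p u PB a v c ω)) c
            (2 * r.2.1 + (if b then 1 else 0), xv PB v r)
          rw [g2, ← H60.PE_eq_Pr]
          have g3 : (fun ω => BF F ln p u PB a v c r ω ∧ inh (Tv (xs F u) v) r.2.1 b ω) =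
              fun ω => (F.D u (v + 1) ω, NF F ln p u PB a v c ω) =
                (2 * r.2.1 + (if b then 1 else 0), xv PB v r) := by
            funext ω
            apply propext
            rw [BF_iff_NF]
            have g4 : inh (Tv (xs F u) v) r.2.1 b ω ↔
                F.D u (v + 1) ω = 2 * r.2.1 + (if b then 1 else 0) := by
              unfold inh
              have : 2 * Tv (xs F u) v ω = 2 ^ (v + 1) * (F.P.x ω + u) := by
                unfold Tv xs
                rw [pow_succ]
                ring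
              rw [this]
              rfl
            rw [g4]
            exact ⟨fun h => Prod.ext h.2 h.1, fun h => ⟨(Prod.mk.inj h).2, (Prod.mk.inj h).1⟩⟩
          rw [g3]
          rfl
        rw [h3] at h2
        have h4 : Pr Q (fun t => (F.D u (v + 1) t.2, NC F ln p u PB a v t)) (y, (c, xv PB v r)) +
            Pr Q (fun t => (F.D u (v + 1) t.2, NC F ln p u PB a v t))
              (2 * r.2.1 + (if b then 1 else 0), (c, xv PB v r)) ≤
            Pr Q (NC F ln p u PB a v) (c, xv PB v r) := by
          unfold Pr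
          rw [← sum_add_distrib]
          refine sum_le_sum fun t _ => ?_
          have h5 := hQ.nonneg t
          by_cases k1 : NC F ln p u PB a v t = (c, xv PB v r)
          · by_cases k2 : F.D u (v + 1) t.2 = y
            · have k3 : F.D u (v + 1) t.2 ≠ 2 * r.2.1 + (if b then 1 else 0) := by
                rw [k2]; exact hb'
              rw [if_pos (Prod.ext k2 k1), if_neg (fun h => k3 (Prod.mk.inj h).1), add_zero, if_pos k1]
            · rw [if_neg (fun h => k2 (Prod.mk.inj h).1), zero_add, if_pos k1]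
              by_cases k4 : (F.D u (v + 1) t.2, NC F ln p u PB a v t) =
                (2 * r.2.1 + (if b then 1 else 0), (c, xv PB v r))
              · rw [if_pos k4]
              · rw [if_neg k4]
                exact h5
          · rw [if_neg k1, if_neg (fun h => k1 (Prod.mk.inj h).2),
              if_neg (fun h => k1 (Prod.mk.inj h).2), add_zero]
        linarith)
    refine e2.trans ?_
    have f1 := Hc_pair Q (NC F ln p u PB a (v + 1)) (fun t => F.D u (v + 1) t.2)
      (NC F ln p u PB a v)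
    have f2 : Hc Q (fun t => (NC F ln p u PB a (v + 1) t, F.D u (v + 1) t.2))
        (NC F ln p u PB a v) = H Q (NC F ln p u PB a (v + 1)) - H Q (NC F ln p u PB a v) :=
      Hc_eq ((Det.refl _).pair (NC_D u PB a (v + 1))) (NC_det u PB a v)
        ((det_fst _ _).trans (det_fst _ _))
    have f3 := Hc_nonneg hQ (NC F ln p u PB a (v + 1))
      (fun t => (F.D u (v + 1) t.2, NC F ln p u PB a v t))
    linarith
  rw [mul_sum]
  refine (sum_le_sum h1).trans ?_
  rw [sum_range_sub (fun v => H Q (NC F ln p u PB a v)) n]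
  have h2 : H Q (NC F ln p u PB a n) ≤ H Q (rb F ln p lam) := H_mono hQ (NC_rb lam u PB a n)
  have h3 : H Q (fun t : p.Col × Ω => t.1) ≤ H Q (NC F ln p u PB a 0) := H_mono hQ (NC_col u PB a 0)
  have h4 : Hc Q (rb F ln p lam) (fun t => t.1) =
      H Q (rb F ln p lam) - H Q (fun t : p.Col × Ω => t.1) :=
    Hc_eq (Det.refl _) (by
      rintro ⟨c, ω⟩ ⟨c', ω'⟩ h
      exact (Prod.mk.inj h).1) (det_fst _ _)
  linarith

end Vale.Agent.P065.H987
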