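import Vale.Agent.P065.H987.RowCnt
import Vale.Agent.P065.H279.NearSys
import Vale.Agent.P065.H806.Case2

/-!
# P065, ROWS: the errors of the good boxes on `Sys` (helper987)

`rows_err`: the sum of the errors of 819's box inequality over levels, columns, good boxes and sizes
of the digit cells is at most `δ g`.
-/

set_option autoImplicit false

open Finset Real

noncomputable section

namespace Vale.Agent.P065.H987

open Vale.Agent.P065.UB Vale.Agent.P065.Ent Vale.Agent.P065.H154 Vale.Agent.P065.H700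
  Vale.Agent.P065.H819 Vale.Agent.P065.H806

section sys

variable {B₀ K₁ PP Γ σ Λ kN : ℕ} {c₂ ρ ε₂ e : ℝ} {n g : ℕ}
  (S : Sys B₀ K₁ PP Γ σ Λ kN c₂ ρ ε₂ e n g)

/-- the entropy of the centre -/
lemma H_x_le (hB : 1 ≤ B₀) : H S.μ S.F.P.x ≤ 2 * log B₀ * g := by
  classical
  have h1 : H S.μ S.F.P.x ≤ H S.μ (S.F.P.W S.F.n) :=
    H_mono S.hμ fun ω ω' h => S.F.xW _ _ h
  have h2 := H_le_log S.hμ (S.F.P.W S.F.n) (univ.image (S.F.P.W S.F.n))
    (fun a => mem_image_of_mem _ (mem_univ _)) (card_pos.2 (univ_nonempty.image _))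
  have h3 := H279.log_leaves_le S hB
  linarith

/-- the growth constant of the informations -/
def DRI (B₀ PP Λ gp m dX : ℕ) : ℝ :=
  (16 * gp * 2 ^ PP * PP * Λ + 16 * 4 ^ PP * m * dX * log B₀) * Λ

/-- **the budget sum on `Sys`** -/
theorem row_info_S (hB : 1 ≤ B₀) (hg : 1 ≤ g) (u : ℝ) {PB PC PY a gp dX dX' lm N m : ℕ}
    (hgp : 1 ≤ gp) (hdX : dX ≤ gp) (hdX' : dX ≤ dX') (hPY : PY + a ≤ gp) (hPB : PY ≤ PB)
    (hm1 : PP ≤ m) (hm2 : PC + a + 3 ≤ m) (B : ℕ → S.p.Col → Finset (ℤ × ℤ × ℤ))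
    (hBm : ∀ v < N, ∀ c, ∀ r ∈ B v c, 0 < MF S.F S.ln S.p S.Q u PB a v c r) :
    ∑ v ∈ range N, ∑ c, ∑ r ∈ B v c, MF S.F S.ln S.p S.Q u PB a v c r *
      SXF S.F S.ln S.p S.μ S.Q u PB PC PY a dX lm v c r ≤
      DRI B₀ PP Λ gp m dX' * (1 + log g) := by
  have hJ := S.J_pos hg
  have hJ1 := S.J1_pos hg
  have hg' : (1 : ℝ) ≤ g := by exact_mod_cast hg
  have hl : 0 ≤ log (g : ℝ) := log_nonneg hg'
  have hlB : 0 ≤ log (B₀ : ℝ) := log_nonneg (by exact_mod_cast hB)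
  have hΛ : (0 : ℝ) < Λ := by exact_mod_cast S.Λ_pos
  have hnT : (0 : ℝ) < S.p.nT := by exact_mod_cast S.p.nT_pos
  have h1 := row_info (F := S.F) (ln := S.ln) (p := S.p) (lam := S.lam) (f0 := S.f0) (f1 := S.f1)
    (E := Λ * g) (PC := PC) (lm := lm) S.hμ hJ (by positivity) (fun c ω h b => S.sup c ω h b) hgp
    hdX hPY hPB (by rw [S.PP_eq]; exact hm1) hm2 B hBm
  refine h1.trans ?_
  have h2 : CRI S.p.PP gp m dX S.p.nT (Λ * g) (H S.μ S.F.P.x) ≤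
      S.p.nT * g * (16 * gp * 2 ^ PP * PP * Λ + 16 * 4 ^ PP * m * dX' * log B₀) := by
    unfold CRI
    rw [S.PP_eq]
    have e1 : (dX : ℝ) * H S.μ S.F.P.x ≤ dX' * (2 * log B₀ * g) := by
      have e2 : (dX : ℝ) ≤ dX' := by exact_mod_cast hdX'
      exact mul_le_mul e2 (H_x_le S hB) (H_nonneg S.hμ _) (Nat.cast_nonneg _)
    have e3 : 8 * 4 ^ PP * (S.p.nT : ℝ) * m * (dX * H S.μ S.F.P.x) ≤
        8 * 4 ^ PP * (S.p.nT : ℝ) * m * (dX' * (2 * log B₀ * g)) :=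
      mul_le_mul_of_nonneg_left e1 (by positivity)
    calc _ = 8 * gp * (2 * 2 ^ PP * PP * S.p.nT * (Λ * g)) +
          8 * 4 ^ PP * (S.p.nT : ℝ) * m * (dX * H S.μ S.F.P.x) := by ring
      _ ≤ 8 * gp * (2 * 2 ^ PP * PP * S.p.nT * (Λ * g)) +
          8 * 4 ^ PP * (S.p.nT : ℝ) * m * (dX' * (2 * log B₀ * g)) := by linarith
      _ = _ := by ring
  have h3 : S.p.nT * S.J1 ≤ (cols S.F S.ln S.p S.lam S.f S.f0 S.f1).J S.μ := S.J
  have h0 : 0 ≤ S.p.nT * g * (16 * gp * 2 ^ PP * PP * Λ + 16 * 4 ^ PP * m * dX' * log B₀) := by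
    positivity
  calc _ ≤ S.p.nT * g * (16 * gp * 2 ^ PP * PP * Λ + 16 * 4 ^ PP * m * dX' * log B₀) /
        (cols S.F S.ln S.p S.lam S.f S.f0 S.f1).J S.μ := div_le_div_of_nonneg_right h2 hJ.le
    _ ≤ S.p.nT * g * (16 * gp * 2 ^ PP * PP * Λ + 16 * 4 ^ PP * m * dX' * log B₀) /
        (S.p.nT * S.J1) := div_le_div_of_nonneg_left h0 (by positivity) h3
    _ = _ := by
      unfold DRI Sys.J1
      have : (0 : ℝ) < 1 + log g := by linarith
      field_simp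

end sys

lemma eL_le {κ d : ℝ} {a gn : ℕ} (hκ : κ ≤ d / 2 ^ (a + 9 + gn + 8)) :
    eL κ a 9 gn ≤ d := by
  unfold eL
  rwa [le_div_iff₀ (by positivity)] at hκ

/-- **the errors of the good boxes** -/
theorem rows_err (B₀ : ℕ) (e δ ps : ℝ) (lm0 lm1 a gn : ℕ) (hB : 1 ≤ B₀) (he : 0 ≤ e)
    (hδ : 0 < δ) (hps : 0 < ps) :
    ∃ κ e' : ℝ, 0 < κ ∧ κ < 1 ∧ 0 < e' ∧ ∀ (γ PC PY PB K₁ PP Γ σ Λ kN : ℕ) (c₂ ρ ε₂ : ℝ),
      PY ≤ PB → ∃ g₁ : ℕ, ∀ n g : ℕ, g₁ ≤ g → ∀ S : Sys B₀ K₁ PP Γ σ Λ kN c₂ ρ ε₂ e n g,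
      ∀ (u : ℝ) (N : ℕ) (B : ℕ → ℕ → S.p.Col → Finset (ℤ × ℤ × ℤ)),
      (∀ lm ∈ Icc lm0 lm1, ∀ v < N, ∀ c, ∀ r ∈ B lm v c,
        0 < MF S.F S.ln S.p S.Q u PB a v c r ∧ ∀ b : Bool,
          ps * MF S.F S.ln S.p S.Q u PB a v c r ≤ PE (QC S.Q c) (fun ω =>
            BF S.F S.ln S.p u PB a v c r ω ∧ inh (Tv (xs S.F u) v) r.2.1 b ω)) →
      log 2 * ∑ lm ∈ Icc lm0 lm1, ∑ v ∈ range N, ∑ c, ∑ r ∈ B lm v c,
        MF S.F S.ln S.p S.Q u PB a v c r * (2 * eL κ a 9 gn + 2 * e' +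
          CQ' κ ps e' * SXF S.F S.ln S.p S.μ S.Q u PB PC PY a (γ - lm) lm v c r) ≤ δ * g := by
  have hlB : 0 ≤ log (B₀ : ℝ) := log_nonneg (by exact_mod_cast hB)
  have hlog2 : 0 < log 2 := log_pos (by norm_num)
  have hlog21 : log 2 ≤ 1 := by
    have := log_le_sub_one_of_pos (show (0 : ℝ) < 2 by norm_num)
    linarith
  set cst : ℝ := 2 * e + 2 * log B₀ with hcst
  have hcst0 : 0 ≤ cst := by positivity
  set d : ℝ := δ * ps / (16 * (lm1 + 1) * (cst + 1)) with hd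
  have hd0 : 0 < d := by positivity
  set κ : ℝ := min (1 / 2) (d / 2 ^ (a + 9 + gn + 8)) with hκ
  have hκ0 : 0 < κ := lt_min (by norm_num) (by positivity)
  have hκ1 : κ < 1 := (min_le_left _ _).trans_lt (by norm_num)
  refine ⟨κ, d, hκ0, hκ1, hd0, ?_⟩
  intro γ PC PY PB K₁ PP Γ σ Λ kN c₂ ρ ε₂ hPB
  set gp : ℕ := γ + a + PY + 1 with hgp
  set m : ℕ := PP + PC + a + 3 with hm
  set CC : ℝ := (lm1 + 1) * CQ' κ ps d * DRI B₀ PP Λ gp m γ with hCC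
  obtain ⟨g₁, hg₁⟩ := ev_log CC CC (δ := δ / 2) (by positivity)
  refine ⟨max g₁ 1, fun n g hg S u N B hBm => ?_⟩
  have hg1 : 1 ≤ g := (le_max_right _ _).trans hg
  have hg' : (1 : ℝ) ≤ g := by exact_mod_cast hg1
  have hlg : 0 ≤ log (g : ℝ) := log_nonneg hg'
  have hCQ0 : 0 ≤ CQ' κ ps d := CQ'_nonneg hps hd0
  have hQ := S.probQ hg1
  have hcard : ((#(Icc lm0 lm1) : ℕ) : ℝ) ≤ lm1 + 1 := by
    rw [Nat.card_Icc]
    have : lm1 + 1 - lm0 ≤ lm1 + 1 := Nat.sub_le _ _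
    exact_mod_cast this
  -- one size of the digit cells
  have key : ∀ lm ∈ Icc lm0 lm1, ∑ v ∈ range N, ∑ c, ∑ r ∈ B lm v c,
        MF S.F S.ln S.p S.Q u PB a v c r * (2 * eL κ a 9 gn + 2 * d +
          CQ' κ ps d * SXF S.F S.ln S.p S.μ S.Q u PB PC PY a (γ - lm) lm v c r) ≤
      4 * d * (cst * g / ps) + CQ' κ ps d * (DRI B₀ PP Λ gp m γ * (1 + log g)) := by
    intro lm hlm
    have e1 := row_info_S S hB hg1 u (PB := PB) (PC := PC) (PY := PY) (a := a) (gp := gp)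
      (dX := γ - lm) (dX' := γ) (lm := lm) (N := N) (m := m) (by omega) (by omega) (by omega)
      (by omega) hPB (by omega) (by omega) (B lm) (fun v hv c r hr => (hBm lm hlm v hv c r hr).1)
    have e2 := count_good (F := S.F) (ln := S.ln) (p := S.p) (u := u) (PB := PB) (a := a) (n := N)
      hQ S.lam (ps := ps) (B lm) (fun v hv c r hr => (hBm lm hlm v hv c r hr).2)
    have e3 := H279.Hc_rb_le S hB hg1
    rw [← hcst] at e3
    have e4 : ∑ v ∈ range N, ∑ c, ∑ r ∈ B lm v c, MF S.F S.ln S.p S.Q u PB a v c r ≤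
        cst * g / ps := by
      rw [le_div_iff₀ hps, mul_comm]
      exact e2.trans e3
    have e5 : 2 * eL κ a 9 gn + 2 * d ≤ 4 * d := by
      have := eL_le (κ := κ) (d := d) (a := a) (gn := gn) (min_le_right _ _)
      linarith
    have e6 : 0 ≤ ∑ v ∈ range N, ∑ c, ∑ r ∈ B lm v c, MF S.F S.ln S.p S.Q u PB a v c r :=
      sum_nonneg fun v hv => sum_nonneg fun c _ => sum_nonneg fun r hr =>
        (hBm lm hlm v (mem_range.1 hv) c r hr).1.le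
    have e7 : ∑ v ∈ range N, ∑ c, ∑ r ∈ B lm v c,
        MF S.F S.ln S.p S.Q u PB a v c r * (2 * eL κ a 9 gn + 2 * d +
          CQ' κ ps d * SXF S.F S.ln S.p S.μ S.Q u PB PC PY a (γ - lm) lm v c r) =
        (2 * eL κ a 9 gn + 2 * d) *
          ∑ v ∈ range N, ∑ c, ∑ r ∈ B lm v c, MF S.F S.ln S.p S.Q u PB a v c r +
        CQ' κ ps d * ∑ v ∈ range N, ∑ c, ∑ r ∈ B lm v c, MF S.F S.ln S.p S.Q u PB a v c r *
          SXF S.F S.ln S.p S.μ S.Q u PB PC PY a (γ - lm) lm v c r := by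
      simp only [mul_sum, ← sum_add_distrib]
      refine sum_congr rfl fun v _ => sum_congr rfl fun c _ => sum_congr rfl fun r _ => ?_
      ring
    rw [e7]
    have e8 := mul_le_mul e5 e4 e6 (by positivity : (0 : ℝ) ≤ 4 * d)
    have e9 := mul_le_mul_of_nonneg_left e1 hCQ0
    linarith
  have hX0 : 0 ≤ 4 * d * (cst * g / ps) := by positivity
  have hDRI : 0 ≤ DRI B₀ PP Λ gp m γ := by unfold DRI; positivity
  have hY0 : 0 ≤ CQ' κ ps d * (DRI B₀ PP Λ gp m γ * (1 + log g)) := by positivity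
  have e1 := sum_le_sum key
  rw [sum_const, nsmul_eq_mul] at e1
  have e2 : ((#(Icc lm0 lm1) : ℕ) : ℝ) *
      (4 * d * (cst * g / ps) + CQ' κ ps d * (DRI B₀ PP Λ gp m γ * (1 + log g))) ≤
      (lm1 + 1) * (4 * d * (cst * g / ps) + CQ' κ ps d * (DRI B₀ PP Λ gp m γ * (1 + log g))) :=
    mul_le_mul_of_nonneg_right hcard (by positivity)
  have e3 : (lm1 + 1 : ℝ) * (4 * d * (cst * g / ps)) ≤ δ / 4 * g := by
    have f1 : (lm1 + 1 : ℝ) * (4 * d * (cst * g / ps)) = δ / 4 * g * (cst / (cst + 1)) := by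
      rw [hd]
      have : (cst + 1 : ℝ) ≠ 0 := by positivity
      field_simp
      ring
    rw [f1]
    have f2 : cst / (cst + 1) ≤ 1 := by
      rw [div_le_one (by positivity)]
      linarith
    have f3 : 0 ≤ δ / 4 * g := by positivity
    nlinarith
  have e4 : (lm1 + 1 : ℝ) * (CQ' κ ps d * (DRI B₀ PP Λ gp m γ * (1 + log g))) ≤ δ / 2 * g := by
    have f1 := hg₁ g ((le_max_left _ _).trans hg)
    have f2 : (lm1 + 1 : ℝ) * (CQ' κ ps d * (DRI B₀ PP Λ gp m γ * (1 + log g))) =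
        CC * log g + CC := by
      rw [hCC]
      ring
    rw [f2]
    exact f1
  have e5 : ∑ lm ∈ Icc lm0 lm1, ∑ v ∈ range N, ∑ c, ∑ r ∈ B lm v c,
        MF S.F S.ln S.p S.Q u PB a v c r * (2 * eL κ a 9 gn + 2 * d +
          CQ' κ ps d * SXF S.F S.ln S.p S.μ S.Q u PB PC PY a (γ - lm) lm v c r) ≤
      δ / 4 * g + δ / 2 * g := by
    refine e1.trans (e2.trans ?_)
    rw [mul_add]
    linarith
  have e6 : 0 ≤ δ / 4 * g + δ / 2 * g := by positivity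
  calc _ ≤ log 2 * (δ / 4 * g + δ / 2 * g) := mul_le_mul_of_nonneg_left e5 hlog2.le
    _ ≤ 1 * (δ / 4 * g + δ / 2 * g) := mul_le_mul_of_nonneg_right hlog21 e6
    _ ≤ δ * g := by
      have : 0 ≤ δ * g := by positivity
      linarith

end Vale.Agent.P065.H987
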