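import Vale.Agent.P065.H819.RowFr1
import Vale.Agent.P065.H987.PBudFr

/-!
# P065, ROWS: the informations of the boxes, part 1 (helper987)

* `DP_eq_KL`: 819's `DP` is a divergence;
* `NF`: the boxes of ROWS as a nested family, `BF_iff_NF`;
* `NF_Y`: the variables of the informations are determined by later boxes.
-/

set_option autoImplicit false

open Finset Real

noncomputable section

namespace Vale.Agent.P065.H987

open Vale.Agent.P065.UB Vale.Agent.P065.Ent Vale.Agent.P065.H154 Vale.Agent.P065.H700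
  Vale.Agent.P065.H819

/-! ## `DP` is a divergence -/

section dp

variable {Ω : Type*} [Fintype Ω] {ξ ε η : Type*}

lemma sum_prod_PE [DecidableEq ξ] [DecidableEq η] (μ : Ω → ℝ) (X : Ω → ξ) (B : Ω → η) (Q : Ω → Prop)
    [DecidablePred Q] (G : ξ → η → ℝ) :
    ∑ t ∈ univ.image X ×ˢ univ.image B, PE μ (fun ω => X ω = t.1 ∧ B ω = t.2 ∧ Q ω) * G t.1 t.2 =
      ∑ ω, if Q ω then μ ω * G (X ω) (B ω) else 0 := by
  classical
  have h1 : ∀ t : ξ × η, PE μ (fun ω => X ω = t.1 ∧ B ω = t.2 ∧ Q ω) * G t.1 t.2 =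
      ∑ ω, if X ω = t.1 ∧ B ω = t.2 ∧ Q ω then μ ω * G (X ω) (B ω) else 0 := by
    intro t
    rw [PE_eq, sum_mul]
    refine sum_congr rfl fun ω _ => ?_
    split_ifs with h
    · rw [h.1, h.2.1]
    · rw [zero_mul]
  simp only [h1]
  rw [sum_comm]
  refine sum_congr rfl fun ω _ => ?_
  rw [sum_eq_single (X ω, B ω)]
  · by_cases h : Q ω <;> simp [h]
  · intro t _ ht
    exact if_neg fun h => ht (Prod.ext h.1.symm h.2.1.symm)
  · intro h
    exact absurd (mem_product.2 ⟨mem_image_of_mem X (mem_univ ω),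
      mem_image_of_mem B (mem_univ ω)⟩) h

/-- **819's `DP` is the divergence of `(X, B)`** -/
theorem DP_eq_KL {μ : Ω → ℝ} (hμ : IsProb μ) (X : Ω → ξ) (E : Ω → ε) (B : Ω → η) (R : Ω → Prop)
    (e : ε) (hpos : 0 < PE μ (fun ω => E ω = e ∧ R ω)) :
    DP μ X E B R e =
      KL (cE μ (fun ω => E ω = e ∧ R ω)) (cE μ R) (fun ω => (X ω, B ω)) := by
  classical
  have hR : 0 < PE μ R := hpos.trans_le (PE_mono hμ fun _ h => h.2)
  set P1 := PE μ (fun ω => E ω = e ∧ R ω) with hP1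
  set P0 := PE μ R with hP0
  set a : ξ → η → ℝ := fun x y => PE μ (fun ω => X ω = x ∧ B ω = y ∧ E ω = e ∧ R ω) with ha
  set b : ξ → η → ℝ := fun x y => PE μ (fun ω => X ω = x ∧ B ω = y ∧ R ω) with hb
  have e0 : ∀ t : ξ × η, gk (a t.1 t.2) (b t.1 t.2 * P1 / P0) =
      a t.1 t.2 * log (a t.1 t.2 / (b t.1 t.2 * P1 / P0)) - a t.1 t.2 * 1 +
        b t.1 t.2 * (P1 / P0) := by
    intro t
    unfold gk
    ring
  have e1 := sum_prod_PE μ X B (fun ω => E ω = e ∧ R ω)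
    (fun x y => log (a x y / (b x y * P1 / P0)))
  have e2 := sum_prod_PE μ X B (fun ω => E ω = e ∧ R ω) (fun _ _ => (1 : ℝ))
  have e3 := sum_prod_PE μ X B R (fun _ _ => (P1 / P0))
  have e4 : ∑ t ∈ univ.image X ×ˢ univ.image B, gk (a t.1 t.2) (b t.1 t.2 * P1 / P0) =
      ∑ ω, if E ω = e ∧ R ω then μ ω * log (a (X ω) (B ω) / (b (X ω) (B ω) * P1 / P0)) else 0 := by
    rw [sum_congr rfl fun t _ => e0 t, sum_add_distrib, sum_sub_distrib]
    have f1 : ∑ t ∈ univ.image X ×ˢ univ.image B,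
        a t.1 t.2 * log (a t.1 t.2 / (b t.1 t.2 * P1 / P0)) = _ := e1
    have f2 : ∑ t ∈ univ.image X ×ˢ univ.image B, a t.1 t.2 * 1 = P1 := by
      refine e2.trans ?_
      rw [hP1, PE_eq]
      refine sum_congr rfl fun ω _ => ?_
      rw [mul_one]
    have f3 : ∑ t ∈ univ.image X ×ˢ univ.image B, b t.1 t.2 * (P1 / P0) = P1 := by
      refine e3.trans ?_
      have g1 : ∀ ω, (if R ω then μ ω * (P1 / P0) else 0) = (if R ω then μ ω else 0) * (P1 / P0) := by
        intro ω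
        split_ifs
        · rfl
        · rw [zero_mul]
      rw [sum_congr rfl fun ω _ => g1 ω, ← sum_mul, ← PE_eq μ R]
      rw [← hP0, mul_div_assoc', mul_comm, mul_div_assoc, div_self hR.ne', mul_one]
    rw [f1, f2, f3]
    ring
  have e5 : DP μ X E B R e = (∑ t ∈ univ.image X ×ˢ univ.image B,
      gk (a t.1 t.2) (b t.1 t.2 * P1 / P0)) / P1 := rfl
  rw [e5, e4, sum_div]
  unfold KL
  refine sum_congr rfl fun ω _ => ?_
  have e6 : cE μ (fun ω => E ω = e ∧ R ω) ω = if E ω = e ∧ R ω then μ ω / P1 else 0 := by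
    unfold cE cnd
    by_cases h : E ω = e ∧ R ω
    · rw [if_pos (eq_true h), if_pos h]
    · rw [if_neg (fun hh => h (of_eq_true hh)), if_neg h]
  rw [e6]
  split_ifs with h
  · rcases (hμ.nonneg ω).eq_or_lt with h0 | h0
    · rw [← h0]
      simp
    · have q1 : Pr (cE μ (fun ω => E ω = e ∧ R ω)) (fun ω => (X ω, B ω)) (X ω, B ω) =
          a (X ω) (B ω) / P1 := by
        rw [← H60.PE_eq_Pr, PE_cE]
        simp only [ha]
        congr 1
        exact PE_congr fun ω' => by simp only [Prod.mk.injEq, and_assoc]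
      have q2 : Pr (cE μ R) (fun ω => (X ω, B ω)) (X ω, B ω) = b (X ω) (B ω) / P0 := by
        rw [← H60.PE_eq_Pr, PE_cE]
        simp only [hb]
        congr 1
        exact PE_congr fun ω' => by simp only [Prod.mk.injEq, and_assoc]
      have p2 : 0 < b (X ω) (B ω) := by
        simp only [hb]
        rw [PE_eq]
        refine lt_of_lt_of_le h0 ?_
        have := single_le_sum (f := fun ω' => if X ω' = X ω ∧ B ω' = B ω ∧ R ω' then μ ω' else 0)
          (fun ω' _ => by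
            show 0 ≤ if X ω' = X ω ∧ B ω' = B ω ∧ R ω' then μ ω' else 0
            split_ifs
            · exact hμ.nonneg ω'
            · exact le_rfl) (mem_univ ω)
        simpa [h.2] using this
      rw [q1, q2]
      have e7 : a (X ω) (B ω) / P1 / (b (X ω) (B ω) / P0) =
          a (X ω) (B ω) / (b (X ω) (B ω) * P1 / P0) := by
        field_simp
      rw [e7]
      ring
  · rw [zero_div, zero_mul]

end dp

/-! ## The nested family of the boxes -/

section nf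

variable {Ω : Type*} (F : Fr Ω) (ln : Ω → Pt) (p : Prm)

/-- the box of a flag at the level `v`, with the frozen scale -/
def NF (u : ℝ) (PB a v : ℕ) (c : p.Col) (ω : Ω) : ℤ × ℕ × ℤ × ℤ :=
  (F.D u v ω, min (F.T' ω) (v + PB), Prm.S c.1 (ln ω), Nf F ln p a v c ω)

/-- the value of `NF` on the box `r` -/
def xv (PB v : ℕ) (r : ℤ × ℤ × ℤ) : ℤ × ℕ × ℤ × ℤ := (r.2.1, v + PB, r.1, r.2.2)

variable {F ln p}

lemma xv_inj {PB v : ℕ} {r r' : ℤ × ℤ × ℤ} (h : xv PB v r = xv PB v r') : r = r' := by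
  unfold xv at h
  simp only [Prod.mk.injEq] at h
  exact Prod.ext h.2.2.1 (Prod.ext h.1 h.2.2.2)

lemma BF_iff_NF {u : ℝ} {PB a v : ℕ} {c : p.Col} {r : ℤ × ℤ × ℤ} {ω : Ω} :
    BF F ln p u PB a v c r ω ↔ NF F ln p u PB a v c ω = xv PB v r := by
  rw [BF_iff]
  unfold NF xv Nf
  simp only [Prod.mk.injEq]
  constructor
  · rintro ⟨⟨h1, h2⟩, h3, h4⟩
    rw [min_eq_left (by omega : v ≤ F.T' ω + a)]
    exact ⟨h3, by omega, h1, h4⟩
  · rintro ⟨h1, h2, h3, h4⟩
    have h5 : v + PB ≤ F.T' ω := by omega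
    rw [min_eq_left (by omega : v ≤ F.T' ω + a)] at h4
    exact ⟨⟨h3, h5⟩, h1, h4⟩

lemma NF_det (u : ℝ) (PB a v : ℕ) (c : p.Col) :
    Det (NF F ln p u PB a (v + 1) c) (NF F ln p u PB a v c) := by
  intro ω ω' h
  unfold NF at h ⊢
  simp only [Prod.mk.injEq] at h ⊢
  obtain ⟨h1, h2, h3, h4⟩ := h
  have h5 := Rt_det (F := F) (ln := ln) (p := p) u a v (c, ω) (c, ω') (by
    unfold Rt
    simp only
    rw [h1, h3, h4])
  unfold Rt at h5
  simp only [Prod.mk.injEq] at h5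
  exact ⟨F.D_det u v _ _ h1, by omega, h3, h5.2.2.2⟩

lemma NF_rho {Lab : Type*} (lam : Ω → Lab) (u : ℝ) (PB a v : ℕ) (c : p.Col) {ω ω' : Ω}
    (h : rho F ln p lam c ω = rho F ln p lam c ω') :
    NF F ln p u PB a v c ω = NF F ln p u PB a v c ω' := by
  have h1 := rb_Rt (F := F) (ln := ln) (p := p) (lam := lam) u a v (c, ω) (c, ω') (by
    unfold rb
    simp only
    rw [h])
  unfold Rt at h1
  simp only [Prod.mk.injEq] at h1
  unfold rho at h
  simp only [Prod.mk.injEq] at h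
  have hx := F.xW _ _ h.1.1
  unfold NF
  rw [h1.2.1, h1.2.2.1, h1.2.2.2, F.T'x _ _ hx]

/-- rows with real exponents -/
lemma N_zpow (a t : ℕ) (c : p.Col) (x : ℝ) (w : Pt) :
    Prm.N a t c x w = ⌊(2 : ℝ) ^ ((t : ℤ) - a) * Prm.h c x w⌋ := by
  unfold Prm.N
  congr 1
  rw [zpow_sub₀ (by norm_num), zpow_natCast, zpow_natCast]
  ring

/-- **later boxes determine the rows**: `n : ℤ` is the digit, `n + v ≤ v + gp - a` -/
lemma NF_row {u : ℝ} {PB a v gp : ℕ} {c : p.Col} {ω ω' : Ω} {r : ℤ × ℤ × ℤ}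
    (h : BF F ln p u PB a v c r ω) (h' : BF F ln p u PB a v c r ω')
    (he : NF F ln p u PB a (v + gp) c ω = NF F ln p u PB a (v + gp) c ω') {n : ℤ}
    (hn : n + a ≤ gp) (hn2 : n ≤ PB) :
    ⌊(2 : ℝ) ^ ((v : ℤ) + n) * Prm.h c (F.P.x ω) (ln ω)⌋ =
      ⌊(2 : ℝ) ^ ((v : ℤ) + n) * Prm.h c (F.P.x ω') (ln ω')⌋ := by
  rw [BF_iff] at h h'
  obtain ⟨⟨-, hT⟩, -⟩ := h
  obtain ⟨⟨-, hT'⟩, -⟩ := h'
  unfold NF Nf at he
  simp only [Prod.mk.injEq] at he
  obtain ⟨-, he2, -, he4⟩ := he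
  have hmin : min (v + gp) (F.T' ω + a) = min (v + gp) (F.T' ω' + a) := by omega
  rw [← hmin, N_zpow, N_zpow] at he4
  refine H60.floor_nest ?_ he4
  omega

end nf

end Vale.Agent.P065.H987
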