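import Vale.Agent.P065.H987.Mom
import Vale.Agent.P065.H987.Far

/-!
# P065: the strip lemma (helper987)

`strip`: the `k`-edges inside a set `J` are distributed over classes; if at an edge of class `i` the
points of `J` strictly below are those of a fixed number `N i` of points plus points of `T i`, and the
intervals `[N i, N i + #T i)` cover no integer more than `m` times, then the edges of class `i` are
edges of one level of a set `Q i ⊇ T i`, and `∑ #(Q i) ≤ ∑ #(T i) + m #(EdBd P k J I)`.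
-/

set_option autoImplicit false

namespace Vale.Agent.P065.H987

open Finset Vale.Agent.P065.UB Vale.Agent.P065.UB.RankAux

theorem Good.mono {P Q : Finset Pt} (hP : Good P) (h : Q ⊆ P) : Good Q :=
  ⟨fun p hp q hq => hP.xinj p (h hp) q (h hq), fun m a ha b hb c hc =>
    hP.gen m a (h ha) b (h hb) c (h hc)⟩

open Classical in
theorem exists_sorted {α : Type*} (f : α → ℝ) :
    ∀ (n : ℕ) (s : Finset α), #s = n → (∀ a ∈ s, ∀ b ∈ s, f a = f b → a = b) →
      ∃ l : List α, l.Pairwise (fun a b => f a < f b) ∧ ∀ x, x ∈ l ↔ x ∈ s := by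
  intro n
  induction n with
  | zero =>
    intro s hs _
    rw [Finset.card_eq_zero] at hs
    exact ⟨[], List.Pairwise.nil, by simp [hs]⟩
  | succ n ih =>
    intro s hs hinj
    have hne : s.Nonempty := by rw [← Finset.card_pos, hs]; exact Nat.succ_pos _
    obtain ⟨a, ha, hmin⟩ := s.exists_min_image f hne
    obtain ⟨l, hl, hm⟩ := ih (s.erase a) (by rw [Finset.card_erase_of_mem ha, hs]; rfl)
      (fun x hx y hy => hinj x (Finset.mem_of_mem_erase hx) y (Finset.mem_of_mem_erase hy))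
    refine ⟨a :: l, List.pairwise_cons.2 ⟨?_, hl⟩, ?_⟩
    · intro b hb
      have hb' := (hm b).1 hb
      refine lt_of_le_of_ne (hmin b (Finset.mem_of_mem_erase hb')) fun h => ?_
      exact (Finset.ne_of_mem_erase hb') (hinj a ha b (Finset.mem_of_mem_erase hb') h).symm
    · intro x
      rw [List.mem_cons, hm, Finset.mem_erase]
      constructor
      · rintro (rfl | h)
        · exact ha
        · exact h.2
      · intro h
        by_cases hx : x = a
        · exact Or.inl hx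
        · exact Or.inr ⟨hx, h⟩

open Classical in
/-- one step of the variation -/
theorem step_le {P : Finset Pt} (hP : Good P) {k : ℕ} {J : Finset Pt} (hJ : J ⊆ P) {I : Set ℝ}
    (hI : I.OrdConnected) {e e' : Pt × Pt} (he : e ∈ EdIn P k J I) (he' : e' ∈ EdIn P k J I)
    (hlt : sl e.1 e.2 < sl e'.1 e'.2) {T : Finset Pt} {N : ℕ}
    (hr : cT J e = N + cT T e) (hr' : cT J e' = N + cT T e')
    (h1 : cT T e < #T) (h1' : cT T e' < #T) :
    (cT T e - cT T e') + (cT T e' - cT T e) ≤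
      #{f ∈ EdBd P k J I | (sl e.1 e.2 < sl f.1 f.2 ∧ sl f.1 f.2 < sl e'.1 e'.2) ∧
        N ≤ cT J f - 1 ∧ cT J f - 1 < N + #T} := by
  obtain ⟨e1, e2⟩ := e
  obtain ⟨e1', e2'⟩ := e'
  have c := mem_EdIn.1 he
  have c' := mem_EdIn.1 he'
  have hsub : Finset.Ico (min (cT T (e1, e2)) (cT T (e1', e2'))) (max (cT T (e1, e2)) (cT T (e1', e2')))
      ⊆ ({f ∈ EdBd P k J I | (sl e1 e2 < sl f.1 f.2 ∧ sl f.1 f.2 < sl e1' e2') ∧
        N ≤ cT J f - 1 ∧ cT J f - 1 < N + #T} : Finset (Pt × Pt)).image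
          (fun f => cT J f - 1 - N) := by
    intro a ha
    rw [Finset.mem_Ico] at ha
    obtain ⟨f, hf, hf1, hf2, hf3, hf4⟩ := threshold hP hJ c.1 c'.1 hlt c.2.2.1 c'.2.1
      (a := N + a) (by
        rw [hr, hr']
        rcases le_total (cT T (e1, e2)) (cT T (e1', e2')) with h | h
        · rw [min_eq_left h, max_eq_right h] at ha
          left; omega
        · rw [min_eq_right h, max_eq_left h] at ha
          right; omega)
    rw [Finset.mem_image]
    refine ⟨f, Finset.mem_filter.2 ⟨?_, ⟨hf2, hf3⟩, ?_, ?_⟩, ?_⟩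
    · unfold EdBd
      exact Finset.mem_filter.2 ⟨hf, hf1, hI.out c.2.2.2 c'.2.2.2 ⟨hf2.le, hf3.le⟩⟩
    · omega
    · have := ha.2
      have h3 : max (cT T (e1, e2)) (cT T (e1', e2')) < #T := max_lt h1 h1'
      omega
    · omega
  have h := (Finset.card_le_card hsub).trans Finset.card_image_le
  rw [Nat.card_Ico] at h
  refine le_trans ?_ h
  rcases le_total (cT T (e1, e2)) (cT T (e1', e2')) with h | h
  · rw [min_eq_left h, max_eq_right h]
    omega
  · rw [min_eq_right h, max_eq_left h]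
    omega

open Classical in
/-- the variation along a list of edges of one class -/
theorem vari_le {P : Finset Pt} (hP : Good P) {k : ℕ} {J : Finset Pt} (hJ : J ⊆ P) {I : Set ℝ}
    (hI : I.OrdConnected) {T : Finset Pt} {N : ℕ} :
    ∀ (l : List (Pt × Pt)), l.Pairwise (fun a b => sl a.1 a.2 < sl b.1 b.2) →
      (∀ e ∈ l, e ∈ EdIn P k J I ∧ cT J e = N + cT T e ∧ cT T e < #T) →
      ∀ a ∈ l.head?,
      vari (cT T) l ≤ #{f ∈ EdBd P k J I | sl a.1 a.2 < sl f.1 f.2 ∧
        N ≤ cT J f - 1 ∧ cT J f - 1 < N + #T} := by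
  intro l
  induction l with
  | nil => intro _ _ a h; simp at h
  | cons a l1 ih =>
    intro hp hs a₀ ha₀
    simp only [List.head?_cons, Option.mem_some_iff] at ha₀
    subst ha₀
    cases l1 with
    | nil => exact Nat.zero_le _
    | cons b l2 =>
      have hp2 := (List.pairwise_cons.1 hp).2
      have hab : sl a.1 a.2 < sl b.1 b.2 := (List.pairwise_cons.1 hp).1 b (List.mem_cons_self ..)
      have h1 := ih hp2 (fun x hx => hs x (List.mem_cons_of_mem _ hx)) b (by simp)
      obtain ⟨a1, a2, a3⟩ := hs a (List.mem_cons_self ..)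
      obtain ⟨b1, b2, b3⟩ := hs b (List.mem_cons_of_mem _ (List.mem_cons_self ..))
      have h2 := step_le hP hJ hI a1 b1 hab a2 b2 a3 b3
      unfold vari
      refine (add_le_add h2 h1).trans ?_
      rw [← Finset.card_union_of_disjoint]
      · apply Finset.card_le_card
        intro f hf
        rw [Finset.mem_union, Finset.mem_filter, Finset.mem_filter] at hf
        rw [Finset.mem_filter]
        rcases hf with hf | hf
        · exact ⟨hf.1, hf.2.1.1, hf.2.2⟩
        · exact ⟨hf.1, hab.trans hf.2.1, hf.2.2⟩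
      · rw [Finset.disjoint_left]
        intro f hf hf'
        rw [Finset.mem_filter] at hf hf'
        exact lt_asymm hf.2.1.2 hf'.2.1

theorem cT_lt {T : Finset Pt} {e : Pt × Pt} (h : e.1 ∈ T) : cT T e < #T := by
  classical
  unfold cT
  apply Finset.card_lt_card
  rw [Finset.ssubset_iff_of_subset (Finset.filter_subset _ _)]
  exact ⟨e.1, h, fun h' => lt_irrefl _ (Finset.mem_filter.1 h').2⟩

open Classical in
/-- **the strip lemma**, abstract form -/
theorem strip {ι : Type*} [DecidableEq ι] {P : Finset Pt} (hP : Good P) {k : ℕ} {J : Finset Pt} (hJ : J ⊆ P)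
    {I : Set ℝ} (hI : I.OrdConnected) {E : Finset (Pt × Pt)} (hE : E ⊆ EdIn P k J I)
    (c : Pt × Pt → ι) (T : ι → Finset Pt) (N : ι → ℕ) (hT : ∀ i, T i ⊆ P)
    (hends : ∀ e ∈ E, e.1 ∈ T (c e) ∧ e.2 ∈ T (c e))
    (hrank : ∀ e ∈ E, cT J e = N (c e) + cT (T (c e)) e)
    {m : ℕ} (hK : ∀ a : ℕ, #{i ∈ E.image c | N i ≤ a ∧ a < N i + #(T i)} ≤ m) (X₀ : ℝ) :
    ∃ (Q : ι → Finset Pt) (κ : ι → ℕ), (∀ i, Good (Q i)) ∧ (∀ i, T i ⊆ Q i) ∧
      (∀ i, ∀ w ∈ Q i, w ∉ T i → X₀ < |w.1|) ∧
      (∀ e ∈ E, e ∈ Ed (Q (c e)) (κ (c e))) ∧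
      ∑ i ∈ E.image c, #(Q i) ≤ ∑ i ∈ E.image c, #(T i) + m * #(EdBd P k J I) := by
  -- one class
  have one : ∀ i, ∃ (W : Finset Pt) (κ : ℕ), Disjoint (T i) W ∧ (∀ w ∈ W, X₀ < |w.1|) ∧
      Good (T i ∪ W) ∧ (∀ e ∈ E, c e = i → e ∈ Ed (T i ∪ W) κ) ∧
      #W ≤ #{f ∈ EdBd P k J I | N i ≤ cT J f - 1 ∧ cT J f - 1 < N i + #(T i)} := by
    intro i
    set Ei : Finset (Pt × Pt) := {e ∈ E | c e = i} with hEi
    have hEi' : ∀ e ∈ Ei, e ∈ E ∧ c e = i := fun e he => Finset.mem_filter.1 he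
    obtain ⟨l, hl, hm⟩ := exists_sorted (fun e : Pt × Pt => sl e.1 e.2) #Ei Ei rfl (by
      rintro ⟨p, q⟩ h1 ⟨p', q'⟩ h2 h
      obtain ⟨h3, h4⟩ := Ed_unique hP (mem_EdIn.1 (hE (hEi' _ h1).1)).1
        (mem_EdIn.1 (hE (hEi' _ h2).1)).1 h
      rw [h3, h4])
    have hl' : ∀ e ∈ l, e ∈ EdIn P k J I ∧ cT J e = N i + cT (T i) e ∧ cT (T i) e < #(T i) := by
      intro e he
      obtain ⟨h1, h2⟩ := hEi' e ((hm e).1 he)
      have h3 := hends e h1
      have h4 := hrank e h1
      rw [h2] at h3 h4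
      exact ⟨hE h1, h4, cT_lt h3.1⟩
    obtain ⟨W, κ, w1, w2, w3, w4, w5⟩ := sim (Good.mono hP (hT i))
      (fun e : Pt × Pt => sl e.1 e.2) (cT (T i)) X₀ l hl
    refine ⟨W, κ, w1, w3, w4, ?_, ?_⟩
    · rintro ⟨p, q⟩ he hc
      have h3 := hends (p, q) he
      rw [hc] at h3
      have h5 := w5 (p, q) ((hm _).2 (Finset.mem_filter.2 ⟨he, hc⟩)) p h3.1
      refine mem_Ed.2 ⟨Finset.mem_union_left _ h3.1, Finset.mem_union_left _ h3.2,
        (mem_Ed.1 (mem_EdIn.1 (hE he)).1).2.2.1, ?_⟩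
      rw [Finset.filter_union, Finset.card_union_of_disjoint (Finset.disjoint_filter_filter w1)]
      unfold cT at h5
      simp only at h5
      omega
    · refine w2.trans ?_
      cases l with
      | nil => exact Nat.zero_le _
      | cons a l1 =>
        refine (vari_le hP hJ hI (a :: l1) hl hl' a (by simp)).trans ?_
        apply Finset.card_le_card
        intro f hf
        rw [Finset.mem_filter] at hf ⊢
        exact ⟨hf.1, hf.2.2⟩
  choose W κ w1 w2 w3 w4 w5 using one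
  refine ⟨fun i => T i ∪ W i, κ, w3, fun i => Finset.subset_union_left, ?_, ?_, ?_⟩
  · intro i w hw hwT
    rcases Finset.mem_union.1 hw with h | h
    · exact absurd h hwT
    · exact w2 i w h
  · intro e he
    exact w4 (c e) e he rfl
  · have h1 : ∑ i ∈ E.image c, #(T i ∪ W i) ≤ ∑ i ∈ E.image c, #(T i) +
        ∑ i ∈ E.image c, #{f ∈ EdBd P k J I | N i ≤ cT J f - 1 ∧ cT J f - 1 < N i + #(T i)} := by
      rw [← Finset.sum_add_distrib]
      apply Finset.sum_le_sum
      intro i _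
      exact (Finset.card_union_le _ _).trans (Nat.add_le_add_left (w5 i) _)
    refine h1.trans (Nat.add_le_add_left ?_ _)
    have h2 := Finset.sum_card_bipartiteAbove_eq_sum_card_bipartiteBelow
      (s := E.image c) (t := EdBd P k J I)
      (fun i f => N i ≤ cT J f - 1 ∧ cT J f - 1 < N i + #(T i))
    unfold Finset.bipartiteAbove Finset.bipartiteBelow at h2
    rw [h2]
    calc _ ≤ ∑ _f ∈ EdBd P k J I, m := Finset.sum_le_sum fun f _ => hK (cT J f - 1)
      _ = m * #(EdBd P k J I) := by rw [Finset.sum_const, smul_eq_mul, mul_comm]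

end Vale.Agent.P065.H987
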