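import Vale.Agent.P065.H987.Strip

/-!
# P065: touch events (helper987)

A touch event of the level `k` of `P` is a pair `(m, v)`, `v ∈ P`, such that exactly `k` points of `P`
are strictly below `v` at the time `m`.
`threshold_touch`: thresholds between touch events of points of `J`.
`strip_touch`: the strip lemma for touch events.
-/

set_option autoImplicit false

namespace Vale.Agent.P065.H987

open Finset Vale.Agent.P065.UB Vale.Agent.P065.UB.RankAux

open Classical in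
/-- the number of points of `J` strictly below `v` at the time `m` -/
noncomputable def rk (J : Finset Pt) (m : ℝ) (v : Pt) : ℕ := #{u ∈ J | ht m u < ht m v}

/-- touch event of the level `k` -/
def Touch (P : Finset Pt) (k : ℕ) (m : ℝ) (v : Pt) : Prop := v ∈ P ∧ rk P m v = k

open Classical in
/-- the `k`-edges with exactly one end in `J` -/
def Bdy (P : Finset Pt) (k : ℕ) (J : Finset Pt) (f : Pt × Pt) : Prop :=
  f ∈ Ed P k ∧ ((f.1 ∈ J ∧ f.2 ∉ J) ∨ (f.1 ∉ J ∧ f.2 ∈ J))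

open Classical in
theorem card_ins' {P J : Finset Pt} (hJ : J ⊆ P) {m : ℝ} {v r : Pt} (hrB : ¬ ht m r < ht m v) :
    #(insert r ({u ∈ P | ht m u < ht m v} : Finset Pt) ∩ J) =
      rk J m v + (if r ∈ J then 1 else 0) := by
  have e : #(({u ∈ P | ht m u < ht m v} : Finset Pt) ∩ J) = rk J m v := by
    unfold rk
    congr 1
    ext u
    simp only [Finset.mem_inter, Finset.mem_filter]
    constructor
    · rintro ⟨⟨_, h⟩, h'⟩; exact ⟨h', h⟩
    · rintro ⟨h, h'⟩; exact ⟨⟨hJ h, h'⟩, h⟩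
  split_ifs with hr
  · rw [Finset.insert_inter_of_mem hr, Finset.card_insert_of_notMem, e]
    intro h
    exact hrB (Finset.mem_filter.1 (Finset.mem_inter.1 h).1).2
  · rw [Finset.insert_inter_of_notMem hr, Nat.add_zero, e]

open Classical in
/-- the lowest points just after a touch event -/
theorem touch_lowA {P : Finset Pt} (hP : Good P) {k : ℕ} {J : Finset Pt} (hJ : J ⊆ P) {m : ℝ}
    {v : Pt} (hv : Touch P k m v) (hvJ : v ∈ J) :
    ∃ L : Finset Pt, LowA P m L ∧ #L = k + 1 ∧ (#(L ∩ J) = rk J m v + 1 ∨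
      (#(L ∩ J) = rk J m v ∧ ∃ f, Bdy P k J f ∧ sl f.1 f.2 = m ∧ cT J f = rk J m v)) := by
  obtain ⟨hvP, hk⟩ := hv
  by_cases hu : ∃ u ∈ P, v.1 < u.1 ∧ ht m v = ht m u
  · obtain ⟨u, huP, hx, hh⟩ := hu
    have hm : m = sl v u := (ht_eq_iff hx m).1 hh
    have he : (v, u) ∈ Ed P k := by
      refine mem_Ed.2 ⟨hvP, huP, hx, ?_⟩
      rw [← hm]; exact hk
    obtain ⟨l1, _, l3, _⟩ := low_of_edge hP he
    rw [← hm] at l1 l3
    refine ⟨_, l1, l3, ?_⟩
    have hnb : ¬ ht m u < ht m v := by rw [hh]; exact lt_irrefl _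
    rw [card_ins' hJ hnb]
    by_cases huJ : u ∈ J
    · left; rw [if_pos huJ]
    · right
      rw [if_neg huJ]
      refine ⟨rfl, (v, u), ⟨he, Or.inl ⟨hvJ, huJ⟩⟩, hm.symm, ?_⟩
      unfold cT rk
      simp only
      rw [← hm]
  · push Not at hu
    refine ⟨insert v ({u ∈ P | ht m u < ht m v} : Finset Pt), ⟨?_, ?_⟩, ?_, ?_⟩
    · intro a ha
      rcases Finset.mem_insert.1 ha with rfl | ha
      · exact hvP
      · exact (Finset.mem_filter.1 ha).1
    · intro a ha b hb hbL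
      rw [Finset.mem_insert, not_or, Finset.mem_filter] at hbL
      have hb' : ht m v ≤ ht m b := not_lt.1 fun h => hbL.2 ⟨hb, h⟩
      rcases Finset.mem_insert.1 ha with rfl | ha
      · rcases hb'.lt_or_eq with h | h
        · exact Or.inl h
        · right
          refine ⟨h, ?_⟩
          rcases lt_trichotomy b.1 a.1 with h1 | h1 | h1
          · exact h1
          · exact absurd (hP.xinj b hb a hvP h1) hbL.1
          · exact absurd h (hu b hb h1)
      · exact Or.inl (lt_of_lt_of_le (Finset.mem_filter.1 ha).2 hb')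
    · rw [Finset.card_insert_of_notMem, ← hk]
      · rfl
      · intro h
        exact lt_irrefl _ (Finset.mem_filter.1 h).2
    · left
      rw [card_ins' hJ (lt_irrefl _), if_pos hvJ]

open Classical in
/-- the lowest points just before a touch event -/
theorem touch_lowB {P : Finset Pt} (hP : Good P) {k : ℕ} {J : Finset Pt} (hJ : J ⊆ P) {m : ℝ}
    {v : Pt} (hv : Touch P k m v) (hvJ : v ∈ J) :
    ∃ L : Finset Pt, LowB P m L ∧ #L = k + 1 ∧ (#(L ∩ J) = rk J m v + 1 ∨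
      (#(L ∩ J) = rk J m v ∧ ∃ f, Bdy P k J f ∧ sl f.1 f.2 = m ∧ cT J f = rk J m v)) := by
  obtain ⟨hvP, hk⟩ := hv
  by_cases hu : ∃ u ∈ P, u.1 < v.1 ∧ ht m v = ht m u
  · obtain ⟨u, huP, hx, hh⟩ := hu
    have hm : m = sl u v := (ht_eq_iff hx m).1 hh.symm
    have hfil : ({w ∈ P | ht m w < ht m u} : Finset Pt) = {w ∈ P | ht m w < ht m v} := by
      rw [hh]
    have he : (u, v) ∈ Ed P k := by
      refine mem_Ed.2 ⟨huP, hvP, hx, ?_⟩
      rw [← hm, hfil]; exact hk
    obtain ⟨_, l2, _, l4⟩ := low_of_edge hP he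
    rw [← hm, hfil] at l2 l4
    refine ⟨_, l2, l4, ?_⟩
    have hnb : ¬ ht m u < ht m v := by rw [hh]; exact lt_irrefl _
    rw [card_ins' hJ hnb]
    by_cases huJ : u ∈ J
    · left; rw [if_pos huJ]
    · right
      rw [if_neg huJ]
      refine ⟨rfl, (u, v), ⟨he, Or.inr ⟨huJ, hvJ⟩⟩, hm.symm, ?_⟩
      unfold cT rk
      simp only
      rw [← hm, hh]
  · push Not at hu
    refine ⟨insert v ({u ∈ P | ht m u < ht m v} : Finset Pt), ⟨?_, ?_⟩, ?_, ?_⟩
    · intro a ha
      rcases Finset.mem_insert.1 ha with rfl | ha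
      · exact hvP
      · exact (Finset.mem_filter.1 ha).1
    · intro a ha b hb hbL
      rw [Finset.mem_insert, not_or, Finset.mem_filter] at hbL
      have hb' : ht m v ≤ ht m b := not_lt.1 fun h => hbL.2 ⟨hb, h⟩
      rcases Finset.mem_insert.1 ha with rfl | ha
      · rcases hb'.lt_or_eq with h | h
        · exact Or.inl h
        · right
          refine ⟨h, ?_⟩
          rcases lt_trichotomy a.1 b.1 with h1 | h1 | h1
          · exact h1
          · exact absurd (hP.xinj b hb a hvP h1.symm) hbL.1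
          · exact absurd h (hu b hb h1)
      · exact Or.inl (lt_of_lt_of_le (Finset.mem_filter.1 ha).2 hb')
    · rw [Finset.card_insert_of_notMem, ← hk]
      · rfl
      · intro h
        exact lt_irrefl _ (Finset.mem_filter.1 h).2
    · left
      rw [card_ins' hJ (lt_irrefl _), if_pos hvJ]

/-- nothing happens where there is no `k`-edge -/
theorem cur_eq {P : Finset Pt} (hP : Good P) {k : ℕ} {J : Finset Pt}
    {m₁ m₂ : ℝ} (hlt : m₁ < m₂) {L L' : Finset Pt} (hL : LowA P m₁ L) (hc : #L = k + 1)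
    (hL' : LowB P m₂ L') (hc' : #L' = k + 1)
    (hno : ∀ g ∈ Ed P k, m₁ < sl g.1 g.2 → m₂ ≤ sl g.1 g.2) : 
    #(L ∩ J) = #(L' ∩ J) := by
  classical
  have key := cursor hP J hL' hc' _ m₁ L (Nat.lt_succ_self _) hlt hL hc
  have hM : Mix P k J m₁ m₂ = ∅ := by
    rw [Finset.eq_empty_iff_forall_notMem]
    intro g hg
    unfold Mix at hg
    rw [Finset.mem_filter] at hg
    exact absurd hg.2.2.2 (not_lt.2 (hno g hg.1 hg.2.2.1))
  rw [hM, Finset.card_empty] at key
  omega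

theorem aft_eq {P : Finset Pt} (hP : Good P) {k : ℕ} {J : Finset Pt} (hJ : J ⊆ P) {g : Pt × Pt}
    (hg : g ∈ Ed P k) : ∃ L : Finset Pt, LowA P (sl g.1 g.2) L ∧ #L = k + 1 ∧ #(L ∩ J) = aft J g := by
  classical
  obtain ⟨p, q⟩ := g
  obtain ⟨l1, l2, l3, l4⟩ := low_of_edge hP hg
  have hx := (mem_Ed.1 hg).2.2.1
  refine ⟨_, l1, l3, ?_⟩
  have := card_ins hJ (p := p) (q := q) (r := q)
    (by rw [(ht_eq_iff hx (sl p q)).2 rfl]; exact lt_irrefl _)
  unfold aft
  simp only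
  convert this using 2

theorem bef_eq {P : Finset Pt} (hP : Good P) {k : ℕ} {J : Finset Pt} (hJ : J ⊆ P) {g : Pt × Pt}
    (hg : g ∈ Ed P k) : ∃ L : Finset Pt, LowB P (sl g.1 g.2) L ∧ #L = k + 1 ∧ #(L ∩ J) = bef J g := by
  classical
  obtain ⟨p, q⟩ := g
  obtain ⟨l1, l2, l3, l4⟩ := low_of_edge hP hg
  refine ⟨_, l2, l4, ?_⟩
  have := card_ins hJ (p := p) (q := q) (r := p) (lt_irrefl _)
  unfold bef
  simp only
  convert this using 2

/-- a property of the number of points of `J` among the lowest points changes at an edge -/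
theorem chain {P : Finset Pt} (hP : Good P) {k : ℕ} {J : Finset Pt} (hJ : J ⊆ P)
    {m₁ m₂ : ℝ} (hlt : m₁ < m₂) {L L' : Finset Pt} (hL : LowA P m₁ L) (hc : #L = k + 1)
    (hL' : LowB P m₂ L') (hc' : #L' = k + 1) (R : ℕ → Prop) (hR : R #(L ∩ J))
    (hR' : ¬ R #(L' ∩ J)) :
    ∃ f ∈ Ed P k, m₁ < sl f.1 f.2 ∧ sl f.1 f.2 < m₂ ∧ R (bef J f) ∧ ¬ R (aft J f) := by
  classical
  -- from a time with `R` to the next edge
  have next : ∀ (m : ℝ) (M : Finset Pt), m₁ ≤ m → m < m₂ → LowA P m M → #M = k + 1 → R #(M ∩ J) →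
      ∃ f ∈ Ed P k, m < sl f.1 f.2 ∧ sl f.1 f.2 < m₂ ∧ R (bef J f) := by
    intro m M h1 h2 h3 h4 h5
    set N : Finset (Pt × Pt) := {f ∈ Ed P k | m < sl f.1 f.2 ∧ sl f.1 f.2 < m₂} with hN
    rcases N.eq_empty_or_nonempty with h0 | h0
    · exfalso
      apply hR'
      rw [← cur_eq hP (J := J) h2 h3 h4 hL' hc' (fun g hg hl => ?_)]
      · exact h5
      · by_contra hge
        have : g ∈ N := Finset.mem_filter.2 ⟨hg, hl, not_le.1 hge⟩
        rw [h0] at this
        exact absurd this (Finset.notMem_empty _)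
    · obtain ⟨f, hf, hmin⟩ := N.exists_min_image (fun g => sl g.1 g.2) h0
      have cf := Finset.mem_filter.1 hf
      obtain ⟨L1, a1, a2, a3⟩ := bef_eq hP hJ cf.1
      refine ⟨f, cf.1, cf.2.1, cf.2.2, ?_⟩
      rw [← a3, ← cur_eq hP (J := J) cf.2.1 h3 h4 a1 a2 (fun g hg hl => ?_)]
      · exact h5
      · by_contra hge
        have hge := not_le.1 hge
        have : g ∈ N := Finset.mem_filter.2 ⟨hg, hl, hge.trans cf.2.2⟩
        exact absurd (hmin g this) (not_le.2 hge)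
  set G : Finset (Pt × Pt) := {g ∈ Ed P k | m₁ < sl g.1 g.2 ∧ sl g.1 g.2 < m₂ ∧ R (aft J g)} with hG
  rcases G.eq_empty_or_nonempty with h0 | h0
  · obtain ⟨f, hf, f1, f2, f3⟩ := next m₁ L le_rfl hlt hL hc hR
    refine ⟨f, hf, f1, f2, f3, fun h => ?_⟩
    have : f ∈ G := Finset.mem_filter.2 ⟨hf, f1, f2, h⟩
    rw [h0] at this
    exact absurd this (Finset.notMem_empty _)
  · obtain ⟨g, hg, hmax⟩ := G.exists_max_image (fun g => sl g.1 g.2) h0
    have cg := Finset.mem_filter.1 hg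
    obtain ⟨L1, a1, a2, a3⟩ := aft_eq hP hJ cg.1
    obtain ⟨f, hf, f1, f2, f3⟩ := next _ L1 cg.2.1.le cg.2.2.1 a1 a2 (by rw [a3]; exact cg.2.2.2)
    refine ⟨f, hf, cg.2.1.trans f1, f2, f3, fun h => ?_⟩
    have : f ∈ G := Finset.mem_filter.2 ⟨hf, cg.2.1.trans f1, f2, h⟩
    exact absurd (hmax f this) (not_le.2 f1)

/-- **thresholds between touch events** -/
theorem threshold_touch {P : Finset Pt} (hP : Good P) {k : ℕ} {J : Finset Pt} (hJ : J ⊆ P)
    {m m' : ℝ} (hlt : m < m') {v v' : Pt} (hv : Touch P k m v) (hv' : Touch P k m' v')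
    (hvJ : v ∈ J) (hvJ' : v' ∈ J) {a : ℕ}
    (ha : (rk J m v ≤ a ∧ a < rk J m' v') ∨ (rk J m' v' ≤ a ∧ a < rk J m v)) :
    ∃ f, Bdy P k J f ∧ m ≤ sl f.1 f.2 ∧ sl f.1 f.2 ≤ m' ∧ cT J f = a + 1 := by
  classical
  obtain ⟨L, l1, l2, l3⟩ := touch_lowA hP hJ hv hvJ
  obtain ⟨L', l1', l2', l3'⟩ := touch_lowB hP hJ hv' hvJ'
  rcases ha with ⟨h3, h4⟩ | ⟨h3, h4⟩
  · -- upwards
    have hR : #(L ∩ J) ≤ a + 1 := by
      rcases l3 with h | h
      · omega
      · have := h.1; omega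
    by_cases hR' : #(L' ∩ J) ≤ a + 1
    · rcases l3' with h | ⟨h, f, f1, f2, f3⟩
      · omega
      · exact ⟨f, f1, by rw [f2]; exact hlt.le, f2.le, by omega⟩
    · obtain ⟨f, hf, f1, f2, f3, f4⟩ := chain hP hJ hlt l1 l2 l1' l2' (fun x => x ≤ a + 1) hR hR'
      refine ⟨f, ⟨hf, ?_⟩, f1.le, f2.le, ?_⟩ <;>
      · unfold bef aft at *
        by_cases i1 : f.1 ∈ J <;> by_cases i2 : f.2 ∈ J <;>
          simp only [i1, i2, if_true, if_false] at f3 f4 ⊢ <;>
          first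
            | omega
            | tauto
  · -- downwards
    have hR' : ¬ (a + 2 ≤ #(L' ∩ J)) := by
      rcases l3' with h | h
      · omega
      · have := h.1; omega
    by_cases hR : a + 2 ≤ #(L ∩ J)
    · obtain ⟨f, hf, f1, f2, f3, f4⟩ := chain hP hJ hlt l1 l2 l1' l2' (fun x => a + 2 ≤ x) hR hR'
      refine ⟨f, ⟨hf, ?_⟩, f1.le, f2.le, ?_⟩ <;>
      · unfold bef aft at *
        by_cases i1 : f.1 ∈ J <;> by_cases i2 : f.2 ∈ J <;>
          simp only [i1, i2, if_true, if_false] at f3 f4 ⊢ <;>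
          first
            | omega
            | tauto
    · rcases l3 with h | ⟨h, f, f1, f2, f3⟩
      · omega
      · exact ⟨f, f1, f2.ge, by rw [f2]; exact hlt.le, by omega⟩

end Vale.Agent.P065.H987

namespace Vale.Agent.P065.H987

open Finset Vale.Agent.P065.UB Vale.Agent.P065.UB.RankAux

open Classical in
/-- two touch events at the same time have the same height -/
theorem touch_ht {P : Finset Pt} {k : ℕ} {m : ℝ} {v v' : Pt} (hv : Touch P k m v)
    (hv' : Touch P k m v') : ht m v = ht m v' := by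
  have key : ∀ a b : Pt, Touch P k m a → Touch P k m b → ¬ ht m a < ht m b := by
    intro a b ha hb hlt
    have : rk P m a < rk P m b := by
      unfold rk
      apply Finset.card_lt_card
      rw [Finset.ssubset_iff_of_subset]
      · exact ⟨a, Finset.mem_filter.2 ⟨ha.1, hlt⟩, fun h => lt_irrefl _ (Finset.mem_filter.1 h).2⟩
      · intro u hu
        rw [Finset.mem_filter] at hu ⊢
        exact ⟨hu.1, hu.2.trans hlt⟩
    rw [ha.2, hb.2] at this
    exact lt_irrefl _ this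
  exact le_antisymm (not_lt.1 (key _ _ hv' hv)) (not_lt.1 (key _ _ hv hv'))

theorem rk_congr {T : Finset Pt} {m : ℝ} {v v' : Pt} (h : ht m v = ht m v') :
    rk T m v = rk T m v' := by
  unfold rk; rw [h]

theorem rk_lt {T : Finset Pt} {m : ℝ} {v : Pt} (h : v ∈ T) : rk T m v < #T := by
  classical
  unfold rk
  apply Finset.card_lt_card
  rw [Finset.ssubset_iff_of_subset (Finset.filter_subset _ _)]
  exact ⟨v, h, fun h' => lt_irrefl _ (Finset.mem_filter.1 h').2⟩

open Classical in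
theorem step_le_touch {P : Finset Pt} (hP : Good P) {k : ℕ} {J : Finset Pt} (hJ : J ⊆ P)
    {I : Set ℝ} (hI : I.OrdConnected) {m m' : ℝ} (hlt : m < m') (hm : m ∈ I) (hm' : m' ∈ I)
    {v v' : Pt} (hv : Touch P k m v) (hv' : Touch P k m' v') (hvJ : v ∈ J) (hvJ' : v' ∈ J)
    {r r' N n : ℕ} (hr : rk J m v = N + r) (hr' : rk J m' v' = N + r') (h1 : r < n)
    (h1' : r' < n) :
    (r - r') + (r' - r) ≤ #{f ∈ EdBd P k J I | (m ≤ sl f.1 f.2 ∧ sl f.1 f.2 ≤ m') ∧
      N ≤ cT J f - 1 ∧ cT J f - 1 < N + n} := by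
  have hsub : Finset.Ico (min r r') (max r r')
      ⊆ ({f ∈ EdBd P k J I | (m ≤ sl f.1 f.2 ∧ sl f.1 f.2 ≤ m') ∧
        N ≤ cT J f - 1 ∧ cT J f - 1 < N + n} : Finset (Pt × Pt)).image
          (fun f => cT J f - 1 - N) := by
    intro a ha
    rw [Finset.mem_Ico] at ha
    obtain ⟨f, hf, hf2, hf3, hf4⟩ := threshold_touch hP hJ hlt hv hv' hvJ hvJ' (a := N + a) (by
        rw [hr, hr']
        rcases le_total r r' with h | h
        · rw [min_eq_left h, max_eq_right h] at ha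
          left; omega
        · rw [min_eq_right h, max_eq_left h] at ha
          right; omega)
    rw [Finset.mem_image]
    refine ⟨f, Finset.mem_filter.2 ⟨?_, ⟨hf2, hf3⟩, ?_, ?_⟩, ?_⟩
    · unfold EdBd
      exact Finset.mem_filter.2 ⟨hf.1, hf.2, hI.out hm hm' ⟨hf2, hf3⟩⟩
    · omega
    · have := ha.2
      have h3 : max r r' < n := max_lt h1 h1'
      omega
    · omega
  have h := (Finset.card_le_card hsub).trans Finset.card_image_le
  rw [Nat.card_Ico] at h
  refine le_trans ?_ h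
  rcases le_total r r' with h | h
  · rw [min_eq_left h, max_eq_right h]
    omega
  · rw [min_eq_right h, max_eq_left h]
    omega

open Classical in
/-- the variation along a list of times of touch events of one class -/
theorem vari_le_touch {P : Finset Pt} (hP : Good P) {k : ℕ} {J : Finset Pt} (hJ : J ⊆ P)
    {I : Set ℝ} (hI : I.OrdConnected) {N n : ℕ} (r : ℝ → ℕ) :
    ∀ (l : List ℝ), l.Pairwise (fun a b => a < b) →
      (∀ m ∈ l, m ∈ I ∧ r m < n ∧ ∃ v ∈ J, Touch P k m v ∧ rk J m v = N + r m) →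
      ∀ a ∈ l.head?,
      vari r l ≤ #{f ∈ EdBd P k J I | a ≤ sl f.1 f.2 ∧ N ≤ cT J f - 1 ∧ cT J f - 1 < N + n} +
        #{f ∈ EdBd P k J I | a < sl f.1 f.2 ∧ N ≤ cT J f - 1 ∧ cT J f - 1 < N + n} := by
  intro l
  induction l with
  | nil => intro _ _ a h; simp at h
  | cons a l1 ih =>
    intro hp hs a₀ ha₀
    simp only [List.head?_cons, Option.mem_some_iff] at ha₀
    subst ha₀
    cases l1 with
    | nil => exact Nat.zero_le _
    | cons b l2 =>
      have hp2 := (List.pairwise_cons.1 hp).2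
      have hab : a < b := (List.pairwise_cons.1 hp).1 b (List.mem_cons_self ..)
      have h1 := ih hp2 (fun x hx => hs x (List.mem_cons_of_mem _ hx)) b (by simp)
      obtain ⟨a1, a2, v, a3, a4, a5⟩ := hs a (List.mem_cons_self ..)
      obtain ⟨b1, b2, v', b3, b4, b5⟩ := hs b (List.mem_cons_of_mem _ (List.mem_cons_self ..))
      have h2 := step_le_touch hP hJ hI hab a1 b1 a4 b4 a3 b3 a5 b5 a2 b2
      unfold vari
      have h3 : #{f ∈ EdBd P k J I | (a ≤ sl f.1 f.2 ∧ sl f.1 f.2 ≤ b) ∧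
          N ≤ cT J f - 1 ∧ cT J f - 1 < N + n} +
        #{f ∈ EdBd P k J I | b < sl f.1 f.2 ∧ N ≤ cT J f - 1 ∧ cT J f - 1 < N + n} ≤
        #{f ∈ EdBd P k J I | a ≤ sl f.1 f.2 ∧ N ≤ cT J f - 1 ∧ cT J f - 1 < N + n} := by
        rw [← Finset.card_union_of_disjoint]
        · apply Finset.card_le_card
          intro f hf
          rw [Finset.mem_union, Finset.mem_filter, Finset.mem_filter] at hf
          rw [Finset.mem_filter]
          rcases hf with hf | hf
          · exact ⟨hf.1, hf.2.1.1, hf.2.2⟩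
          · exact ⟨hf.1, (hab.trans hf.2.1).le, hf.2.2⟩
        · rw [Finset.disjoint_left]
          intro f hf hf'
          rw [Finset.mem_filter] at hf hf'
          exact absurd hf.2.1.2 (not_le.2 hf'.2.1)
      have h4 : #{f ∈ EdBd P k J I | b ≤ sl f.1 f.2 ∧ N ≤ cT J f - 1 ∧ cT J f - 1 < N + n} ≤
        #{f ∈ EdBd P k J I | a < sl f.1 f.2 ∧ N ≤ cT J f - 1 ∧ cT J f - 1 < N + n} := by
        apply Finset.card_le_card
        intro f hf
        rw [Finset.mem_filter] at hf ⊢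
        exact ⟨hf.1, lt_of_lt_of_le hab hf.2.1, hf.2.2⟩
      omega

open Classical in
/-- **the strip lemma for touch events**, abstract form -/
theorem strip_touch {ι : Type*} [DecidableEq ι] {P : Finset Pt} (hP : Good P) {k : ℕ}
    {J : Finset Pt} (hJ : J ⊆ P) {I : Set ℝ} (hI : I.OrdConnected) {E : Finset (ℝ × Pt)}
    (hE : ∀ e ∈ E, Touch P k e.1 e.2 ∧ e.2 ∈ J ∧ e.1 ∈ I)
    (c : ℝ × Pt → ι) (T : ι → Finset Pt) (N : ι → ℕ) (hT : ∀ i, T i ⊆ P)
    (hends : ∀ e ∈ E, e.2 ∈ T (c e))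
    (hrank : ∀ e ∈ E, rk J e.1 e.2 = N (c e) + rk (T (c e)) e.1 e.2)
    {μ : ℕ} (hK : ∀ a : ℕ, #{i ∈ E.image c | N i ≤ a ∧ a < N i + #(T i)} ≤ μ) (X₀ : ℝ) :
    ∃ (Q : ι → Finset Pt) (κ : ι → ℕ), (∀ i, Good (Q i)) ∧ (∀ i, T i ⊆ Q i) ∧
      (∀ i, ∀ w ∈ Q i, w ∉ T i → X₀ < |w.1|) ∧
      (∀ e ∈ E, Touch (Q (c e)) (κ (c e)) e.1 e.2) ∧
      ∑ i ∈ E.image c, #(Q i) ≤ ∑ i ∈ E.image c, #(T i) + 2 * μ * #(EdBd P k J I) := by
  -- one class
  have one : ∀ i, ∃ (W : Finset Pt) (κ : ℕ), Disjoint (T i) W ∧ (∀ w ∈ W, X₀ < |w.1|) ∧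
      Good (T i ∪ W) ∧ (∀ e ∈ E, c e = i → Touch (T i ∪ W) κ e.1 e.2) ∧
      #W ≤ 2 * #{f ∈ EdBd P k J I | N i ≤ cT J f - 1 ∧ cT J f - 1 < N i + #(T i)} := by
    intro i
    set Ei : Finset (ℝ × Pt) := {e ∈ E | c e = i} with hEi
    have hEi' : ∀ e ∈ Ei, e ∈ E ∧ c e = i := fun e he => Finset.mem_filter.1 he
    obtain ⟨g, hg⟩ : ∃ g : ℝ → Pt, ∀ m, m ∈ Ei.image Prod.fst → (m, g m) ∈ Ei := by
      have : ∀ m, ∃ v, m ∈ Ei.image Prod.fst → (m, v) ∈ Ei := by
        intro m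
        by_cases h : m ∈ Ei.image Prod.fst
        · obtain ⟨⟨m', v⟩, he, rfl⟩ := Finset.mem_image.1 h
          exact ⟨v, fun _ => he⟩
        · exact ⟨0, fun h' => absurd h' h⟩
      choose g hg using this
      exact ⟨g, hg⟩
    obtain ⟨l, hl, hm⟩ := exists_sorted (fun m : ℝ => m) _ (Ei.image Prod.fst) rfl
      (fun _ _ _ _ h => h)
    have hl' : ∀ m ∈ l, m ∈ I ∧ rk (T i) m (g m) < #(T i) ∧
        ∃ v ∈ J, Touch P k m v ∧ rk J m v = N i + rk (T i) m (g m) := by
      intro m hml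
      have h0 := hg m ((hm m).1 hml)
      obtain ⟨h1, h2⟩ := hEi' _ h0
      obtain ⟨h3, h4, h5⟩ := hE _ h1
      have h6 := hends _ h1
      have h7 := hrank _ h1
      rw [h2] at h6 h7
      exact ⟨h5, rk_lt h6, g m, h4, h3, h7⟩
    obtain ⟨W, κ, w1, w2, w3, w4, w5⟩ := sim (Good.mono hP (hT i))
      (fun m : ℝ => m) (fun m => rk (T i) m (g m)) X₀ l hl
    refine ⟨W, κ, w1, w3, w4, ?_, ?_⟩
    · rintro ⟨m, v⟩ he hc
      have h3 := hends _ he
      rw [hc] at h3
      have he' : (m, v) ∈ Ei := Finset.mem_filter.2 ⟨he, hc⟩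
      have hmA : m ∈ Ei.image Prod.fst := Finset.mem_image.2 ⟨_, he', rfl⟩
      have h5 := w5 m ((hm _).2 hmA) v h3
      have h6 : ht m (g m) = ht m v := touch_ht (hE _ (hEi' _ (hg m hmA)).1).1 (hE _ he).1
      have h5' : #{w ∈ W | ht m w < ht m v} + rk (T i) m (g m) = κ := h5
      rw [rk_congr h6] at h5'
      refine ⟨Finset.mem_union_left _ h3, ?_⟩
      show rk (T i ∪ W) m v = κ
      have e1 : rk (T i ∪ W) m v = rk (T i) m v + #{w ∈ W | ht m w < ht m v} := by
        unfold rk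
        rw [Finset.filter_union, Finset.card_union_of_disjoint (Finset.disjoint_filter_filter w1)]
      omega
    · refine w2.trans ?_
      cases l with
      | nil => exact Nat.zero_le _
      | cons a l1 =>
        refine (vari_le_touch hP hJ hI _ (a :: l1) hl hl' a (by simp)).trans ?_
        rw [two_mul]
        apply add_le_add
        · apply Finset.card_le_card
          intro f hf
          rw [Finset.mem_filter] at hf ⊢
          exact ⟨hf.1, hf.2.2⟩
        · apply Finset.card_le_card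
          intro f hf
          rw [Finset.mem_filter] at hf ⊢
          exact ⟨hf.1, hf.2.2⟩
  choose W κ w1 w2 w3 w4 w5 using one
  refine ⟨fun i => T i ∪ W i, κ, w3, fun i => Finset.subset_union_left, ?_, ?_, ?_⟩
  · intro i w hw hwT
    rcases Finset.mem_union.1 hw with h | h
    · exact absurd h hwT
    · exact w2 i w h
  · intro e he
    exact w4 (c e) e he rfl
  · have h1 : ∑ i ∈ E.image c, #(T i ∪ W i) ≤ ∑ i ∈ E.image c, #(T i) +
        2 * ∑ i ∈ E.image c,
          #{f ∈ EdBd P k J I | N i ≤ cT J f - 1 ∧ cT J f - 1 < N i + #(T i)} := by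
      rw [Finset.mul_sum, ← Finset.sum_add_distrib]
      apply Finset.sum_le_sum
      intro i _
      exact (Finset.card_union_le _ _).trans (Nat.add_le_add_left (w5 i) _)
    refine h1.trans (Nat.add_le_add_left ?_ _)
    have h2 := Finset.sum_card_bipartiteAbove_eq_sum_card_bipartiteBelow
      (s := E.image c) (t := EdBd P k J I)
      (fun i f => N i ≤ cT J f - 1 ∧ cT J f - 1 < N i + #(T i))
    unfold Finset.bipartiteAbove Finset.bipartiteBelow at h2
    rw [h2]
    have h3 : ∑ f ∈ EdBd P k J I, #{i ∈ E.image c | N i ≤ cT J f - 1 ∧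
        cT J f - 1 < N i + #(T i)} ≤ μ * #(EdBd P k J I) :=
      calc _ ≤ ∑ _f ∈ EdBd P k J I, μ := Finset.sum_le_sum fun f _ => hK (cT J f - 1)
        _ = μ * #(EdBd P k J I) := by rw [Finset.sum_const, smul_eq_mul, mul_comm]
    calc _ ≤ 2 * (μ * #(EdBd P k J I)) := Nat.mul_le_mul_left _ h3
      _ = _ := by ring

end Vale.Agent.P065.H987
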